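import Vale.Agent.Lib.P335.Bip.Av
import Vale.Agent.Lib.P335.Bip.AvMore
import Vale.Agent.Lib.P335.Bip.TripleGap
import Vale.Agent.Lib.P335.Bip.Gap
import Vale.Agent.Lib.P335.Bip.Knabe

/-!
# P335 / graphs, abstract layer: the finite-size criterion with a disjoint-pair bound

`X` is a finite type, `V` a type of labels, `r p` an equivalence relation on `X` for every
2-subset `p` of `S : Finset V` (and every 3-subset), `P_p a = a - av (r p) a`,
`H = ∑ p, P_p`.  If

* for every 3-subset `t` the three projections `P_p`, `p ⊆ t`, satisfy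
  `∑ p, ‖P_p a‖² ≤ ‖∑ p, P_p a‖²`  (triple gap), and
* the sum of `⟨P_p a, P_q a⟩` over ordered pairs of disjoint 2-subsets is at least
  `∑ p, ‖P_p a‖²`,

then `‖H a‖² ≥ 2 ⟨a, H a⟩`, and so `‖f - av s f‖² ≤ (1/2) ∑ p, ‖P_p f‖²` as soon as the common
fixed functions of the `av (r p)` are the `s`-invariant ones.
-/

namespace Vale.Agent.Lib.P335.Gr

open Finset
open scoped Classical
open Vale.Agent.Lib.P335.Bip

/-- Two 2-subsets of a 3-set are not disjoint. -/
theorem not_disjoint_of_mem_powersetCard_three {R : Type*} [DecidableEq R] {t p q : Finset R}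
    (ht : t.card = 3) (hp : p ∈ t.powersetCard 2) (hq : q ∈ t.powersetCard 2) :
    ¬ Disjoint p q := by
  rw [Finset.mem_powersetCard] at hp hq
  intro hd
  have h1 := Finset.card_union_of_disjoint hd
  have h2 := Finset.card_le_card (Finset.union_subset hp.1 hq.1)
  omega

/-- A 2-subset is not disjoint from itself. -/
theorem not_disjoint_self_of_mem_powersetCard_two {R : Type*} [DecidableEq R] {S p : Finset R}
    (hp : p ∈ S.powersetCard 2) : ¬ Disjoint p p := by
  rw [Finset.mem_powersetCard] at hp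
  intro hd
  rw [Finset.disjoint_self_iff_empty] at hd
  rw [hd] at hp
  simp at hp

/-- The 2-subsets of `S` disjoint from `p` are the 2-subsets of `S \ p`. -/
theorem filter_disjoint_powersetCard {R : Type*} [DecidableEq R] (S p : Finset R) (k : ℕ) :
    (S.powersetCard k).filter (fun q => Disjoint p q) = (S \ p).powersetCard k := by
  ext q
  simp only [Finset.mem_filter, Finset.mem_powersetCard, Finset.subset_sdiff]
  constructor
  · rintro ⟨⟨h1, h2⟩, h3⟩
    exact ⟨⟨h1, h3.symm⟩, h2⟩
  · rintro ⟨⟨h1, h3⟩, h2⟩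
    exact ⟨⟨h1, h2⟩, h3.symm⟩

/-- The sum over ordered pairs of disjoint `k`-subsets is symmetric. -/
theorem sum_disjoint_swap {R : Type*} [DecidableEq R] (S : Finset R) (k : ℕ)
    (F : Finset R → Finset R → ℝ) :
    ∑ p ∈ S.powersetCard k, ∑ q ∈ (S \ p).powersetCard k, F q p
      = ∑ p ∈ S.powersetCard k, ∑ q ∈ (S \ p).powersetCard k, F p q := by
  have e : ∀ G : Finset R → Finset R → ℝ,
      ∑ p ∈ S.powersetCard k, ∑ q ∈ (S \ p).powersetCard k, G p q
        = ∑ p ∈ S.powersetCard k, ∑ q ∈ S.powersetCard k,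
            (if Disjoint p q then G p q else 0) := by
    intro G
    refine Finset.sum_congr rfl (fun p _ => ?_)
    rw [← filter_disjoint_powersetCard, Finset.sum_filter]
  rw [e (fun p q => F q p), e F, Finset.sum_comm]
  refine Finset.sum_congr rfl (fun p _ => Finset.sum_congr rfl (fun q _ => ?_))
  by_cases h : Disjoint p q
  · rw [if_pos h, if_pos h.symm]
  · rw [if_neg h, if_neg (fun h' => h h'.symm)]

/-- KNABE WITH A DISJOINT BOUND.  If the disjoint pairs contribute at least the diagonal and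
every triple contributes at least its diagonal, then the full double sum is at least twice the
diagonal. -/
theorem knabe_sum_two {R : Type*} [DecidableEq R] (S : Finset R) (B : Finset R → Finset R → ℝ)
    (hdisj : ∑ p ∈ S.powersetCard 2, B p p
      ≤ ∑ p ∈ S.powersetCard 2, ∑ q ∈ (S \ p).powersetCard 2, B p q)
    (htri : ∀ t ∈ S.powersetCard 3,
      ∑ p ∈ t.powersetCard 2, B p p ≤ ∑ p ∈ t.powersetCard 2, ∑ q ∈ t.powersetCard 2, B p q) :
    2 * ∑ p ∈ S.powersetCard 2, B p p
      ≤ ∑ p ∈ S.powersetCard 2, ∑ q ∈ S.powersetCard 2, B p q := by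
  have hk := knabe_sum S (fun p q => if Disjoint p q then 0 else B p q)
    (fun p _ q _ hpq => by rw [if_pos hpq])
    (fun t ht => by
      have htc : t.card = 3 := (Finset.mem_powersetCard.mp ht).2
      have e1 : ∑ p ∈ t.powersetCard 2, (if Disjoint p p then 0 else B p p)
          = ∑ p ∈ t.powersetCard 2, B p p :=
        Finset.sum_congr rfl (fun p hp => by
          rw [if_neg (not_disjoint_self_of_mem_powersetCard_two hp)])
      have e2 : ∑ p ∈ t.powersetCard 2, ∑ q ∈ t.powersetCard 2,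
          (if Disjoint p q then 0 else B p q)
          = ∑ p ∈ t.powersetCard 2, ∑ q ∈ t.powersetCard 2, B p q :=
        Finset.sum_congr rfl (fun p hp => Finset.sum_congr rfl (fun q hq => by
          rw [if_neg (not_disjoint_of_mem_powersetCard_three htc hp hq)]))
      rw [e1, e2]
      exact htri t ht)
  have e1 : ∑ p ∈ S.powersetCard 2, (if Disjoint p p then 0 else B p p)
      = ∑ p ∈ S.powersetCard 2, B p p :=
    Finset.sum_congr rfl (fun p hp => by
      rw [if_neg (not_disjoint_self_of_mem_powersetCard_two hp)])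
  have e2 : ∑ p ∈ S.powersetCard 2, ∑ q ∈ S.powersetCard 2,
      (if Disjoint p q then 0 else B p q)
      = ∑ p ∈ S.powersetCard 2, ∑ q ∈ S.powersetCard 2, B p q
        - ∑ p ∈ S.powersetCard 2, ∑ q ∈ (S \ p).powersetCard 2, B p q := by
    rw [← Finset.sum_sub_distrib]
    refine Finset.sum_congr rfl (fun p _ => ?_)
    rw [← filter_disjoint_powersetCard, Finset.sum_filter, ← Finset.sum_sub_distrib]
    refine Finset.sum_congr rfl (fun q _ => ?_)
    by_cases h : Disjoint p q
    · rw [if_pos h, if_pos h, sub_self]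
    · rw [if_neg h, if_neg h, sub_zero]
  rw [e1, e2] at hk
  linarith

/-- Assembly of the disjoint bound from the two local steps: `B p q` is the cross term of the
pair `(p, q)`, `D p` the diagonal term, `Sm p q` the block term and `N p q` the defect term. -/
theorem disjoint_bound_of_steps {R : Type*} [DecidableEq R] (S : Finset R)
    (B Sm N : Finset R → Finset R → ℝ) (D : Finset R → ℝ)
    (hstep1 : ∀ p ∈ S.powersetCard 2, ∀ q ∈ (S \ p).powersetCard 2,
      2 * Sm p q ≤ B p q + B q p + N p q + N q p)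
    (hstep2 : ∀ p ∈ S.powersetCard 2, D p ≤ ∑ q ∈ (S \ p).powersetCard 2, (Sm p q - N p q)) :
    ∑ p ∈ S.powersetCard 2, D p
      ≤ ∑ p ∈ S.powersetCard 2, ∑ q ∈ (S \ p).powersetCard 2, B p q := by
  have h1 : ∑ p ∈ S.powersetCard 2, ∑ q ∈ (S \ p).powersetCard 2, 2 * Sm p q
      ≤ ∑ p ∈ S.powersetCard 2, ∑ q ∈ (S \ p).powersetCard 2,
          (B p q + B q p + N p q + N q p) :=
    Finset.sum_le_sum (fun p hp => Finset.sum_le_sum (fun q hq => hstep1 p hp q hq))
  have h2 : ∑ p ∈ S.powersetCard 2, D p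
      ≤ ∑ p ∈ S.powersetCard 2, ∑ q ∈ (S \ p).powersetCard 2, (Sm p q - N p q) :=
    Finset.sum_le_sum (fun p hp => hstep2 p hp)
  have e1 : ∑ p ∈ S.powersetCard 2, ∑ q ∈ (S \ p).powersetCard 2,
      (B p q + B q p + N p q + N q p)
      = 2 * ∑ p ∈ S.powersetCard 2, ∑ q ∈ (S \ p).powersetCard 2, B p q
        + 2 * ∑ p ∈ S.powersetCard 2, ∑ q ∈ (S \ p).powersetCard 2, N p q := by
    simp only [Finset.sum_add_distrib]
    rw [sum_disjoint_swap S 2 B, sum_disjoint_swap S 2 N]
    ring
  have e2 : ∑ p ∈ S.powersetCard 2, ∑ q ∈ (S \ p).powersetCard 2, 2 * Sm p q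
      = 2 * ∑ p ∈ S.powersetCard 2, ∑ q ∈ (S \ p).powersetCard 2, Sm p q := by
    simp only [Finset.mul_sum]
  have e3 : ∑ p ∈ S.powersetCard 2, ∑ q ∈ (S \ p).powersetCard 2, (Sm p q - N p q)
      = ∑ p ∈ S.powersetCard 2, ∑ q ∈ (S \ p).powersetCard 2, Sm p q
        - ∑ p ∈ S.powersetCard 2, ∑ q ∈ (S \ p).powersetCard 2, N p q := by
    simp only [Finset.sum_sub_distrib]
  rw [e1, e2] at h1
  rw [e3] at h2
  linarith

variable {X : Type*} [Fintype X]

/-- Sum of all products of a finite family of functions: the square of the sum. -/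
theorem sq_sum_expand {ι : Type*} (I : Finset ι) (P : ι → X → ℝ) :
    ∑ p ∈ I, ∑ q ∈ I, ∑ x, P p x * P q x = ∑ x, (∑ p ∈ I, P p x) ^ 2 := by
  have h1 : ∀ x, (∑ p ∈ I, P p x) ^ 2 = ∑ p ∈ I, ∑ q ∈ I, P p x * P q x := by
    intro x
    rw [sq, Finset.sum_mul_sum]
  calc ∑ p ∈ I, ∑ q ∈ I, ∑ x, P p x * P q x
      = ∑ p ∈ I, ∑ x, ∑ q ∈ I, P p x * P q x :=
        Finset.sum_congr rfl (fun p _ => Finset.sum_comm)
    _ = ∑ x, ∑ p ∈ I, ∑ q ∈ I, P p x * P q x := Finset.sum_comm
    _ = ∑ x, (∑ p ∈ I, P p x) ^ 2 := Finset.sum_congr rfl (fun x _ => (h1 x).symm)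

/-- ABSTRACT GAP THEOREM (triple-gap form).  `r p` are the pair relations, `s` the global
relation.  Hypotheses: triple gap `htri`, disjoint bound `hdisj`, and `hker`: a function fixed
by all pair averages is fixed by the global average.  Conclusion: the Poincare inequality
with constant `1/2` for the pair projections. -/
theorem gap_two_of_tri {V : Type*} [DecidableEq V] (S : Finset V)
    (r : Finset V → X → X → Prop) (s : X → X → Prop)
    (hr : ∀ p ∈ S.powersetCard 2, Equivalence (r p)) (hs : Equivalence s)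
    (hfine : ∀ p ∈ S.powersetCard 2, ∀ x y, r p x y → s x y)
    (hker : ∀ a : X → ℝ, (∀ p ∈ S.powersetCard 2, av (r p) a = a) → av s a = a)
    (htri : ∀ t ∈ S.powersetCard 3, ∀ a : X → ℝ,
      ∑ p ∈ t.powersetCard 2, ∑ x, (a x - av (r p) a x) ^ 2
        ≤ ∑ x, (∑ p ∈ t.powersetCard 2, (a x - av (r p) a x)) ^ 2)
    (hdisj : ∀ a : X → ℝ, ∑ p ∈ S.powersetCard 2, ∑ x, (a x - av (r p) a x) ^ 2
      ≤ ∑ p ∈ S.powersetCard 2, ∑ q ∈ (S \ p).powersetCard 2,
          ∑ x, (a x - av (r p) a x) * (a x - av (r q) a x))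
    (f : X → ℝ) :
    ∑ x, (f x - av s f x) ^ 2
      ≤ (1 / 2) * ∑ p ∈ S.powersetCard 2, ∑ x, (f x - av (r p) f x) ^ 2 := by
  -- the local operator and its half
  let H : (X → ℝ) →ₗ[ℝ] (X → ℝ) := ∑ p ∈ S.powersetCard 2, (LinearMap.id - avL (r p))
  have hH : ∀ (a : X → ℝ) (x : X), H a x = ∑ p ∈ S.powersetCard 2, (a x - av (r p) a x) := by
    intro a x
    simp only [H, LinearMap.sum_apply, Finset.sum_apply, LinearMap.sub_apply,
      LinearMap.id_apply, avL_apply, Pi.sub_apply]
  let H2 : (X → ℝ) →ₗ[ℝ] (X → ℝ) := (1 / 2 : ℝ) • H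
  have hH2 : ∀ (a : X → ℝ) (x : X), H2 a x = (1 / 2) * H a x := by
    intro a x
    simp only [H2, LinearMap.smul_apply, Pi.smul_apply, smul_eq_mul]
  have K1 : ∀ a : X → ℝ, ∑ x, a x * H a x
      = ∑ p ∈ S.powersetCard 2, ∑ x, (a x - av (r p) a x) ^ 2 := by
    intro a
    calc ∑ x, a x * H a x
        = ∑ x, ∑ p ∈ S.powersetCard 2, a x * (a x - av (r p) a x) := by
          refine Finset.sum_congr rfl (fun x _ => ?_)
          rw [hH, Finset.mul_sum]
      _ = ∑ p ∈ S.powersetCard 2, ∑ x, a x * (a x - av (r p) a x) := Finset.sum_comm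
      _ = ∑ p ∈ S.powersetCard 2, ∑ x, (a x - av (r p) a x) ^ 2 := by
          refine Finset.sum_congr rfl (fun p hp => ?_)
          rw [sum_sub_av_sq (hr p hp) a, ← Finset.sum_sub_distrib]
          exact Finset.sum_congr rfl (fun x _ => by ring)
  have hsymm : ∀ a b : X → ℝ, ∑ x, H a x * b x = ∑ x, a x * H b x := by
    intro a b
    calc ∑ x, H a x * b x
        = ∑ x, ∑ p ∈ S.powersetCard 2, (a x * b x - av (r p) a x * b x) := by
          refine Finset.sum_congr rfl (fun x _ => ?_)
          rw [hH, Finset.sum_mul]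
          exact Finset.sum_congr rfl (fun p _ => by ring)
      _ = ∑ p ∈ S.powersetCard 2, ∑ x, (a x * b x - av (r p) a x * b x) := Finset.sum_comm
      _ = ∑ p ∈ S.powersetCard 2, ∑ x, (a x * b x - a x * av (r p) b x) := by
          refine Finset.sum_congr rfl (fun p hp => ?_)
          rw [Finset.sum_sub_distrib, Finset.sum_sub_distrib, sum_mul_av (hr p hp) a b]
      _ = ∑ x, ∑ p ∈ S.powersetCard 2, (a x * b x - a x * av (r p) b x) := Finset.sum_comm
      _ = ∑ x, a x * H b x := by
          refine Finset.sum_congr rfl (fun x _ => ?_)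
          rw [hH, Finset.mul_sum]
          exact Finset.sum_congr rfl (fun p _ => by ring)
  have hsymm2 : ∀ a b : X → ℝ, ∑ x, H2 a x * b x = ∑ x, a x * H2 b x := by
    intro a b
    have e1 : ∑ x, H2 a x * b x = (1 / 2) * ∑ x, H a x * b x := by
      rw [Finset.mul_sum]
      exact Finset.sum_congr rfl (fun x _ => by rw [hH2]; ring)
    have e2 : ∑ x, a x * H2 b x = (1 / 2) * ∑ x, a x * H b x := by
      rw [Finset.mul_sum]
      exact Finset.sum_congr rfl (fun x _ => by rw [hH2]; ring)
    rw [e1, e2, hsymm]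
  have K2 : ∀ a : X → ℝ, ∑ x, a x * H2 a x = (1 / 2) * ∑ x, a x * H a x := by
    intro a
    rw [Finset.mul_sum]
    exact Finset.sum_congr rfl (fun x _ => by rw [hH2]; ring)
  have hpsd : ∀ a : X → ℝ, 0 ≤ ∑ x, a x * H2 a x := by
    intro a
    rw [K2, K1]
    exact mul_nonneg (by norm_num)
      (Finset.sum_nonneg (fun p _ => Finset.sum_nonneg (fun x _ => sq_nonneg _)))
  have hav : ∀ a : X → ℝ, H2 (av s a) = 0 := by
    intro a
    funext x
    rw [hH2, hH]
    have hz : ∑ p ∈ S.powersetCard 2, (av s a x - av (r p) (av s a) x) = 0 := by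
      apply Finset.sum_eq_zero
      intro p hp
      rw [av_coarse' (hr p hp) hs (hfine p hp) a]
      exact sub_self _
    rw [hz]
    simp
  have hker2 : ∀ a : X → ℝ, H2 a = 0 → av s a = a := by
    intro a ha
    have h0 : ∑ p ∈ S.powersetCard 2, ∑ x, (a x - av (r p) a x) ^ 2 = 0 := by
      have h1 : ∑ x, a x * H2 a x = 0 := by
        rw [ha]
        simp
      rw [K2, K1] at h1
      linarith
    apply hker
    intro p hp
    funext x
    have h2 := (Finset.sum_eq_zero_iff_of_nonneg
      (fun p _ => Finset.sum_nonneg (fun x _ => sq_nonneg (a x - av (r p) a x)))).mp h0 p hp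
    have h4 := (Finset.sum_eq_zero_iff_of_nonneg
      (fun x _ => sq_nonneg (a x - av (r p) a x))).mp h2 x (Finset.mem_univ x)
    have h5 : a x - av (r p) a x = 0 := sq_eq_zero_iff.mp h4
    linarith
  have hsq : ∀ a : X → ℝ, ∑ x, a x * H2 a x ≤ ∑ x, H2 a x ^ 2 := by
    intro a
    have htri' : ∀ t ∈ S.powersetCard 3,
        ∑ p ∈ t.powersetCard 2, ∑ x, (a x - av (r p) a x) * (a x - av (r p) a x)
          ≤ ∑ p ∈ t.powersetCard 2, ∑ q ∈ t.powersetCard 2,
              ∑ x, (a x - av (r p) a x) * (a x - av (r q) a x) := by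
      intro t ht
      rw [sq_sum_expand (t.powersetCard 2) (fun p x => a x - av (r p) a x)]
      refine le_trans (le_of_eq ?_) (htri t ht a)
      exact Finset.sum_congr rfl (fun p _ => Finset.sum_congr rfl (fun x _ => (sq _).symm))
    have hdisj' : ∑ p ∈ S.powersetCard 2,
        ∑ x, (a x - av (r p) a x) * (a x - av (r p) a x)
          ≤ ∑ p ∈ S.powersetCard 2, ∑ q ∈ (S \ p).powersetCard 2,
              ∑ x, (a x - av (r p) a x) * (a x - av (r q) a x) := by
      refine le_trans (le_of_eq ?_) (hdisj a)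
      exact Finset.sum_congr rfl (fun p _ => Finset.sum_congr rfl (fun x _ => (sq _).symm))
    have hk := knabe_sum_two S
      (fun p q => ∑ x, (a x - av (r p) a x) * (a x - av (r q) a x)) hdisj' htri'
    have e1 : ∑ p ∈ S.powersetCard 2,
        ∑ x, (a x - av (r p) a x) * (a x - av (r p) a x) = ∑ x, a x * H a x := by
      rw [K1]
      exact Finset.sum_congr rfl (fun p _ => Finset.sum_congr rfl (fun x _ => (sq _).symm))
    have e2 : ∑ p ∈ S.powersetCard 2, ∑ q ∈ S.powersetCard 2,
        ∑ x, (a x - av (r p) a x) * (a x - av (r q) a x) = ∑ x, H a x ^ 2 := by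
      rw [sq_sum_expand (S.powersetCard 2) (fun p x => a x - av (r p) a x)]
      exact Finset.sum_congr rfl (fun x _ => by rw [hH])
    rw [e1, e2] at hk
    have e3 : ∑ x, H2 a x ^ 2 = (1 / 4) * ∑ x, H a x ^ 2 := by
      rw [Finset.mul_sum]
      exact Finset.sum_congr rfl (fun x _ => by rw [hH2]; ring)
    rw [K2, e3]
    linarith
  have main := gap_of_sq_ge H2 s hs hsymm2 hpsd hsq hker2 hav f
  rw [K2 f, K1 f] at main
  exact main

/-- ABSTRACT GAP THEOREM.  One family `r` of relations indexed by finite sets of labels (used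
for 2-subsets and for 3-subsets of `S`), the global relation `s`.  Hypotheses:
* `hthree`: the three-relation inequality for every 3-subset;
* `hstep1`, `hstep2`: the two local steps for disjoint pairs, with block terms `Sm p q a` and
  defect terms `N p q a`;
* `hker`: a function fixed by all pair averages is fixed by the global average.
Conclusion: the Poincare inequality with constant `1/2` for the pair projections. -/
theorem gap_two {V : Type*} [DecidableEq V] (S : Finset V)
    (r : Finset V → X → X → Prop) (s : X → X → Prop)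
    (hr2 : ∀ p ∈ S.powersetCard 2, Equivalence (r p))
    (hr3 : ∀ t ∈ S.powersetCard 3, Equivalence (r t)) (hs : Equivalence s)
    (hfine : ∀ p ∈ S.powersetCard 2, ∀ x y, r p x y → s x y)
    (hfine3 : ∀ t ∈ S.powersetCard 3, ∀ p ∈ t.powersetCard 2, ∀ x y, r p x y → r t x y)
    (hker : ∀ a : X → ℝ, (∀ p ∈ S.powersetCard 2, av (r p) a = a) → av s a = a)
    (hthree : ∀ t ∈ S.powersetCard 3, ∀ g : X → ℝ,
      ∑ p ∈ t.powersetCard 2, ∑ x, g x * av (r p) g x
        ≤ 2 * ∑ x, g x ^ 2 + ∑ x, g x * av (r t) g x)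
    (Sm N : Finset V → Finset V → (X → ℝ) → ℝ)
    (hstep1 : ∀ p ∈ S.powersetCard 2, ∀ q ∈ (S \ p).powersetCard 2, ∀ a : X → ℝ,
      2 * Sm p q a ≤ 2 * ∑ x, (a x - av (r p) a x) * (a x - av (r q) a x) + N p q a + N q p a)
    (hstep2 : ∀ p ∈ S.powersetCard 2, ∀ a : X → ℝ,
      ∑ x, (a x - av (r p) a x) ^ 2 ≤ ∑ q ∈ (S \ p).powersetCard 2, (Sm p q a - N p q a))
    (f : X → ℝ) :
    ∑ x, (f x - av s f x) ^ 2
      ≤ (1 / 2) * ∑ p ∈ S.powersetCard 2, ∑ x, (f x - av (r p) f x) ^ 2 := by
  refine gap_two_of_tri S r s hr2 hs hfine hker ?_ ?_ f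
  · intro t ht a
    have htc : t.card = 3 := (Finset.mem_powersetCard.mp ht).2
    have htS : t ⊆ S := (Finset.mem_powersetCard.mp ht).1
    have hsub : ∀ p ∈ t.powersetCard 2, p ∈ S.powersetCard 2 := by
      intro p hp
      rw [Finset.mem_powersetCard] at hp ⊢
      exact ⟨hp.1.trans htS, hp.2⟩
    have h32 : Nat.choose 3 2 = 3 := by decide
    have hcard : ((t.powersetCard 2).card : ℝ) - 1 = 2 := by
      rw [Finset.card_powersetCard, htc, h32]
      norm_num
    exact triple_gap (t.powersetCard 2) r (r t) (fun p hp => hr2 p (hsub p hp)) (hr3 t ht)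
      (hfine3 t ht)
      (fun g => by
        rw [hcard]
        exact hthree t ht g)
      a
  · intro a
    refine disjoint_bound_of_steps S
      (fun p q => ∑ x, (a x - av (r p) a x) * (a x - av (r q) a x))
      (fun p q => Sm p q a) (fun p q => N p q a)
      (fun p => ∑ x, (a x - av (r p) a x) ^ 2) ?_ (fun p hp => hstep2 p hp a)
    intro p hp q hq
    have h := hstep1 p hp q hq a
    have hc : ∑ x, (a x - av (r q) a x) * (a x - av (r p) a x)
        = ∑ x, (a x - av (r p) a x) * (a x - av (r q) a x) :=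
      Finset.sum_congr rfl (fun x _ => mul_comm _ _)
    show 2 * Sm p q a ≤ ∑ x, (a x - av (r p) a x) * (a x - av (r q) a x)
      + ∑ x, (a x - av (r q) a x) * (a x - av (r p) a x) + N p q a + N q p a
    rw [hc]
    linarith

end Vale.Agent.Lib.P335.Gr
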