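import Vale.Agent.Lib.P335.Gr.Defs
import Vale.Agent.Lib.P335.Bip.Rect

/-!
# P335 / graphs, leaf K0: basic facts on the relations `RelG c`
-/

namespace Vale.Agent.Lib.P335.Gr

open Finset
open scoped Classical
open Vale.Agent.Lib.P335.Bip

variable {n : ℕ}

/- (K0a), (K0b): `relG_equivalence`, `relG_mono` are in `Gr/Rel.lean`. -/

/-- The degree splits according to a predicate on the neighbours. -/
theorem basAux_degree (H : SimpleGraph (Fin n)) (v : Fin n) (P : Fin n → Prop) :
    H.degree v = (univ.filter (fun u => H.Adj v u ∧ P u)).card +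
      (univ.filter (fun u => H.Adj v u ∧ ¬ P u)).card := by
  rw [← SimpleGraph.card_neighborFinset_eq_degree]
  have e : H.neighborFinset v = univ.filter (fun u => H.Adj v u) := by
    ext u
    simp
  rw [e, ← Finset.card_filter_add_card_filter_not (s := univ.filter (fun u => H.Adj v u))
    (p := P), Finset.filter_filter, Finset.filter_filter]

/-- Related graphs have the same neighbours outside the free cells. -/
theorem basAux_cnt_out {c : Fin n → Fin n → Prop} {G G' : SimpleGraph (Fin n)}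
    (h : RelG c G G') (v : Fin n) :
    (univ.filter (fun u => G'.Adj v u ∧ ¬ c v u)).card =
      (univ.filter (fun u => G.Adj v u ∧ ¬ c v u)).card := by
  congr 1
  ext u
  simp only [mem_filter, mem_univ, true_and]
  constructor
  · rintro ⟨h1, h2⟩
    exact ⟨(h.1 v u h2).1 h1, h2⟩
  · rintro ⟨h1, h2⟩
    exact ⟨(h.1 v u h2).2 h1, h2⟩

/-- Related graphs have the same number of neighbours through free cells. -/
theorem basAux_cnt_in {c : Fin n → Fin n → Prop} {G G' : SimpleGraph (Fin n)}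
    (h : RelG c G G') (v : Fin n) :
    (univ.filter (fun u => G'.Adj v u ∧ c v u)).card =
      (univ.filter (fun u => G.Adj v u ∧ c v u)).card := by
  have e1 := basAux_degree G' v (fun u => c v u)
  have e2 := basAux_degree G v (fun u => c v u)
  have e3 := basAux_cnt_out h v
  have e4 := h.2 v
  omega

/-- Graphs related through cells disjoint from `c` have the same neighbours through `c`. -/
theorem basAux_cnt_on {c c' : Fin n → Fin n → Prop} (hdisj : ∀ u v, c u v → ¬ c' u v)
    {G G'' : SimpleGraph (Fin n)} (h : RelG c' G G'') (v : Fin n) :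
    (univ.filter (fun u => G''.Adj v u ∧ c v u)).card =
      (univ.filter (fun u => G.Adj v u ∧ c v u)).card := by
  congr 1
  ext u
  simp only [mem_filter, mem_univ, true_and]
  constructor
  · rintro ⟨h1, h2⟩
    exact ⟨(h.1 v u (hdisj v u h2)).1 h1, h2⟩
  · rintro ⟨h1, h2⟩
    exact ⟨(h.1 v u (hdisj v u h2)).2 h1, h2⟩

/-- Graphs related through cells disjoint from `c` have the same number of neighbours outside
`c`. -/
theorem basAux_cnt_neg {c c' : Fin n → Fin n → Prop} (hdisj : ∀ u v, c u v → ¬ c' u v)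
    {G G'' : SimpleGraph (Fin n)} (h : RelG c' G G'') (v : Fin n) :
    (univ.filter (fun u => G''.Adj v u ∧ ¬ c v u)).card =
      (univ.filter (fun u => G.Adj v u ∧ ¬ c v u)).card := by
  have e1 := basAux_degree G'' v (fun u => c v u)
  have e2 := basAux_degree G v (fun u => c v u)
  have e3 := basAux_cnt_on hdisj h v
  have e4 := h.2 v
  omega

/-- The graph equal to `G'` on the cells of `c` and to `G''` elsewhere. -/
def basAuxW (c : Fin n → Fin n → Prop) (G' G'' : SimpleGraph (Fin n))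
    (hsymm : ∀ u v, c u v ↔ c v u) : SimpleGraph (Fin n) where
  Adj u v := (c u v ∧ G'.Adj u v) ∨ (¬ c u v ∧ G''.Adj u v)
  symm := ⟨by
    intro u v huv
    rcases huv with ⟨h1, h2⟩ | ⟨h1, h2⟩
    · exact Or.inl ⟨(hsymm u v).1 h1, h2.symm⟩
    · exact Or.inr ⟨fun h3 => h1 ((hsymm v u).1 h3), h2.symm⟩⟩
  loopless := ⟨by
    intro u huu
    rcases huu with ⟨_, h2⟩ | ⟨_, h2⟩
    · exact G'.loopless.irrefl u h2
    · exact G''.loopless.irrefl u h2⟩

theorem basAuxW_adj_pos (c : Fin n → Fin n → Prop) (G' G'' : SimpleGraph (Fin n))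
    (hsymm : ∀ u v, c u v ↔ c v u) {u v : Fin n} (h : c u v) :
    (basAuxW c G' G'' hsymm).Adj u v ↔ G'.Adj u v := by
  show (c u v ∧ G'.Adj u v) ∨ (¬ c u v ∧ G''.Adj u v) ↔ G'.Adj u v
  constructor
  · rintro (⟨_, h2⟩ | ⟨h1, _⟩)
    · exact h2
    · exact absurd h h1
  · intro h2
    exact Or.inl ⟨h, h2⟩

theorem basAuxW_adj_neg (c : Fin n → Fin n → Prop) (G' G'' : SimpleGraph (Fin n))
    (hsymm : ∀ u v, c u v ↔ c v u) {u v : Fin n} (h : ¬ c u v) :
    (basAuxW c G' G'' hsymm).Adj u v ↔ G''.Adj u v := by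
  show (c u v ∧ G'.Adj u v) ∨ (¬ c u v ∧ G''.Adj u v) ↔ G''.Adj u v
  constructor
  · rintro (⟨h1, _⟩ | ⟨_, h2⟩)
    · exact absurd h1 h
    · exact h2
  · intro h2
    exact Or.inr ⟨h, h2⟩

theorem basAuxW_cnt_pos (c : Fin n → Fin n → Prop) (G' G'' : SimpleGraph (Fin n))
    (hsymm : ∀ u v, c u v ↔ c v u) (v : Fin n) :
    (univ.filter (fun u => (basAuxW c G' G'' hsymm).Adj v u ∧ c v u)).card =
      (univ.filter (fun u => G'.Adj v u ∧ c v u)).card := by
  congr 1
  ext u
  simp only [mem_filter, mem_univ, true_and]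
  constructor
  · rintro ⟨h1, h2⟩
    exact ⟨(basAuxW_adj_pos c G' G'' hsymm h2).1 h1, h2⟩
  · rintro ⟨h1, h2⟩
    exact ⟨(basAuxW_adj_pos c G' G'' hsymm h2).2 h1, h2⟩

theorem basAuxW_cnt_neg (c : Fin n → Fin n → Prop) (G' G'' : SimpleGraph (Fin n))
    (hsymm : ∀ u v, c u v ↔ c v u) (v : Fin n) :
    (univ.filter (fun u => (basAuxW c G' G'' hsymm).Adj v u ∧ ¬ c v u)).card =
      (univ.filter (fun u => G''.Adj v u ∧ ¬ c v u)).card := by
  congr 1
  ext u
  simp only [mem_filter, mem_univ, true_and]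
  constructor
  · rintro ⟨h1, h2⟩
    exact ⟨(basAuxW_adj_neg c G' G'' hsymm h2).1 h1, h2⟩
  · rintro ⟨h1, h2⟩
    exact ⟨(basAuxW_adj_neg c G' G'' hsymm h2).2 h1, h2⟩

/-- Two graphs related through two disjoint sets of free cells are equal. -/
theorem basAux_eq_of_disj {c c' : Fin n → Fin n → Prop} (hdisj : ∀ u v, c u v → ¬ c' u v)
    {G G₁ : SimpleGraph (Fin n)} (h1 : RelG c G G₁) (h2 : RelG c' G G₁) : G₁ = G := by
  ext u v
  by_cases hcuv : c u v
  · exact h2.1 u v (hdisj u v hcuv)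
  · exact h1.1 u v hcuv

/-- (K0c) rectangle lemma for disjoint symmetric cell sets: `W` is `G'` on the cells of `c`,
`G''` on the cells of `c'` and `G` elsewhere. -/
theorem relG_rect {c c' : Fin n → Fin n → Prop} (hc : ∀ u v, c u v → c v u)
    (hc' : ∀ u v, c' u v → c' v u) (hdisj : ∀ u v, c u v → ¬ c' u v) :
    ∀ G G' G'' : SimpleGraph (Fin n), RelG c G G' → RelG c' G G'' →
      ∃! W, RelG c' G' W ∧ RelG c G'' W := by
  intro G G' G'' h1 h2
  have hsymm : ∀ u v, c u v ↔ c v u := fun u v => ⟨hc u v, hc v u⟩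
  have _ := hc'
  refine ⟨basAuxW c G' G'' hsymm, ⟨⟨?_, ?_⟩, ⟨?_, ?_⟩⟩, ?_⟩
  · intro u v huv
    by_cases hcuv : c u v
    · exact basAuxW_adj_pos c G' G'' hsymm hcuv
    · rw [basAuxW_adj_neg c G' G'' hsymm hcuv]
      exact (h2.1 u v huv).trans (h1.1 u v hcuv).symm
  · intro v
    have e1 := basAux_degree (basAuxW c G' G'' hsymm) v (fun u => c v u)
    have e2 := basAux_degree G' v (fun u => c v u)
    have f3 := basAux_cnt_neg hdisj h2 v
    have f4 := basAux_cnt_out h1 v
    have g1 := basAuxW_cnt_pos c G' G'' hsymm v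
    have g2 := basAuxW_cnt_neg c G' G'' hsymm v
    omega
  · intro u v huv
    exact basAuxW_adj_neg c G' G'' hsymm huv
  · intro v
    have e1 := basAux_degree (basAuxW c G' G'' hsymm) v (fun u => c v u)
    have e2 := basAux_degree G'' v (fun u => c v u)
    have f1 := basAux_cnt_in h1 v
    have f2 := basAux_cnt_on hdisj h2 v
    have g1 := basAuxW_cnt_pos c G' G'' hsymm v
    have g2 := basAuxW_cnt_neg c G' G'' hsymm v
    omega
  · rintro W' ⟨hW1, hW2⟩
    ext u v
    by_cases hcuv : c u v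
    · rw [basAuxW_adj_pos c G' G'' hsymm hcuv]
      exact hW1.1 u v (hdisj u v hcuv)
    · rw [basAuxW_adj_neg c G' G'' hsymm hcuv]
      exact hW2.1 u v hcuv

/-- (K0d) the averages over disjoint symmetric cell sets commute. -/
theorem av_comm_relG {c c' : Fin n → Fin n → Prop} (hc : ∀ u v, c u v → c v u)
    (hc' : ∀ u v, c' u v → c' v u) (hdisj : ∀ u v, c u v → ¬ c' u v)
    (f : SimpleGraph (Fin n) → ℝ) :
    av (RelG c) (av (RelG c') f) = av (RelG c') (av (RelG c) f) :=
  av_comm_of_rect (relG_equivalence c) (relG_equivalence c') (relG_rect hc hc' hdisj) f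

/-- (K0e) -/
theorem rX_comm (p q : Finset (Fin n)) : (rX p q : SimpleGraph (Fin n) → _ → Prop) = rX q p := by
  funext G G'
  exact propext ⟨fun h => relX_swap h, fun h => relX_swap h⟩

/-- (K0f) -/
theorem dom_comm (p q : Finset (Fin n)) (G : SimpleGraph (Fin n)) : Dom p q G ↔ Dom q p G := by
  unfold Dom
  rw [rX_comm p q]

/-- (K0f') `Dom p q` is invariant under the block relation itself. -/
theorem dom_of_rX (p q : Finset (Fin n)) {G G' : SimpleGraph (Fin n)} (h : rX p q G G') :
    Dom p q G ↔ Dom p q G' := by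
  constructor
  · rintro ⟨G₁, hne, h1⟩
    by_cases hG : G' = G
    · rw [hG]
      exact ⟨G₁, hne, h1⟩
    · exact ⟨G, fun h' => hG h'.symm, (relG_equivalence _).symm h⟩
  · rintro ⟨G₁, hne, h1⟩
    by_cases hG : G' = G
    · rw [← hG]
      exact ⟨G₁, hne, h1⟩
    · exact ⟨G', hG, h⟩

/-- One direction of (K0g). -/
theorem basAux_dom_imp {c : Fin n → Fin n → Prop} (hc : ∀ u v, c u v → c v u)
    (p q : Finset (Fin n)) (hdisj : ∀ u v, c u v → ¬ cellsX p q u v)
    {G G' : SimpleGraph (Fin n)} (h : RelG c G G') : Dom p q G → Dom p q G' := by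
  rintro ⟨G₁, hne, h1⟩
  obtain ⟨W, ⟨hW1, hW2⟩, -⟩ :=
    relG_rect hc (fun _ _ huv => cellsX_symm huv) hdisj G G' G₁ h h1
  refine ⟨W, ?_, hW1⟩
  intro hWG
  rw [hWG] at hW2
  have h3 : RelG c G G₁ :=
    (relG_equivalence c).trans h ((relG_equivalence c).symm hW2)
  exact hne (basAux_eq_of_disj hdisj h3 h1)

/-- (K0g) `Dom p q` is invariant under every `RelG c` whose cells are disjoint from the block
`p × q` (rectangle lemma: if `G₁ ≠ G` is block-related to `G` and `G'` is `c`-related to `G`, the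
corner `W` is block-related to `G'` and `W ≠ G'`). -/
theorem dom_of_relG {c : Fin n → Fin n → Prop} (hc : ∀ u v, c u v → c v u)
    (p q : Finset (Fin n)) (hdisj : ∀ u v, c u v → ¬ cellsX p q u v)
    {G G' : SimpleGraph (Fin n)} (h : RelG c G G') : Dom p q G ↔ Dom p q G' :=
  ⟨basAux_dom_imp hc p q hdisj h, basAux_dom_imp hc p q hdisj ((relG_equivalence c).symm h)⟩

/-- (K0h) -/
theorem mD_equiv (p q : Finset (Fin n)) :
    Equivalence (mD p q : SimpleGraph (Fin n) → SimpleGraph (Fin n) → Prop) :=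
  mrel_equivalence (relG_equivalence _) _

/-- (K0i) the block relation refines `mD p q`. -/
theorem mD_of_rX (p q : Finset (Fin n)) {G G' : SimpleGraph (Fin n)} (h : rX p q G G') :
    mD p q G G' :=
  ⟨relG_mono (fun _ _ huv => huv.elim (fun h => Or.inl h.1) (fun h => Or.inr h.2)) h,
    dom_of_rX p q h⟩

end Vale.Agent.Lib.P335.Gr
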