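import Vale.Agent.Lib.P335.Gr.Cells
import Vale.Agent.Lib.P335.Switch
import Vale.Agent.Lib.P335.Bip.AvMore
import Vale.Agent.Lib.P335.Gr.Abstract

/-!
# P335 / graphs: the block terms are bounded by the switch energy

For two disjoint 2-subsets `p`, `q` of the vertex set the class of a graph `G` under
`RelG (cellsX p q)` (same degrees, same cells outside the block `p × q`) has at most two
elements, and the other element (if any) is obtained from `G` by one switch.  A pair `G ≠ G'`
is related in this way for at most two ordered pairs `(p, q)`.  Hence the sum of all block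
terms is at most half of the switch energy.
-/

namespace Vale.Agent.Lib.P335.Gr

open Finset
open scoped Classical
open Vale.Agent.Lib.P335.Bip

variable {n : ℕ}

/-- The squared deviation from the class average, for a class with at most one other
element. -/
theorem sq_sub_av_small {X : Type*} [Fintype X] {r : X → X → Prop} (hr : Equivalence r)
    (f : X → ℝ) (x : X)
    (h : ∀ y z, r x y → r x z → y ≠ x → z ≠ x → y = z) :
    (f x - av r f x) ^ 2
      = ∑ y ∈ univ.filter (fun y => r x y ∧ y ≠ x), (f x - f y) ^ 2 / 4 := by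
  obtain ⟨D, hD⟩ : ∃ D, D = univ.filter (fun y => r x y ∧ y ≠ x) := ⟨_, rfl⟩
  rw [← hD]
  have hDmem : ∀ y, y ∈ D ↔ r x y ∧ y ≠ x := by
    intro y
    rw [hD, Finset.mem_filter]
    simp
  have hxD : x ∉ D := fun hx => ((hDmem x).mp hx).2 rfl
  have hcls : univ.filter (fun y => r x y) = insert x D := by
    ext y
    rw [Finset.mem_insert, hDmem, Finset.mem_filter]
    constructor
    · rintro ⟨-, hy⟩
      by_cases e : y = x
      · exact Or.inl e
      · exact Or.inr ⟨hy, e⟩
    · rintro (e | ⟨hy, -⟩)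
      · rw [e]
        exact ⟨Finset.mem_univ _, hr.refl x⟩
      · exact ⟨Finset.mem_univ _, hy⟩
  have hcard : D.card ≤ 1 := by
    rw [Finset.card_le_one]
    intro y hy z hz
    obtain ⟨r1, n1⟩ := (hDmem y).mp hy
    obtain ⟨r2, n2⟩ := (hDmem z).mp hz
    exact h y z r1 r2 n1 n2
  show (f x - (∑ y ∈ univ.filter (fun y => r x y), f y)
    / ((univ.filter (fun y => r x y)).card : ℝ)) ^ 2 = _
  rw [hcls, Finset.sum_insert hxD, Finset.card_insert_of_notMem hxD]
  rcases Nat.le_one_iff_eq_zero_or_eq_one.mp hcard with h0 | h1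
  · rw [Finset.card_eq_zero] at h0
    rw [h0]
    simp
  · obtain ⟨y1, hy1⟩ := Finset.card_eq_one.mp h1
    rw [hy1]
    simp only [Finset.sum_singleton, Finset.card_singleton]
    push_cast
    ring

/-- The part of the degree of `u ∈ p` inside `q` is the same for related graphs. -/
theorem energy_block_sum {p q : Finset (Fin n)} (hd : Disjoint p q)
    {G G' : SimpleGraph (Fin n)} (h : RelG (cellsX p q) G G') {u : Fin n} (hu : u ∈ p) :
    ∑ w ∈ q, (if G'.Adj u w then 1 else 0) = ∑ w ∈ q, (if G.Adj u w then (1 : ℕ) else 0) := by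
  have h1 := degree_eq_sum G' u
  have h2 := degree_eq_sum G u
  rw [← Finset.sum_add_sum_compl q] at h1 h2
  have h3 : ∑ w ∈ qᶜ, (if G'.Adj u w then 1 else 0)
      = ∑ w ∈ qᶜ, (if G.Adj u w then (1 : ℕ) else 0) := by
    refine Finset.sum_congr rfl (fun w hw => ?_)
    have hw' : w ∉ q := Finset.mem_compl.mp hw
    have hc : ¬ cellsX p q u w := by
      rintro (⟨-, hwq⟩ | ⟨huq, -⟩)
      · exact hw' hwq
      · exact (Finset.disjoint_left.mp hd hu) huq
    have hiff := h.1 u w hc
    by_cases hA : G.Adj u w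
    · rw [if_pos hA, if_pos (hiff.mpr hA)]
    · rw [if_neg hA, if_neg (fun h' => hA (hiff.mp h'))]
  have h4 := h.2 u
  omega

private theorem energy_block_prop (m11 m12 m21 m22 n11 n12 n21 n22 : Prop)
    (hr1 : (if n11 then 1 else 0) + (if n12 then 1 else 0)
      = (if m11 then 1 else 0) + (if m12 then (1 : ℕ) else 0))
    (hr2 : (if n21 then 1 else 0) + (if n22 then 1 else 0)
      = (if m21 then 1 else 0) + (if m22 then (1 : ℕ) else 0))
    (hc1 : (if n11 then 1 else 0) + (if n21 then 1 else 0)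
      = (if m11 then 1 else 0) + (if m21 then (1 : ℕ) else 0))
    (hc2 : (if n12 then 1 else 0) + (if n22 then 1 else 0)
      = (if m12 then 1 else 0) + (if m22 then (1 : ℕ) else 0))
    (hne : ¬ ((n11 ↔ m11) ∧ (n12 ↔ m12) ∧ (n21 ↔ m21) ∧ (n22 ↔ m22))) :
    (n11 ↔ ¬ m11) ∧ (n12 ↔ ¬ m12) ∧ (n21 ↔ ¬ m21) ∧ (n22 ↔ ¬ m22) ∧
      (m12 ↔ ¬ m11) ∧ (m21 ↔ ¬ m11) ∧ (m22 ↔ m11) := by
  by_cases h1 : m11 <;> by_cases h2 : m12 <;> by_cases h3 : m21 <;> by_cases h4 : m22 <;>
    by_cases h5 : n11 <;> by_cases h6 : n12 <;> by_cases h7 : n21 <;> by_cases h8 : n22 <;>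
    simp_all

private theorem energy_ite_comm (K : SimpleGraph (Fin n)) (u v : Fin n) :
    (if K.Adj u v then (1 : ℕ) else 0) = if K.Adj v u then 1 else 0 := by
  by_cases h : K.Adj u v
  · rw [if_pos h, if_pos h.symm]
  · rw [if_neg h, if_neg (fun h' => h h'.symm)]

/-- A class element different from `G` has the whole block flipped, and the block of `G` is
a perfect matching pattern. -/
theorem relX_main {p q : Finset (Fin n)} (hp : p.card = 2) (hq : q.card = 2)
    (hd : Disjoint p q) {G G' : SimpleGraph (Fin n)} (h : RelG (cellsX p q) G G')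
    (hne : G' ≠ G) :
    ∃ a x b c, p = {a, x} ∧ q = {b, c} ∧ a ≠ x ∧ b ≠ c ∧
      (G'.Adj a b ↔ ¬ G.Adj a b) ∧ (G'.Adj a c ↔ ¬ G.Adj a c) ∧
      (G'.Adj x b ↔ ¬ G.Adj x b) ∧ (G'.Adj x c ↔ ¬ G.Adj x c) ∧
      (G.Adj a c ↔ ¬ G.Adj a b) ∧ (G.Adj x b ↔ ¬ G.Adj a b) ∧ (G.Adj x c ↔ G.Adj a b) := by
  obtain ⟨a, x, hax, hpe⟩ := Finset.card_eq_two.mp hp
  obtain ⟨b, c, hbc, hqe⟩ := Finset.card_eq_two.mp hq
  have ha : a ∈ p := by rw [hpe]; simp
  have hx : x ∈ p := by rw [hpe]; simp
  have hb : b ∈ q := by rw [hqe]; simp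
  have hc : c ∈ q := by rw [hqe]; simp
  have hr1 := energy_block_sum hd h ha
  have hr2 := energy_block_sum hd h hx
  have hc1 := energy_block_sum hd.symm (relX_swap h) hb
  have hc2 := energy_block_sum hd.symm (relX_swap h) hc
  rw [hqe, Finset.sum_pair hbc, Finset.sum_pair hbc] at hr1 hr2
  rw [hpe, Finset.sum_pair hax, Finset.sum_pair hax] at hc1 hc2
  rw [energy_ite_comm G' b a, energy_ite_comm G' b x, energy_ite_comm G b a,
    energy_ite_comm G b x] at hc1
  rw [energy_ite_comm G' c a, energy_ite_comm G' c x, energy_ite_comm G c a,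
    energy_ite_comm G c x] at hc2
  have hne' : ¬ ((G'.Adj a b ↔ G.Adj a b) ∧ (G'.Adj a c ↔ G.Adj a c) ∧
      (G'.Adj x b ↔ G.Adj x b) ∧ (G'.Adj x c ↔ G.Adj x c)) := by
    rintro ⟨e1, e2, e3, e4⟩
    apply hne
    ext u v
    by_cases hcell : cellsX p q u v
    · rcases hcell with ⟨hu, hv⟩ | ⟨hu, hv⟩
      · rw [hpe, Finset.mem_insert, Finset.mem_singleton] at hu
        rw [hqe, Finset.mem_insert, Finset.mem_singleton] at hv
        rcases hu with hu | hu <;> rcases hv with hv | hv <;> rw [hu, hv] <;> assumption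
      · rw [hqe, Finset.mem_insert, Finset.mem_singleton] at hu
        rw [hpe, Finset.mem_insert, Finset.mem_singleton] at hv
        rw [SimpleGraph.adj_comm G', SimpleGraph.adj_comm G]
        rcases hu with hu | hu <;> rcases hv with hv | hv <;> rw [hu, hv] <;> assumption
    · exact h.1 u v hcell
  obtain ⟨f1, f2, f3, f4, g1, g2, g3⟩ :=
    energy_block_prop _ _ _ _ _ _ _ _ hr1 hr2 hc1 hc2 hne'
  exact ⟨a, x, b, c, hpe, hqe, hax, hbc, f1, f2, f3, f4, g1, g2, g3⟩

/-- A class element different from `G` has every cell of the block flipped. -/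
theorem relX_flip {p q : Finset (Fin n)} (hp : p.card = 2) (hq : q.card = 2)
    (hd : Disjoint p q) {G G' : SimpleGraph (Fin n)} (h : RelG (cellsX p q) G G')
    (hne : G' ≠ G) : ∀ u ∈ p, ∀ v ∈ q, (G'.Adj u v ↔ ¬ G.Adj u v) := by
  obtain ⟨a, x, b, c, hpe, hqe, -, -, f1, f2, f3, f4, -, -, -⟩ := relX_main hp hq hd h hne
  intro u hu v hv
  rw [hpe, Finset.mem_insert, Finset.mem_singleton] at hu
  rw [hqe, Finset.mem_insert, Finset.mem_singleton] at hv
  rcases hu with hu | hu <;> rcases hv with hv | hv <;> rw [hu, hv] <;> assumption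

/-- The class of a block has at most one element besides `G`. -/
theorem relX_other_unique {p q : Finset (Fin n)} (hp : p.card = 2) (hq : q.card = 2)
    (hd : Disjoint p q) {G G1 G2 : SimpleGraph (Fin n)} (h1 : RelG (cellsX p q) G G1)
    (h2 : RelG (cellsX p q) G G2) (n1 : G1 ≠ G) (n2 : G2 ≠ G) : G1 = G2 := by
  ext u v
  by_cases hcell : cellsX p q u v
  · rcases hcell with ⟨hu, hv⟩ | ⟨hu, hv⟩
    · rw [relX_flip hp hq hd h1 n1 u hu v hv, relX_flip hp hq hd h2 n2 u hu v hv]
    · rw [SimpleGraph.adj_comm G1, SimpleGraph.adj_comm G2,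
        relX_flip hp hq hd h1 n1 v hv u hu, relX_flip hp hq hd h2 n2 v hv u hu]
  · rw [h1.1 u v hcell, h2.1 u v hcell]

/-- The switched graph is related to `G` for the block spanned by the switch. -/
theorem energy_switch_rel {p q : Finset (Fin n)} {G : SimpleGraph (Fin n)}
    {a b c x : Fin n} (hsw : SwitchAt G a b c x)
    (hcells : cellsX p q a b ∧ cellsX p q c x ∧ cellsX p q a c ∧ cellsX p q b x)
    (hsymm : ∀ u v, cellsX p q u v → cellsX p q v u) :
    RelG (cellsX p q) G (switchGraph G a b c x) := by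
  refine ⟨fun u v hcell => ?_, fun v => hsw.degree_eq v⟩
  have hno : ∀ s t : Fin n, cellsX p q s t → s(u, v) ≠ s(s, t) := by
    intro s t hst e
    rcases Sym2.eq_iff.mp e with ⟨h1, h2⟩ | ⟨h1, h2⟩
    · rw [h1, h2] at hcell
      exact hcell hst
    · rw [h1, h2] at hcell
      exact hcell (hsymm s t hst)
  rw [switchGraph_adj hsw.hac hsw.hbd]
  constructor
  · rintro (⟨h1, -, -⟩ | h1 | h1)
    · exact h1
    · exact absurd h1 (hno a c hcells.2.2.1)
    · exact absurd h1 (hno b x hcells.2.2.2)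
  · intro h1
    exact Or.inl ⟨h1, hno a b hcells.1, hno c x hcells.2.1⟩

/-- A class element different from `G` is obtained from `G` by one switch. -/
theorem relX_isSwitch {p q : Finset (Fin n)} (hp : p.card = 2) (hq : q.card = 2)
    (hd : Disjoint p q) {G G' : SimpleGraph (Fin n)} (h : RelG (cellsX p q) G G')
    (hne : G' ≠ G) : IsSwitch G G' := by
  obtain ⟨a, x, b, c, hpe, hqe, hax, hbc, f1, f2, f3, f4, g1, g2, g3⟩ :=
    relX_main hp hq hd h hne
  have ha : a ∈ p := by rw [hpe]; simp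
  have hx : x ∈ p := by rw [hpe]; simp
  have hb : b ∈ q := by rw [hqe]; simp
  have hc : c ∈ q := by rw [hqe]; simp
  have hab : a ≠ b := fun e => Finset.disjoint_left.mp hd ha (e ▸ hb)
  have hac : a ≠ c := fun e => Finset.disjoint_left.mp hd ha (e ▸ hc)
  have hxb : x ≠ b := fun e => Finset.disjoint_left.mp hd hx (e ▸ hb)
  have hxc : x ≠ c := fun e => Finset.disjoint_left.mp hd hx (e ▸ hc)
  have hsymm : ∀ u v, cellsX p q u v → cellsX p q v u := fun u v hc => by
    rcases hc with ⟨h1, h2⟩ | ⟨h1, h2⟩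
    · exact Or.inr ⟨h2, h1⟩
    · exact Or.inl ⟨h2, h1⟩
  by_cases hA : G.Adj a b
  · have hsw : SwitchAt G a b c x :=
      ⟨hab, hac, hax, hbc, hxb.symm, hxc.symm, hA, (g3.mpr hA).symm,
        fun h' => (g1.mp h') hA, fun h' => (g2.mp h'.symm) hA⟩
    have hrel : RelG (cellsX p q) G (switchGraph G a b c x) :=
      energy_switch_rel hsw ⟨Or.inl ⟨ha, hb⟩, Or.inr ⟨hc, hx⟩, Or.inl ⟨ha, hc⟩,
        Or.inr ⟨hb, hx⟩⟩ hsymm
    have e := relX_other_unique hp hq hd h hrel hne hsw.ne
    rw [e]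
    exact (isSwitch_iff' G _).mpr ⟨a, b, c, x, hsw, rfl⟩
  · have hAc : G.Adj a c := g1.mpr hA
    have hxb' : G.Adj x b := g2.mpr hA
    have hxc' : ¬ G.Adj x c := fun h' => hA (g3.mp h')
    have hsw : SwitchAt G a c b x :=
      ⟨hac, hab, hax, hbc.symm, hxc.symm, hxb.symm, hAc, hxb'.symm, hA,
        fun h' => hxc' h'.symm⟩
    have hrel : RelG (cellsX p q) G (switchGraph G a c b x) :=
      energy_switch_rel hsw ⟨Or.inl ⟨ha, hc⟩, Or.inr ⟨hb, hx⟩, Or.inl ⟨ha, hb⟩,
        Or.inr ⟨hc, hx⟩⟩ hsymm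
    have e := relX_other_unique hp hq hd h hrel hne hsw.ne
    rw [e]
    exact (isSwitch_iff' G _).mpr ⟨a, c, b, x, hsw, rfl⟩

/-- The block is determined, up to exchanging its two sides, by the pair `G ≠ G'`. -/
theorem relX_pair_unique {p q p' q' : Finset (Fin n)} (hp : p.card = 2) (hq : q.card = 2)
    (hd : Disjoint p q) (hp' : p'.card = 2) (hq' : q'.card = 2) (hd' : Disjoint p' q')
    {G G' : SimpleGraph (Fin n)} (h : RelG (cellsX p q) G G') (h' : RelG (cellsX p' q') G G')
    (hne : G' ≠ G) : (p' = p ∧ q' = q) ∨ (p' = q ∧ q' = p) := by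
  have hflip := relX_flip hp hq hd h hne
  have hmem : ∀ u ∈ p, ∀ v ∈ q, cellsX p' q' u v := by
    intro u hu v hv
    by_contra hcon
    have e1 := h'.1 u v hcon
    have e2 := hflip u hu v hv
    rw [e1] at e2
    by_cases hA : G.Adj u v
    · exact (e2.mp hA) hA
    · exact hA (e2.mpr hA)
  obtain ⟨a, ha⟩ : p.Nonempty := Finset.card_pos.mp (by omega)
  obtain ⟨b, hb⟩ : q.Nonempty := Finset.card_pos.mp (by omega)
  rcases hmem a ha b hb with ⟨hap, hbq⟩ | ⟨haq, hbp⟩
  · left
    have hpp : p ⊆ p' := by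
      intro u hu
      rcases hmem u hu b hb with ⟨h1, -⟩ | ⟨-, h2⟩
      · exact h1
      · exact absurd hbq (Finset.disjoint_left.mp hd' h2)
    have hqq : q ⊆ q' := by
      intro v hv
      rcases hmem a ha v hv with ⟨-, h2⟩ | ⟨h1, -⟩
      · exact h2
      · exact absurd h1 (Finset.disjoint_left.mp hd' hap)
    exact ⟨(Finset.eq_of_subset_of_card_le hpp (by omega)).symm,
      (Finset.eq_of_subset_of_card_le hqq (by omega)).symm⟩
  · right
    have hpq : p ⊆ q' := by
      intro u hu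
      rcases hmem u hu b hb with ⟨-, h2⟩ | ⟨h1, -⟩
      · exact absurd h2 (Finset.disjoint_left.mp hd' hbp)
      · exact h1
    have hqp : q ⊆ p' := by
      intro v hv
      rcases hmem a ha v hv with ⟨h1, -⟩ | ⟨-, h2⟩
      · exact absurd haq (Finset.disjoint_left.mp hd' h1)
      · exact h2
    exact ⟨(Finset.eq_of_subset_of_card_le hqp (by omega)).symm,
      (Finset.eq_of_subset_of_card_le hpq (by omega)).symm⟩

/-- A sum of indicators with at most two hits. -/
private theorem energy_sum_ite_le_two {ι : Type*} (s : Finset ι) (P : ι → Prop)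
    [DecidablePred P] (c : ℝ) (hc : 0 ≤ c) (sw : ι → ι)
    (huniq : ∀ x ∈ s, ∀ y ∈ s, P x → P y → y = x ∨ y = sw x) :
    ∑ x ∈ s, (if P x then c else 0) ≤ 2 * c := by
  rw [← Finset.sum_filter, Finset.sum_const, nsmul_eq_mul]
  have h1 : (s.filter P).card ≤ 2 := by
    by_cases hne : (s.filter P).Nonempty
    · obtain ⟨x, hx⟩ := hne
      rw [Finset.mem_filter] at hx
      have hsub : s.filter P ⊆ {x, sw x} := by
        intro y hy
        rw [Finset.mem_filter] at hy
        rw [Finset.mem_insert, Finset.mem_singleton]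
        exact huniq x hx.1 y hy.1 hx.2 hy.2
      exact (Finset.card_le_card hsub).trans Finset.card_le_two
    · rw [Finset.not_nonempty_iff_eq_empty] at hne
      rw [hne]
      simp
  have h2 : ((s.filter P).card : ℝ) ≤ 2 := by exact_mod_cast h1
  nlinarith

/-- The block terms of all ordered pairs of disjoint 2-subsets add up to at most half of the
switch energy (on all graphs). -/
theorem block_energy_le (f : SimpleGraph (Fin n) → ℝ) :
    ∑ p ∈ (univ : Finset (Fin n)).powersetCard 2, ∑ q ∈ (univ \ p).powersetCard 2,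
        ∑ G, (f G - av (RelG (cellsX p q)) f G) ^ 2
      ≤ (1 / 2) * ∑ G, ∑ H, if IsSwitch G H then (f G - f H) ^ 2 else 0 := by
  set P2 : Finset (Finset (Fin n)) := (univ : Finset (Fin n)).powersetCard 2 with hP2
  -- every block term as a double sum with an indicator
  have e1 : ∀ p ∈ P2, ∀ q ∈ P2, Disjoint p q →
      ∑ G, (f G - av (RelG (cellsX p q)) f G) ^ 2
        = ∑ G, ∑ G' : SimpleGraph (Fin n),
            if RelG (cellsX p q) G G' ∧ G' ≠ G then (f G - f G') ^ 2 / 4 else 0 := by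
    intro p hp q hq hd
    have hpc : p.card = 2 := (Finset.mem_powersetCard.mp hp).2
    have hqc : q.card = 2 := (Finset.mem_powersetCard.mp hq).2
    refine Finset.sum_congr rfl (fun G _ => ?_)
    rw [sq_sub_av_small (relG_equivalence (cellsX p q)) f G
      (fun y z hy hz ny nz => relX_other_unique hpc hqc hd hy hz ny nz), Finset.sum_filter]
  -- the left side as a sum over all ordered pairs with an indicator
  have e2 : ∑ p ∈ P2, ∑ q ∈ (univ \ p).powersetCard 2,
        ∑ G, (f G - av (RelG (cellsX p q)) f G) ^ 2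
      = ∑ x ∈ P2 ×ˢ P2, ∑ G, ∑ G' : SimpleGraph (Fin n),
          if Disjoint x.1 x.2 ∧ RelG (cellsX x.1 x.2) G G' ∧ G' ≠ G
            then (f G - f G') ^ 2 / 4 else 0 := by
    rw [Finset.sum_product]
    refine Finset.sum_congr rfl (fun p hp => ?_)
    rw [← filter_disjoint_powersetCard, Finset.sum_filter]
    refine Finset.sum_congr rfl (fun q hq => ?_)
    by_cases hd : Disjoint p q
    · rw [if_pos hd, e1 p hp q hq hd]
      refine Finset.sum_congr rfl (fun G _ => Finset.sum_congr rfl (fun G' _ => ?_))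
      by_cases hR : RelG (cellsX p q) G G' ∧ G' ≠ G
      · rw [if_pos hR, if_pos ⟨hd, hR⟩]
      · rw [if_neg hR, if_neg (fun h => hR h.2)]
    · rw [if_neg hd]
      symm
      refine Finset.sum_eq_zero (fun G _ => Finset.sum_eq_zero (fun G' _ => ?_))
      rw [if_neg (fun h => hd h.1)]
  rw [e2, Finset.sum_comm]
  have e3 : (1 / 2 : ℝ) * ∑ G, ∑ H, (if IsSwitch G H then (f G - f H) ^ 2 else 0)
      = ∑ G, ∑ H : SimpleGraph (Fin n),
          if IsSwitch G H then 2 * ((f G - f H) ^ 2 / 4) else 0 := by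
    rw [Finset.mul_sum]
    refine Finset.sum_congr rfl (fun G _ => ?_)
    rw [Finset.mul_sum]
    refine Finset.sum_congr rfl (fun H _ => ?_)
    split_ifs <;> ring
  rw [e3]
  refine Finset.sum_le_sum (fun G _ => ?_)
  rw [Finset.sum_comm]
  refine Finset.sum_le_sum (fun G' _ => ?_)
  by_cases hsw : IsSwitch G G'
  · rw [if_pos hsw]
    refine energy_sum_ite_le_two _ _ ((f G - f G') ^ 2 / 4) (by positivity) Prod.swap ?_
    intro x hx y hy hPx hPy
    rw [Finset.mem_product] at hx hy
    have hpx := (Finset.mem_powersetCard.mp hx.1).2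
    have hqx := (Finset.mem_powersetCard.mp hx.2).2
    have hpy := (Finset.mem_powersetCard.mp hy.1).2
    have hqy := (Finset.mem_powersetCard.mp hy.2).2
    rcases relX_pair_unique hpx hqx hPx.1 hpy hqy hPy.1 hPx.2.1 hPy.2.1 hPx.2.2 with h | h
    · exact Or.inl (Prod.ext h.1 h.2)
    · exact Or.inr (Prod.ext h.1 h.2)
  · rw [if_neg hsw]
    apply le_of_eq
    apply Finset.sum_eq_zero
    intro x hx
    rw [Finset.mem_product] at hx
    rw [if_neg]
    rintro ⟨hd, hR, hne⟩
    exact hsw (relX_isSwitch (Finset.mem_powersetCard.mp hx.1).2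
      (Finset.mem_powersetCard.mp hx.2).2 hd hR hne)

end Vale.Agent.Lib.P335.Gr
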