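import Vale.Agent.Lib.P335.Gr.Basic
import Vale.Agent.Lib.P335.Gr.Energy

/-!
# P335 / graphs, leaf K1: the structure of a switch block `p × q`

`p = {a, b}`, `q = {c, d}` disjoint.  The class of `G` for `rX p q` is `{G}` unless the four block
cells form a perfect matching, and then it is `{G, flipB p q G}`.
-/

namespace Vale.Agent.Lib.P335.Gr

open Finset
open scoped Classical
open Vale.Agent.Lib.P335.Bip

variable {n : ℕ}

/-- (K1a) -/
theorem flipB_adj (p q : Finset (Fin n)) (G : SimpleGraph (Fin n)) (u v : Fin n) :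
    (flipB p q G).Adj u v ↔ u ≠ v ∧ (if cellsX p q u v then ¬ G.Adj u v else G.Adj u v) := by
  unfold flipB
  rw [SimpleGraph.fromRel_adj]
  constructor
  · rintro ⟨hne, h | h⟩
    · exact ⟨hne, h⟩
    · refine ⟨hne, ?_⟩
      by_cases hc : cellsX p q u v
      · rw [if_pos hc]
        rw [if_pos (cellsX_symm hc)] at h
        exact fun h' => h h'.symm
      · rw [if_neg hc]
        rw [if_neg (fun h' => hc (cellsX_symm h'))] at h
        exact h.symm
  · rintro ⟨hne, h⟩
    exact ⟨hne, Or.inl h⟩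

/-- Two equal pairs with different entries. -/
private theorem block_pair_cases {a b a' b' : Fin n} (hab : a ≠ b)
    (h : ({a, b} : Finset (Fin n)) = {a', b'}) : (a = a' ∧ b = b') ∨ (a = b' ∧ b = a') := by
  have ha : a ∈ ({a', b'} : Finset (Fin n)) := by
    rw [← h]
    simp
  have hb : b ∈ ({a', b'} : Finset (Fin n)) := by
    rw [← h]
    simp
  rw [Finset.mem_insert, Finset.mem_singleton] at ha hb
  rcases ha with ha | ha <;> rcases hb with hb | hb
  · exact absurd (ha.trans hb.symm) hab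
  · exact Or.inl ⟨ha, hb⟩
  · exact Or.inr ⟨ha, hb⟩
  · exact absurd (ha.trans hb.symm) hab

/-- (K1b) explicit form of `Dom`. -/
theorem dom_iff_adj {a b c d : Fin n} (hab : a ≠ b) (hcd : c ≠ d) (hac : a ≠ c) (had : a ≠ d)
    (hbc : b ≠ c) (hbd : b ≠ d) (G : SimpleGraph (Fin n)) :
    Dom {a, b} {c, d} G ↔
      (G.Adj a c ∧ G.Adj b d ∧ ¬ G.Adj a d ∧ ¬ G.Adj b c) ∨
      (G.Adj a d ∧ G.Adj b c ∧ ¬ G.Adj a c ∧ ¬ G.Adj b d) := by
  have hp : ({a, b} : Finset (Fin n)).card = 2 := Finset.card_pair hab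
  have hq : ({c, d} : Finset (Fin n)).card = 2 := Finset.card_pair hcd
  have hd : Disjoint ({a, b} : Finset (Fin n)) {c, d} := by
    rw [Finset.disjoint_left]
    intro u hu hu'
    rw [Finset.mem_insert, Finset.mem_singleton] at hu hu'
    rcases hu with rfl | rfl <;> rcases hu' with h | h
    · exact hac h
    · exact had h
    · exact hbc h
    · exact hbd h
  have ha : a ∈ ({a, b} : Finset (Fin n)) := by simp
  have hb : b ∈ ({a, b} : Finset (Fin n)) := by simp
  have hc : c ∈ ({c, d} : Finset (Fin n)) := by simp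
  have hd' : d ∈ ({c, d} : Finset (Fin n)) := by simp
  constructor
  · rintro ⟨G', hne, h⟩
    obtain ⟨a', x', b', c', hpe, hqe, -, -, -, -, -, -, g1, g2, g3⟩ := relX_main hp hq hd h hne
    rcases block_pair_cases hab hpe with ⟨e1, e2⟩ | ⟨e1, e2⟩ <;>
      rcases block_pair_cases hcd hqe with ⟨e3, e4⟩ | ⟨e3, e4⟩ <;>
      subst e1 <;> subst e2 <;> subst e3 <;> subst e4 <;> tauto
  · rintro (⟨h1, h2, h3, h4⟩ | ⟨h1, h2, h3, h4⟩)
    · have hsw : SwitchAt G a c d b :=
        ⟨hac, had, hab, hcd, hbc.symm, hbd.symm, h1, h2.symm, h3, fun h' => h4 h'.symm⟩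
      exact ⟨switchGraph G a c d b, hsw.ne,
        energy_switch_rel hsw ⟨Or.inl ⟨ha, hc⟩, Or.inr ⟨hd', hb⟩, Or.inl ⟨ha, hd'⟩,
          Or.inr ⟨hc, hb⟩⟩ (fun _ _ h' => cellsX_symm h')⟩
    · have hsw : SwitchAt G a d c b :=
        ⟨had, hac, hab, hcd.symm, hbd.symm, hbc.symm, h1, h2.symm, h3, fun h' => h4 h'.symm⟩
      exact ⟨switchGraph G a d c b, hsw.ne,
        energy_switch_rel hsw ⟨Or.inl ⟨ha, hd'⟩, Or.inr ⟨hc, hb⟩, Or.inl ⟨ha, hc⟩,
          Or.inr ⟨hd', hb⟩⟩ (fun _ _ h' => cellsX_symm h')⟩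

/-- A class element different from `G` is the flipped graph. -/
theorem eq_flipB_of_rX_ne {p q : Finset (Fin n)} (hp : p.card = 2) (hq : q.card = 2)
    (hpq : Disjoint p q) {G G' : SimpleGraph (Fin n)} (h : rX p q G G') (hne : G' ≠ G) :
    G' = flipB p q G := by
  ext u v
  rw [flipB_adj]
  by_cases hc : cellsX p q u v
  · rw [if_pos hc]
    rcases hc with ⟨hu, hv⟩ | ⟨hu, hv⟩
    · have hf := relX_flip hp hq hpq h hne u hu v hv
      constructor
      · intro h1
        exact ⟨G'.ne_of_adj h1, hf.mp h1⟩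
      · rintro ⟨-, h1⟩
        exact hf.mpr h1
    · have hf := relX_flip hp hq hpq h hne v hv u hu
      constructor
      · intro h1
        exact ⟨G'.ne_of_adj h1, fun h2 => hf.mp h1.symm h2.symm⟩
      · rintro ⟨-, h1⟩
        exact (hf.mpr (fun h2 => h1 h2.symm)).symm
  · rw [if_neg hc]
    have hf := h.1 u v hc
    constructor
    · intro h1
      exact ⟨G'.ne_of_adj h1, hf.mp h1⟩
    · rintro ⟨-, h1⟩
      exact hf.mpr h1

/-- (K1c) the class of `G` for the block relation. -/
theorem rX_iff (p q : Finset (Fin n)) (hp : p.card = 2) (hq : q.card = 2) (hpq : Disjoint p q)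
    (G G' : SimpleGraph (Fin n)) :
    rX p q G G' ↔ G' = G ∨ (Dom p q G ∧ G' = flipB p q G) := by
  constructor
  · intro h
    by_cases hne : G' = G
    · exact Or.inl hne
    · exact Or.inr ⟨⟨G', hne, h⟩, eq_flipB_of_rX_ne hp hq hpq h hne⟩
  · rintro (rfl | ⟨⟨G'', hne, h''⟩, rfl⟩)
    · exact (relG_equivalence _).refl _
    · rw [← eq_flipB_of_rX_ne hp hq hpq h'' hne]
      exact h''

/-- (K1d) -/
theorem flipB_ne (p q : Finset (Fin n)) (hp : p.card = 2) (hq : q.card = 2) (hpq : Disjoint p q)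
    {G : SimpleGraph (Fin n)} (h : Dom p q G) : flipB p q G ≠ G := by
  obtain ⟨G', hne, h'⟩ := h
  rw [← eq_flipB_of_rX_ne hp hq hpq h' hne]
  exact hne

/-- (K1e) -/
theorem rX_flipB (p q : Finset (Fin n)) (hp : p.card = 2) (hq : q.card = 2) (hpq : Disjoint p q)
    {G : SimpleGraph (Fin n)} (h : Dom p q G) : rX p q G (flipB p q G) := by
  obtain ⟨G', hne, h'⟩ := h
  rw [← eq_flipB_of_rX_ne hp hq hpq h' hne]
  exact h'

/-- (K1f) -/
theorem flipB_flipB (p q : Finset (Fin n)) (G : SimpleGraph (Fin n)) :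
    flipB p q (flipB p q G) = G := by
  ext u v
  rw [flipB_adj]
  by_cases hc : cellsX p q u v
  · rw [if_pos hc, flipB_adj, if_pos hc]
    constructor
    · rintro ⟨hne, h⟩
      by_contra hA
      exact h ⟨hne, hA⟩
    · intro hA
      exact ⟨G.ne_of_adj hA, fun h => h.2 hA⟩
  · rw [if_neg hc, flipB_adj, if_neg hc]
    constructor
    · rintro ⟨-, -, hA⟩
      exact hA
    · intro hA
      exact ⟨G.ne_of_adj hA, G.ne_of_adj hA, hA⟩

/-- (K1g) the block average. -/
theorem av_rX (p q : Finset (Fin n)) (hp : p.card = 2) (hq : q.card = 2) (hpq : Disjoint p q)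
    (f : SimpleGraph (Fin n) → ℝ) (G : SimpleGraph (Fin n)) :
    av (rX p q) f G = if Dom p q G then (f G + f (flipB p q G)) / 2 else f G := by
  show (∑ G' ∈ univ.filter (fun G' => rX p q G G'), f G')
    / ((univ.filter (fun G' => rX p q G G')).card : ℝ) = _
  by_cases hD : Dom p q G
  · rw [if_pos hD]
    have hne : G ≠ flipB p q G := (flipB_ne p q hp hq hpq hD).symm
    have hcls : univ.filter (fun G' => rX p q G G') = {G, flipB p q G} := by
      ext G'
      rw [Finset.mem_filter, Finset.mem_insert, Finset.mem_singleton, rX_iff p q hp hq hpq]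
      constructor
      · rintro ⟨-, h | ⟨-, h⟩⟩
        · exact Or.inl h
        · exact Or.inr h
      · rintro (h | h)
        · exact ⟨Finset.mem_univ _, Or.inl h⟩
        · exact ⟨Finset.mem_univ _, Or.inr ⟨hD, h⟩⟩
    rw [hcls, Finset.sum_pair hne, Finset.card_pair hne]
    norm_num
  · rw [if_neg hD]
    have hcls : univ.filter (fun G' => rX p q G G') = {G} := by
      ext G'
      rw [Finset.mem_filter, Finset.mem_singleton, rX_iff p q hp hq hpq]
      constructor
      · rintro ⟨-, h | ⟨h, -⟩⟩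
        · exact h
        · exact absurd h hD
      · intro h
        exact ⟨Finset.mem_univ _, Or.inl h⟩
    rw [hcls, Finset.sum_singleton, Finset.card_singleton]
    norm_num

/-- The part of the degree of `u` inside `T` is the same for related graphs, if every cell
`u, w` with `w ∉ T` is not free. -/
theorem relG_sum_eq {c : Fin n → Fin n → Prop} {G G' : SimpleGraph (Fin n)} (h : RelG c G G')
    (u : Fin n) (T : Finset (Fin n)) (hT : ∀ w, w ∉ T → ¬ c u w) :
    ∑ w ∈ T, (if G'.Adj u w then 1 else 0) = ∑ w ∈ T, (if G.Adj u w then (1 : ℕ) else 0) := by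
  have h1 := degree_eq_sum G' u
  have h2 := degree_eq_sum G u
  rw [← Finset.sum_add_sum_compl T] at h1 h2
  have h3 : ∑ w ∈ Tᶜ, (if G'.Adj u w then 1 else 0)
      = ∑ w ∈ Tᶜ, (if G.Adj u w then (1 : ℕ) else 0) := by
    refine Finset.sum_congr rfl (fun w hw => ?_)
    have hiff := h.1 u w (hT w (Finset.mem_compl.mp hw))
    by_cases hA : G.Adj u w
    · rw [if_pos hA, if_pos (hiff.mpr hA)]
    · rw [if_neg hA, if_neg (fun h' => hA (hiff.mp h'))]
  have h4 := h.2 u
  omega

/-- The number of block edges as a double sum. -/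
theorem blockCount_eq_sum (p q : Finset (Fin n)) (G : SimpleGraph (Fin n)) :
    blockCount p q G = ∑ u ∈ p, ∑ v ∈ q, (if G.Adj u v then 1 else 0) := by
  unfold blockCount
  rw [Finset.card_filter, Finset.sum_product]

/-- (K1h) the number of block edges is invariant under `rV p` and under `rV q`. -/
theorem blockCount_rV (p q : Finset (Fin n)) (hpq : Disjoint p q)
    {G G' : SimpleGraph (Fin n)} (h : rV p G G' ∨ rV q G G') :
    blockCount p q G' = blockCount p q G := by
  rw [blockCount_eq_sum, blockCount_eq_sum]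
  rcases h with h | h
  · -- column sums
    rw [Finset.sum_comm, Finset.sum_comm (s := p)]
    refine Finset.sum_congr rfl (fun v hv => ?_)
    have hv' : v ∉ p := fun hvp => Finset.disjoint_left.mp hpq hvp hv
    have e := relG_sum_eq h v p (fun w hw hc => by
      rcases hc with hc | hc
      · exact hv' hc
      · exact hw hc)
    have ec : ∀ (K : SimpleGraph (Fin n)) (u : Fin n),
        (if K.Adj u v then (1 : ℕ) else 0) = if K.Adj v u then 1 else 0 := by
      intro K u
      by_cases hA : K.Adj u v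
      · rw [if_pos hA, if_pos hA.symm]
      · rw [if_neg hA, if_neg (fun h' => hA h'.symm)]
    rw [Finset.sum_congr rfl (fun u _ => ec G' u), Finset.sum_congr rfl (fun u _ => ec G u)]
    exact e
  · -- row sums
    refine Finset.sum_congr rfl (fun u hu => ?_)
    have hu' : u ∉ q := fun huq => Finset.disjoint_left.mp hpq hu huq
    exact relG_sum_eq h u q (fun w hw hc => by
      rcases hc with hc | hc
      · exact hu' hc
      · exact hw hc)

/-- (K1i) a perfect matching has two block edges. -/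
theorem blockCount_of_dom (p q : Finset (Fin n)) (hp : p.card = 2) (hq : q.card = 2)
    (hpq : Disjoint p q) {G : SimpleGraph (Fin n)} (h : Dom p q G) : blockCount p q G = 2 := by
  obtain ⟨G', hne, h'⟩ := h
  obtain ⟨a, x, b, c, hpe, hqe, hax, hbc, -, -, -, -, g1, g2, g3⟩ :=
    relX_main hp hq hpq h' hne
  rw [blockCount_eq_sum, hpe, hqe, Finset.sum_pair hax, Finset.sum_pair hbc,
    Finset.sum_pair hbc]
  by_cases hA : G.Adj a b
  · rw [if_pos hA, if_neg (fun h1 => (g1.mp h1) hA), if_neg (fun h1 => (g2.mp h1) hA),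
      if_pos (g3.mpr hA)]
    norm_num
  · rw [if_neg hA, if_pos (g1.mpr hA), if_pos (g2.mpr hA), if_neg (fun h1 => hA (g3.mp h1))]
    norm_num

end Vale.Agent.Lib.P335.Gr
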