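import Vale.Agent.Lib.P335.Gr.Defs

/-!
# P335 / graphs: auxiliary proofs for leaf K1 (Gr/Block.lean)

`flipB_adj_aux` (K1a), `blockCount_rV_aux` (K1h), `blockCount_of_dom_aux` (K1i, from the explicit
form K1b of `Dom`), with the statements of the corresponding theorems of `Gr/Block.lean`.
-/

namespace Vale.Agent.Lib.P335.Gr

open Finset
open scoped Classical

variable {n : ℕ}

/-- (K1a) adjacency in the flipped graph. -/
theorem flipB_adj_aux (p q : Finset (Fin n)) (G : SimpleGraph (Fin n)) (u v : Fin n) :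
    (flipB p q G).Adj u v ↔ u ≠ v ∧ (if cellsX p q u v then ¬ G.Adj u v else G.Adj u v) := by
  unfold flipB
  rw [SimpleGraph.fromRel_adj]
  have hsym : (if cellsX p q v u then ¬ G.Adj v u else G.Adj v u)
      ↔ (if cellsX p q u v then ¬ G.Adj u v else G.Adj u v) := by
    have hc : cellsX p q v u ↔ cellsX p q u v := ⟨cellsX_symm, cellsX_symm⟩
    rw [if_congr hc rfl rfl, G.adj_comm v u]
  constructor
  · rintro ⟨hne, h | h⟩
    · exact ⟨hne, h⟩
    · exact ⟨hne, hsym.mp h⟩
  · rintro ⟨hne, h⟩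
    exact ⟨hne, Or.inl h⟩

/-- The degree as a sum of indicators. -/
theorem degree_eq_sum_aux (G : SimpleGraph (Fin n)) (v : Fin n) :
    G.degree v = ∑ w, if G.Adj v w then 1 else 0 := by
  rw [← SimpleGraph.card_neighborFinset_eq_degree, SimpleGraph.neighborFinset_eq_filter,
    Finset.card_filter]

/-- In an `rV S`-class a vertex outside `S` has a constant number of neighbours in `S`. -/
theorem rV_colsum_aux {S : Finset (Fin n)} {G G' : SimpleGraph (Fin n)} (h : rV S G G')
    {w : Fin n} (hw : w ∉ S) :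
    ∑ u ∈ S, (if G'.Adj w u then 1 else 0) = ∑ u ∈ S, (if G.Adj w u then 1 else 0) := by
  have hd := h.2 w
  rw [degree_eq_sum_aux, degree_eq_sum_aux, ← Finset.sum_add_sum_compl S,
    ← Finset.sum_add_sum_compl S] at hd
  have hs : ∑ u ∈ Sᶜ, (if G'.Adj w u then 1 else 0) = ∑ u ∈ Sᶜ, (if G.Adj w u then 1 else 0) := by
    refine Finset.sum_congr rfl (fun u hu => ?_)
    rw [Finset.mem_compl] at hu
    have hiff : G'.Adj w u ↔ G.Adj w u := h.1 w u (fun hc => hc.elim hw hu)
    rw [if_congr hiff rfl rfl]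
  rw [hs] at hd
  exact Nat.add_right_cancel hd

/-- The number of block edges as a double sum of indicators. -/
theorem blockCount_eq_sum_aux (p q : Finset (Fin n)) (G : SimpleGraph (Fin n)) :
    blockCount p q G = ∑ u ∈ p, ∑ v ∈ q, if G.Adj u v then 1 else 0 := by
  unfold blockCount
  rw [Finset.card_filter, Finset.sum_product]

/-- (K1h) the number of block edges is invariant under `rV p` and under `rV q`. -/
theorem blockCount_rV_aux (p q : Finset (Fin n)) (hpq : Disjoint p q)
    {G G' : SimpleGraph (Fin n)} (h : rV p G G' ∨ rV q G G') :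
    blockCount p q G' = blockCount p q G := by
  rw [blockCount_eq_sum_aux, blockCount_eq_sum_aux]
  rcases h with h | h
  · have e : ∀ H : SimpleGraph (Fin n), ∑ u ∈ p, ∑ v ∈ q, (if H.Adj u v then 1 else 0)
        = ∑ v ∈ q, ∑ u ∈ p, (if H.Adj v u then 1 else 0) := by
      intro H
      rw [Finset.sum_comm]
      exact Finset.sum_congr rfl (fun v _ => Finset.sum_congr rfl (fun u _ => by
        rw [H.adj_comm]))
    rw [e G', e G]
    exact Finset.sum_congr rfl (fun v hv =>
      rV_colsum_aux h (fun hvp => Finset.disjoint_left.mp hpq hvp hv))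
  · exact Finset.sum_congr rfl (fun u hu =>
      rV_colsum_aux h (fun huq => Finset.disjoint_left.mp hpq hu huq))

/-- (K1i) a perfect matching has two block edges (`hK1b` is the explicit form K1b of `Dom`). -/
theorem blockCount_of_dom_aux (p q : Finset (Fin n)) (hp : p.card = 2) (hq : q.card = 2)
    (hpq : Disjoint p q) {G : SimpleGraph (Fin n)}
    (hK1b : ∀ {a b c d : Fin n}, a ≠ b → c ≠ d → a ≠ c → a ≠ d → b ≠ c → b ≠ d →
      (Dom {a, b} {c, d} G ↔
        (G.Adj a c ∧ G.Adj b d ∧ ¬ G.Adj a d ∧ ¬ G.Adj b c) ∨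
        (G.Adj a d ∧ G.Adj b c ∧ ¬ G.Adj a c ∧ ¬ G.Adj b d)))
    (h : Dom p q G) : blockCount p q G = 2 := by
  obtain ⟨a, b, hab, rfl⟩ := Finset.card_eq_two.mp hp
  obtain ⟨c, d, hcd, rfl⟩ := Finset.card_eq_two.mp hq
  have hcq : c ∈ ({c, d} : Finset (Fin n)) := Finset.mem_insert_self c _
  have hdq : d ∈ ({c, d} : Finset (Fin n)) :=
    Finset.mem_insert_of_mem (Finset.mem_singleton_self d)
  have hap : a ∈ ({a, b} : Finset (Fin n)) := Finset.mem_insert_self a _
  have hbp : b ∈ ({a, b} : Finset (Fin n)) :=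
    Finset.mem_insert_of_mem (Finset.mem_singleton_self b)
  have hac : a ≠ c := fun h => Finset.disjoint_left.mp hpq hap (by rw [h]; exact hcq)
  have had : a ≠ d := fun h => Finset.disjoint_left.mp hpq hap (by rw [h]; exact hdq)
  have hbc : b ≠ c := fun h => Finset.disjoint_left.mp hpq hbp (by rw [h]; exact hcq)
  have hbd : b ≠ d := fun h => Finset.disjoint_left.mp hpq hbp (by rw [h]; exact hdq)
  rw [blockCount_eq_sum_aux, Finset.sum_pair hab, Finset.sum_pair hcd, Finset.sum_pair hcd]
  rcases (hK1b hab hcd hac had hbc hbd).mp h with ⟨h1, h2, h3, h4⟩ | ⟨h1, h2, h3, h4⟩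
  · simp [h1, h2, h3, h4]
  · simp [h1, h2, h3, h4]

end Vale.Agent.Lib.P335.Gr
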