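import Vale.Agent.Lib.P335.Gr.Rel

/-!
# P335 / graphs: the cells between two vertex sets, and all cells

`cellsX S T`: the cells with one end in `S` and the other end in `T`.
`cellsAll`: every cell (the class of `RelG cellsAll` is the set of graphs with the same degrees).
-/

namespace Vale.Agent.Lib.P335.Gr

open Finset
open scoped Classical

variable {n : ℕ}

/-- The cells between the vertex sets `S` and `T`. -/
def cellsX (S T : Finset (Fin n)) (u v : Fin n) : Prop := (u ∈ S ∧ v ∈ T) ∨ (u ∈ T ∧ v ∈ S)

/-- All cells. -/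
def cellsAll (_u _v : Fin n) : Prop := True

theorem cellsX_symm {S T : Finset (Fin n)} {u v : Fin n} (h : cellsX S T u v) :
    cellsX S T v u :=
  h.elim (fun h1 => Or.inr ⟨h1.2, h1.1⟩) (fun h1 => Or.inl ⟨h1.2, h1.1⟩)

theorem cellsX_swap {S T : Finset (Fin n)} {u v : Fin n} (h : cellsX S T u v) :
    cellsX T S u v :=
  Or.symm h

theorem cellsX_mono {S S' T T' : Finset (Fin n)} (hS : S ⊆ S') (hT : T ⊆ T') (u v : Fin n)
    (h : cellsX S T u v) : cellsX S' T' u v :=
  h.elim (fun h1 => Or.inl ⟨hS h1.1, hT h1.2⟩) (fun h1 => Or.inr ⟨hT h1.1, hS h1.2⟩)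

/-- A cell between `S` and `T` touches `S`. -/
theorem cellsV_of_cellsX {S T : Finset (Fin n)} (u v : Fin n) (h : cellsX S T u v) :
    cellsV S u v :=
  h.elim (fun h1 => Or.inl h1.1) (fun h1 => Or.inr h1.2)

/-- The block relation does not depend on the order of the two sides. -/
theorem relX_swap {p q : Finset (Fin n)} {G G' : SimpleGraph (Fin n)}
    (h : RelG (cellsX p q) G G') : RelG (cellsX q p) G G' :=
  relG_mono (fun _ _ hc => cellsX_swap hc) h

/-- Every relation `RelG c` refines the relation with all cells free. -/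
theorem relG_all {c : Fin n → Fin n → Prop} {G G' : SimpleGraph (Fin n)} (h : RelG c G G') :
    RelG cellsAll G G' :=
  relG_mono (fun _ _ _ => trivial) h

/-- The relation with all cells free: equal degrees. -/
theorem relG_all_iff (G G' : SimpleGraph (Fin n)) :
    RelG cellsAll G G' ↔ ∀ v, G'.degree v = G.degree v :=
  ⟨fun h => h.2, fun h => ⟨fun u v hc => absurd (show cellsAll u v from trivial) hc, h⟩⟩

end Vale.Agent.Lib.P335.Gr
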