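import Mathlib

/-!
# P335 / graphs: classes of graphs with prescribed degrees and prescribed cells

`RelG c G G'`: the graph `G'` agrees with `G` on every cell (pair of vertices) that is not free
(`c u v` says that the cell `u, v` is free) and has the same degree at every vertex.
`cellsV S`: the cells touching the vertex set `S`.
-/

namespace Vale.Agent.Lib.P335.Gr

open Finset
open scoped Classical

variable {n : ℕ}

/-- The cells touching the vertex set `S`. -/
def cellsV (S : Finset (Fin n)) (u v : Fin n) : Prop := u ∈ S ∨ v ∈ S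

/-- `G'` agrees with `G` on all cells that are not free and has the same degrees. -/
def RelG (c : Fin n → Fin n → Prop) (G G' : SimpleGraph (Fin n)) : Prop :=
  (∀ u v, ¬ c u v → (G'.Adj u v ↔ G.Adj u v)) ∧ ∀ v, G'.degree v = G.degree v

theorem relG_equivalence (c : Fin n → Fin n → Prop) : Equivalence (RelG c) := by
  refine ⟨fun G => ⟨fun _ _ _ => Iff.rfl, fun _ => rfl⟩, ?_, ?_⟩
  · intro G G' h
    exact ⟨fun u v huv => (h.1 u v huv).symm, fun v => (h.2 v).symm⟩
  · intro G G' G'' h1 h2
    exact ⟨fun u v huv => (h2.1 u v huv).trans (h1.1 u v huv), fun v => (h2.2 v).trans (h1.2 v)⟩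

theorem relG_mono {c c' : Fin n → Fin n → Prop} (h : ∀ u v, c u v → c' u v)
    {G G' : SimpleGraph (Fin n)} (hr : RelG c G G') : RelG c' G G' :=
  ⟨fun u v huv => hr.1 u v (fun hc => huv (h u v hc)), hr.2⟩

theorem cellsV_mono {S S' : Finset (Fin n)} (h : S ⊆ S') (u v : Fin n) (hc : cellsV S u v) :
    cellsV S' u v :=
  hc.elim (fun hu => Or.inl (h hu)) (fun hv => Or.inr (h hv))

end Vale.Agent.Lib.P335.Gr
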