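import Vale.Agent.Lib.P335.Bip.Av
import Vale.Agent.Lib.P335.Bip.AvMore
import Vale.Agent.Lib.P335.Bip.Rect

/-!
# P335 / graphs, abstract layer: the first local step for two disjoint pairs

`X` is a finite type, all relations are equivalence relations on `X`, `av r` is the class
average.  For two pair relations `ep`, `eq`, a block relation `s` (finer than both), two arm
relations `a` (finer than `ep`) and `c` (finer than `eq`) and a set `Dom` of points we prove

`2 ‖f - av s f‖² ≤ 2 ⟨f - av ep f, f - av eq f⟩ + Ndef ep Dom f + Ndef eq Dom f`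

from commutation of the averages involved and three pointwise facts about the functions fixed
by `av a`, `av c`, `av s`.
-/

namespace Vale.Agent.Lib.P335.Gr

open Finset
open scoped Classical
open Vale.Agent.Lib.P335.Bip

variable {X : Type*} [Fintype X]

/-- `f - av r f` is orthogonal to every function fixed by `av r`. -/
theorem sum_sub_av_mul_fixed {r : X → X → Prop} (hr : Equivalence r) (f u : X → ℝ)
    (hu : av r u = u) : ∑ x, (f x - av r f x) * u x = 0 := by
  have h := sum_mul_av hr f u
  rw [hu] at h
  have e : ∑ x, (f x - av r f x) * u x = ∑ x, f x * u x - ∑ x, av r f x * u x := by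
    rw [← Finset.sum_sub_distrib]
    exact Finset.sum_congr rfl (fun x _ => by ring)
  rw [e, h]
  exact sub_self _

/-- The quadratic form of `1 - av r` is the square norm of `f - av r f`. -/
theorem sum_mul_sub_av {r : X → X → Prop} (hr : Equivalence r) (f : X → ℝ) :
    ∑ x, f x * (f x - av r f x) = ∑ x, (f x - av r f x) ^ 2 := by
  rw [sum_sub_av_sq hr f, ← Finset.sum_sub_distrib]
  exact Finset.sum_congr rfl (fun x _ => by ring)

/-- The class average at `x` depends only on the class of `x` and on the values there. -/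
theorem av_congr_class {r r' : X → X → Prop} {f f' : X → ℝ} {x : X}
    (hrel : ∀ y, r x y ↔ r' x y) (hf : ∀ y, r' x y → f y = f' y) : av r f x = av r' f' x := by
  have hset : univ.filter (fun y => r x y) = univ.filter (fun y => r' x y) :=
    Finset.filter_congr (fun y _ => hrel y)
  show (∑ y ∈ univ.filter (fun y => r x y), f y) / ((univ.filter (fun y => r x y)).card : ℝ)
    = (∑ y ∈ univ.filter (fun y => r' x y), f' y) / ((univ.filter (fun y => r' x y)).card : ℝ)
  rw [hset]
  congr 1
  exact Finset.sum_congr rfl (fun y hy => hf y (Finset.mem_filter.mp hy).2)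

/-- The class average vanishes at `x` if the function vanishes on the class of `x`. -/
theorem av_eq_zero_of_class {r : X → X → Prop} {f : X → ℝ} {x : X}
    (hf : ∀ y, r x y → f y = 0) : av r f x = 0 := by
  show (∑ y ∈ univ.filter (fun y => r x y), f y) / ((univ.filter (fun y => r x y)).card : ℝ) = 0
  rw [Finset.sum_eq_zero (fun y hy => hf y (Finset.mem_filter.mp hy).2), zero_div]

/-- The class average at `x` is `g x` if `g` is constant on the class of `x`. -/
theorem av_eq_self_of_class {r : X → X → Prop} (hr : Equivalence r) {g : X → ℝ} {x : X}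
    (hg : ∀ y, r x y → g y = g x) : av r g x = g x := by
  have hpos : 0 < ((univ.filter (fun y => r x y)).card : ℝ) := by
    have hxm : x ∈ univ.filter (fun y => r x y) :=
      Finset.mem_filter.mpr ⟨Finset.mem_univ x, hr.refl x⟩
    exact_mod_cast Finset.card_pos.mpr ⟨x, hxm⟩
  show (∑ y ∈ univ.filter (fun y => r x y), g y) / ((univ.filter (fun y => r x y)).card : ℝ)
    = g x
  rw [Finset.sum_congr rfl (fun y hy => hg y (Finset.mem_filter.mp hy).2), Finset.sum_const,
    nsmul_eq_mul]
  exact mul_div_cancel_left₀ _ hpos.ne'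

/-- Cross term of two commuting class averages. -/
theorem cross_nonneg_of_comm {r s : X → X → Prop} (hr : Equivalence r) (hs : Equivalence s)
    (hcomm : ∀ f : X → ℝ, av r (av s f) = av s (av r f)) (a : X → ℝ) :
    0 ≤ ∑ x, (a x - av r a x) * (a x - av s a x) := by
  have hRb : ∀ x, av r (fun y => a y - av s a y) x = av r a x - av s (av r a) x := by
    intro x
    rw [av_sub r a (av s a), hcomm a]
  have hw := sum_mul_sub_av hr (fun y => a y - av s a y)
  have hu : av s (fun x => av s a x - av s (av r a) x)
      = fun x => av s a x - av s (av r a) x := by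
    rw [av_sub s (av s a) (av s (av r a)), av_av hs, av_av hs]
  have horth := sum_sub_av_mul_fixed hs a (fun x => av s a x - av s (av r a) x) hu
  have key : ∑ x, (a x - av r a x) * (a x - av s a x)
      = ∑ x, ((a x - av s a x) - av r (fun y => a y - av s a y) x) ^ 2 := by
    rw [← hw]
    have e : ∑ x, (a x - av r a x) * (a x - av s a x)
        - ∑ x, (a x - av s a x) * ((a x - av s a x) - av r (fun y => a y - av s a y) x)
        = ∑ x, (a x - av s a x) * (av s a x - av s (av r a) x) := by
      rw [← Finset.sum_sub_distrib]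
      refine Finset.sum_congr rfl (fun x _ => ?_)
      rw [hRb x]
      ring
    linarith
  rw [key]
  exact Finset.sum_nonneg (fun x _ => sq_nonneg _)

/-- Cross term of two class averages on a subset that is saturated for both relations and on
which the rectangle property holds. -/
theorem cross_nonneg_on {r s : X → X → Prop} (hr : Equivalence r) (hs : Equivalence s)
    (Om : X → Prop) (hOr : ∀ x y, r x y → (Om x ↔ Om y)) (hOs : ∀ x y, s x y → (Om x ↔ Om y))
    (hrect : ∀ x y z, Om x → r x y → s x z → ∃! w, s y w ∧ r z w) (g : X → ℝ) :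
    0 ≤ ∑ x, if Om x then (g x - av r g x) * (g x - av s g x) else 0 := by
  -- the relations cut down to `Om`
  have cut_equiv : ∀ t : X → X → Prop, Equivalence t → (∀ x y, t x y → (Om x ↔ Om y)) →
      Equivalence (fun x y => (Om x ∧ t x y) ∨ x = y) := by
    intro t ht hOt
    refine ⟨fun x => Or.inr rfl, ?_, ?_⟩
    · intro x y h
      rcases h with ⟨hx, hxy⟩ | rfl
      · exact Or.inl ⟨(hOt x y hxy).mp hx, ht.symm hxy⟩
      · exact Or.inr rfl
    · intro x y z h1 h2
      rcases h1 with ⟨hx, hxy⟩ | rfl
      · rcases h2 with ⟨_, hyz⟩ | rfl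
        · exact Or.inl ⟨hx, ht.trans hxy hyz⟩
        · exact Or.inl ⟨hx, hxy⟩
      · exact h2
  have hr' := cut_equiv r hr hOr
  have hs' := cut_equiv s hs hOs
  have hrect' : ∀ x y z, ((Om x ∧ r x y) ∨ x = y) → ((Om x ∧ s x z) ∨ x = z) →
      ∃! w, ((Om y ∧ s y w) ∨ y = w) ∧ ((Om z ∧ r z w) ∨ z = w) := by
    intro x y z h1 h2
    by_cases hx : Om x
    · have hxy : r x y := by
        rcases h1 with ⟨_, h⟩ | rfl
        · exact h
        · exact hr.refl _
      have hxz : s x z := by
        rcases h2 with ⟨_, h⟩ | rfl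
        · exact h
        · exact hs.refl _
      have hy : Om y := (hOr x y hxy).mp hx
      have hz : Om z := (hOs x z hxz).mp hx
      obtain ⟨w, hw, huniq⟩ := hrect x y z hx hxy hxz
      refine ⟨w, ⟨Or.inl ⟨hy, hw.1⟩, Or.inl ⟨hz, hw.2⟩⟩, ?_⟩
      intro w' hw'
      apply huniq
      constructor
      · rcases hw'.1 with ⟨_, h⟩ | rfl
        · exact h
        · exact hs.refl _
      · rcases hw'.2 with ⟨_, h⟩ | rfl
        · exact h
        · exact hr.refl _
    · have hyx : x = y := by
        rcases h1 with ⟨h, _⟩ | h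
        · exact absurd h hx
        · exact h
      have hzx : x = z := by
        rcases h2 with ⟨h, _⟩ | h
        · exact absurd h hx
        · exact h
      subst hyx
      subst hzx
      refine ⟨x, ⟨Or.inr rfl, Or.inr rfl⟩, ?_⟩
      intro w' hw'
      rcases hw'.1 with ⟨h, _⟩ | h
      · exact absurd h hx
      · exact h.symm
  have hcomm : ∀ f : X → ℝ,
      av (fun x y => (Om x ∧ r x y) ∨ x = y) (av (fun x y => (Om x ∧ s x y) ∨ x = y) f)
        = av (fun x y => (Om x ∧ s x y) ∨ x = y) (av (fun x y => (Om x ∧ r x y) ∨ x = y) f) :=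
    fun f => av_comm_of_rect hr' hs' hrect' f
  -- the function cut down to `Om`
  have cut_av : ∀ t : X → X → Prop, Equivalence t → (∀ x y, t x y → (Om x ↔ Om y)) → ∀ x,
      (if Om x then g x else 0)
        - av (fun x y => (Om x ∧ t x y) ∨ x = y) (fun y => if Om y then g y else 0) x
      = if Om x then g x - av t g x else 0 := by
    intro t ht hOt x
    by_cases hx : Om x
    · rw [if_pos hx, if_pos hx]
      have e : av (fun x y => (Om x ∧ t x y) ∨ x = y) (fun y => if Om y then g y else 0) x
          = av t g x := by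
        apply av_congr_class
        · intro y
          constructor
          · rintro (⟨_, h⟩ | rfl)
            · exact h
            · exact ht.refl _
          · intro h
            exact Or.inl ⟨hx, h⟩
        · intro y hy
          rw [if_pos ((hOt x y hy).mp hx)]
      rw [e]
    · rw [if_neg hx, if_neg hx]
      have e : av (fun x y => (Om x ∧ t x y) ∨ x = y) (fun y => if Om y then g y else 0) x
          = 0 := by
        apply av_eq_zero_of_class
        intro y hy
        have hxy : x = y := by
          rcases hy with ⟨h, _⟩ | h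
          · exact absurd h hx
          · exact h
        rw [← hxy, if_neg hx]
      rw [e]
      ring
  have main := cross_nonneg_of_comm hr' hs' hcomm (fun y => if Om y then g y else 0)
  refine le_trans main (le_of_eq ?_)
  refine Finset.sum_congr rfl (fun x _ => ?_)
  rw [cut_av r hr hOr x, cut_av s hs hOs x]
  by_cases hx : Om x
  · rw [if_pos hx, if_pos hx, if_pos hx]
  · rw [if_neg hx, if_neg hx, if_neg hx]
    ring

/-- ARM REDUCTION.  If `a` is finer than `e1` and `av e2` commutes with `av a`, the cross term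
of `e1`, `e2` at `h` is the cross term at `av a h` plus a square. -/
theorem arm_reduce {e1 e2 a : X → X → Prop} (h1 : Equivalence e1) (ha : Equivalence a)
    (hfine : ∀ x y, a x y → e1 x y)
    (hcomm : ∀ f : X → ℝ, av e2 (av a f) = av a (av e2 f)) (h : X → ℝ) :
    ∑ x, (h x - av e1 h x) * (h x - av e2 h x)
      = ∑ x, (h x - av a h x) * ((h x - av a h x) - av e2 (fun y => h y - av a h y) x)
        + ∑ x, (av a h x - av e1 (av a h) x) * (av a h x - av e2 (av a h) x) := by
  have e1' : av e1 (av a h) = av e1 h := av_coarse ha h1 hfine h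
  have e2' : av e2 (av a h) = av a (av e2 h) := hcomm h
  have eu : ∀ x, av e2 (fun y => h y - av a h y) x = av e2 h x - av e2 (av a h) x := by
    intro x
    rw [av_sub e2 h (av a h)]
  -- the two vanishing cross terms
  have hinv1 : av a (fun x => av a h x - av e2 (av a h) x)
      = fun x => av a h x - av e2 (av a h) x := by
    rw [av_sub a (av a h) (av e2 (av a h)), av_av ha, e2', av_av ha]
  have z1 := sum_sub_av_mul_fixed ha h (fun x => av a h x - av e2 (av a h) x) hinv1
  have hinv2 : av a (fun x => av a h x - av e1 h x) = fun x => av a h x - av e1 h x := by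
    rw [av_sub a (av a h) (av e1 h), av_av ha, av_coarse' ha h1 hfine h]
  have z2 := sum_sub_av_mul_fixed ha (fun x => h x - av e2 h x)
    (fun x => av a h x - av e1 h x) hinv2
  have ev : ∀ x, av a (fun y => h y - av e2 h y) x = av a h x - av e2 (av a h) x := by
    intro x
    rw [av_sub a h (av e2 h), e2']
  have expand : ∀ x, (h x - av e1 h x) * (h x - av e2 h x)
      = (h x - av a h x) * ((h x - av a h x) - av e2 (fun y => h y - av a h y) x)
        + (h x - av a h x) * (av a h x - av e2 (av a h) x)
        + ((h x - av e2 h x) - av a (fun y => h y - av e2 h y) x) * (av a h x - av e1 h x)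
        + (av a h x - av e1 (av a h) x) * (av a h x - av e2 (av a h) x) := by
    intro x
    rw [eu x, ev x, e1']
    ring
  rw [Finset.sum_congr rfl (fun x _ => expand x), Finset.sum_add_distrib, Finset.sum_add_distrib,
    Finset.sum_add_distrib, z1, z2]
  ring

/-- The relation `r` refined by membership in `Dom`. -/
def mrel (r : X → X → Prop) (Dom : X → Prop) (x y : X) : Prop := r x y ∧ (Dom x ↔ Dom y)

omit [Fintype X] in
theorem mrel_equivalence {r : X → X → Prop} (hr : Equivalence r) (Dom : X → Prop) :
    Equivalence (mrel r Dom) :=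
  ⟨fun x => ⟨hr.refl x, Iff.rfl⟩, fun h => ⟨hr.symm h.1, h.2.symm⟩,
    fun h1 h2 => ⟨hr.trans h1.1 h2.1, h1.2.trans h2.2⟩⟩

/-- The defect term: on `Dom`, the squared difference between the average over the part of the
`r`-class inside `Dom` and the average over the whole `r`-class. -/
noncomputable def Ndef (r : X → X → Prop) (Dom : X → Prop) (f : X → ℝ) : ℝ :=
  ∑ x, if Dom x then (av (mrel r Dom) f x - av r f x) ^ 2 else 0

omit [Fintype X] in
/-- The rectangle property passes to the refined relation when `Dom` is invariant under the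
other relation. -/
theorem mrel_rect {r c : X → X → Prop} {Dom : X → Prop}
    (hDc : ∀ x y, c x y → (Dom x ↔ Dom y))
    (hrect : ∀ x y z, r x y → c x z → ∃! w, c y w ∧ r z w) :
    ∀ x y z, mrel r Dom x y → c x z → ∃! w, c y w ∧ mrel r Dom z w := by
  intro x y z hxy hxz
  obtain ⟨w, hw, huniq⟩ := hrect x y z hxy.1 hxz
  refine ⟨w, ⟨hw.1, hw.2, ?_⟩, fun w' hw' => huniq w' ⟨hw'.1, hw'.2.1⟩⟩
  exact ((hDc x z hxz).symm.trans hxy.2).trans (hDc y w hw.1)

/-- The refined average commutes with `av c` under the hypotheses of `mrel_rect`. -/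
theorem mrel_comm {r c : X → X → Prop} {Dom : X → Prop} (hr : Equivalence r)
    (hc : Equivalence c) (hDc : ∀ x y, c x y → (Dom x ↔ Dom y))
    (hrect : ∀ x y z, r x y → c x z → ∃! w, c y w ∧ r z w) (f : X → ℝ) :
    av (mrel r Dom) (av c f) = av c (av (mrel r Dom) f) :=
  av_comm_of_rect (mrel_equivalence hr Dom) hc (mrel_rect hDc hrect) f

/-- A sum of squares over a `c`-saturated set does not increase under `av c`. -/
theorem defect_le_of_av {c : X → X → Prop} {D : X → Prop} (hc : Equivalence c)
    (hDc : ∀ x y, c x y → (D x ↔ D y)) (w v : X → ℝ) (hv : ∀ x, v x = av c w x) :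
    (∑ x, if D x then v x ^ 2 else 0) ≤ ∑ x, if D x then w x ^ 2 else 0 := by
  have hind : ∀ x y, c x y → (if D x then (1 : ℝ) else 0) = (if D y then (1 : ℝ) else 0) := by
    intro x y hxy
    by_cases hx : D x
    · rw [if_pos hx, if_pos ((hDc x y hxy).mp hx)]
    · rw [if_neg hx, if_neg (fun hy => hx ((hDc x y hxy).mpr hy))]
  have hpull : ∀ x, av c (fun y => (if D y then (1 : ℝ) else 0) * w y ^ 2) x
      = (if D x then (1 : ℝ) else 0) * av c (fun y => w y ^ 2) x :=
    fun x => congrFun (av_mul_invariant hc hind (fun y => w y ^ 2)) x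
  have hterm : ∀ x, (if D x then v x ^ 2 else 0)
      ≤ av c (fun y => (if D y then (1 : ℝ) else 0) * w y ^ 2) x := by
    intro x
    rw [hpull x]
    by_cases hx : D x
    · rw [if_pos hx, if_pos hx, one_mul, hv x]
      exact av_sq_le hc _ x
    · rw [if_neg hx, if_neg hx, zero_mul]
  have hsum := sum_av hc (fun y => (if D y then (1 : ℝ) else 0) * w y ^ 2)
  refine le_trans (Finset.sum_le_sum (fun x _ => hterm x)) (le_of_eq ?_)
  rw [hsum]
  refine Finset.sum_congr rfl (fun x _ => ?_)
  by_cases hx : D x
  · rw [if_pos hx, if_pos hx, one_mul]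
  · rw [if_neg hx, if_neg hx, zero_mul]

/-- The defect term does not increase under an average `av c` that commutes with everything
in sight: if the defect function of `g` is the `c`-average of the defect function of `f`. -/
theorem Ndef_le_of_av {r c : X → X → Prop} {Dom : X → Prop} (hc : Equivalence c)
    (hDc : ∀ x y, c x y → (Dom x ↔ Dom y)) (f g : X → ℝ)
    (hg : ∀ x, av (mrel r Dom) g x - av r g x
      = av c (fun y => av (mrel r Dom) f y - av r f y) x) :
    Ndef r Dom g ≤ Ndef r Dom f := by
  have hind : ∀ x y, c x y → (if Dom x then (1 : ℝ) else 0) = (if Dom y then (1 : ℝ) else 0) := by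
    intro x y hxy
    by_cases hx : Dom x
    · rw [if_pos hx, if_pos ((hDc x y hxy).mp hx)]
    · rw [if_neg hx, if_neg (fun hy => hx ((hDc x y hxy).mpr hy))]
  have hpull : ∀ x, av c (fun y => (if Dom y then (1 : ℝ) else 0)
      * (av (mrel r Dom) f y - av r f y) ^ 2) x
      = (if Dom x then (1 : ℝ) else 0)
        * av c (fun y => (av (mrel r Dom) f y - av r f y) ^ 2) x :=
    fun x => congrFun (av_mul_invariant hc hind
      (fun y => (av (mrel r Dom) f y - av r f y) ^ 2)) x
  have hterm : ∀ x, (if Dom x then (av (mrel r Dom) g x - av r g x) ^ 2 else 0)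
      ≤ av c (fun y => (if Dom y then (1 : ℝ) else 0)
          * (av (mrel r Dom) f y - av r f y) ^ 2) x := by
    intro x
    rw [hpull x]
    by_cases hx : Dom x
    · rw [if_pos hx, if_pos hx, one_mul, hg x]
      exact av_sq_le hc _ x
    · rw [if_neg hx, if_neg hx, zero_mul]
  have hsum := sum_av hc (fun y => (if Dom y then (1 : ℝ) else 0)
      * (av (mrel r Dom) f y - av r f y) ^ 2)
  unfold Ndef
  refine le_trans (Finset.sum_le_sum (fun x _ => hterm x)) (le_of_eq ?_)
  rw [hsum]
  refine Finset.sum_congr rfl (fun x _ => ?_)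
  by_cases hx : Dom x
  · rw [if_pos hx, if_pos hx, one_mul]
  · rw [if_neg hx, if_neg hx, zero_mul]

/-- If `g` is constant on the part of the `r`-class of `x` inside `Dom`, the refined average
of `g` at a point `x` of `Dom` is `g x`. -/
theorem av_mrel_of_const {r : X → X → Prop} (hr : Equivalence r) {Dom : X → Prop} {g : X → ℝ}
    {x : X} (hx : Dom x) (h : ∀ y, Dom y → r x y → g x = g y) :
    av (mrel r Dom) g x = g x := by
  have hpos : 0 < ((univ.filter (fun y => mrel r Dom x y)).card : ℝ) := by
    have hxm : x ∈ univ.filter (fun y => mrel r Dom x y) :=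
      Finset.mem_filter.mpr ⟨Finset.mem_univ x, hr.refl x, Iff.rfl⟩
    exact_mod_cast Finset.card_pos.mpr ⟨x, hxm⟩
  show (∑ y ∈ univ.filter (fun y => mrel r Dom x y), g y)
      / ((univ.filter (fun y => mrel r Dom x y)).card : ℝ) = g x
  have hsum : ∑ y ∈ univ.filter (fun y => mrel r Dom x y), g y
      = ∑ _y ∈ univ.filter (fun y => mrel r Dom x y), g x := by
    refine Finset.sum_congr rfl (fun y hy => ?_)
    have hy' := (Finset.mem_filter.mp hy).2
    exact (h y (hy'.2.mp hx) hy'.1).symm
  rw [hsum, Finset.sum_const, nsmul_eq_mul]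
  exact mul_div_cancel_left₀ _ hpos.ne'

/-- ABSTRACT FIRST STEP for two disjoint pairs. -/
theorem step_one_mrel {ep eq s a c : X → X → Prop} (Dom : X → Prop)
    (hep : Equivalence ep) (heq : Equivalence eq) (hs : Equivalence s)
    (ha : Equivalence a) (hc : Equivalence c)
    (hsp : ∀ x y, s x y → ep x y) (hsq : ∀ x y, s x y → eq x y)
    (hap : ∀ x y, a x y → ep x y) (hcq : ∀ x y, c x y → eq x y)
    (hac : ∀ f : X → ℝ, av a (av c f) = av c (av a f))
    (hsa : ∀ f : X → ℝ, av s (av a f) = av a (av s f))
    (hsc : ∀ f : X → ℝ, av s (av c f) = av c (av s f))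
    (hpc : ∀ f : X → ℝ, av ep (av c f) = av c (av ep f))
    (hqa : ∀ f : X → ℝ, av eq (av a f) = av a (av eq f))
    (hDs : ∀ x y, s x y → (Dom x ↔ Dom y))
    (hDa : ∀ x y, a x y → (Dom x ↔ Dom y))
    (hDc : ∀ x y, c x y → (Dom x ↔ Dom y))
    (hmc : ∀ f : X → ℝ, av (mrel ep Dom) (av c f) = av c (av (mrel ep Dom) f))
    (hma : ∀ f : X → ℝ, av (mrel eq Dom) (av a f) = av a (av (mrel eq Dom) f))
    (hP1 : ∀ g : X → ℝ, av a g = g → av c g = g → av s g = g →
      ∀ x y, Dom x → Dom y → ep x y → g x = g y)
    (hP2 : ∀ g : X → ℝ, av a g = g → av c g = g → av s g = g →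
      ∀ x y, Dom x → Dom y → eq x y → g x = g y)
    (hP3 : ∀ g : X → ℝ, av a g = g → av c g = g → av s g = g →
      0 ≤ ∑ x, if Dom x then 0 else (g x - av ep g x) * (g x - av eq g x))
    (f : X → ℝ) :
    2 * ∑ x, (f x - av s f x) ^ 2
      ≤ 2 * ∑ x, (f x - av ep f x) * (f x - av eq f x) + Ndef ep Dom f + Ndef eq Dom f := by
  have hMp := mrel_equivalence hep Dom
  have hMq := mrel_equivalence heq Dom
  -- the three reductions
  have hqs : ∀ f' : X → ℝ, av eq (av s f') = av s (av eq f') := by
    intro f'
    rw [av_coarse hs heq hsq f', av_coarse' hs heq hsq f']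
  have T1 := arm_reduce (e2 := eq) hep hs hsp hqs f
  have hu0 : ∀ x, av eq (fun y => f y - av s f y) x = 0 := by
    intro x
    rw [av_sub eq f (av s f), av_coarse hs heq hsq f]
    exact sub_self _
  have T1' : ∑ x, (f x - av ep f x) * (f x - av eq f x)
      = ∑ x, (f x - av s f x) ^ 2
        + ∑ x, (av s f x - av ep (av s f) x) * (av s f x - av eq (av s f) x) := by
    rw [T1]
    congr 1
    refine Finset.sum_congr rfl (fun x _ => ?_)
    rw [hu0 x]
    ring
  have T2 := arm_reduce (e2 := eq) hep ha hap hqa (av s f)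
  have T2n : 0 ≤ ∑ x, (av s f x - av a (av s f) x)
      * ((av s f x - av a (av s f) x) - av eq (fun y => av s f y - av a (av s f) y) x) := by
    rw [sum_mul_sub_av heq (fun y => av s f y - av a (av s f) y)]
    exact Finset.sum_nonneg (fun x _ => sq_nonneg _)
  have T3 := arm_reduce (e2 := ep) heq hc hcq hpc (av a (av s f))
  have T3n : 0 ≤ ∑ x, (av a (av s f) x - av c (av a (av s f)) x)
      * ((av a (av s f) x - av c (av a (av s f)) x)
        - av ep (fun y => av a (av s f) y - av c (av a (av s f)) y) x) := by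
    rw [sum_mul_sub_av hep (fun y => av a (av s f) y - av c (av a (av s f)) y)]
    exact Finset.sum_nonneg (fun x _ => sq_nonneg _)
  -- the reduced function and its invariance
  obtain ⟨g, hgdef⟩ : ∃ g : X → ℝ, g = av c (av a (av s f)) := ⟨_, rfl⟩
  have gc : av c g = g := by rw [hgdef, av_av hc]
  have ga : av a g = g := by rw [hgdef, hac, av_av ha]
  have gs : av s g = g := by rw [hgdef, hsc, hsa, av_av hs]
  have T3' : ∑ x, (g x - av ep g x) * (g x - av eq g x)
      ≤ ∑ x, (av s f x - av ep (av s f) x) * (av s f x - av eq (av s f) x) := by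
    have e3 : ∑ x, (av a (av s f) x - av eq (av a (av s f)) x)
        * (av a (av s f) x - av ep (av a (av s f)) x)
        = ∑ x, (av a (av s f) x - av ep (av a (av s f)) x)
        * (av a (av s f) x - av eq (av a (av s f)) x) :=
      Finset.sum_congr rfl (fun x _ => mul_comm _ _)
    have e4 : ∑ x, (av c (av a (av s f)) x - av eq (av c (av a (av s f))) x)
        * (av c (av a (av s f)) x - av ep (av c (av a (av s f))) x)
        = ∑ x, (g x - av ep g x) * (g x - av eq g x) := by
      rw [hgdef]
      exact Finset.sum_congr rfl (fun x _ => mul_comm _ _)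
    rw [e3, e4] at T3
    linarith
  -- the defect terms
  have Np : Ndef ep Dom g ≤ Ndef ep Dom f := by
    apply Ndef_le_of_av hc hDc f g
    intro x
    have e1 : av (mrel ep Dom) g = av c (av (mrel ep Dom) f) := by
      rw [hgdef, hmc,
        av_coarse ha hMp (fun x y hxy => ⟨hap x y hxy, hDa x y hxy⟩) (av s f),
        av_coarse hs hMp (fun x y hxy => ⟨hsp x y hxy, hDs x y hxy⟩) f]
    have e2 : av ep g = av c (av ep f) := by
      rw [hgdef, hpc, av_coarse ha hep hap (av s f), av_coarse hs hep hsp f]
    rw [e1, e2, av_sub c (av (mrel ep Dom) f) (av ep f)]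
  have Nq : Ndef eq Dom g ≤ Ndef eq Dom f := by
    apply Ndef_le_of_av ha hDa f g
    intro x
    have e1 : av (mrel eq Dom) g = av a (av (mrel eq Dom) f) := by
      rw [hgdef, av_coarse hc hMq (fun x y hxy => ⟨hcq x y hxy, hDc x y hxy⟩) (av a (av s f)),
        hma, av_coarse hs hMq (fun x y hxy => ⟨hsq x y hxy, hDs x y hxy⟩) f]
    have e2 : av eq g = av a (av eq f) := by
      rw [hgdef, av_coarse hc heq hcq (av a (av s f)), hqa, av_coarse hs heq hsq f]
    rw [e1, e2, av_sub a (av (mrel eq Dom) f) (av eq f)]
  -- the final inequality for `g`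
  have hp1 := hP1 g ga gc gs
  have hp2 := hP2 g ga gc gs
  have hp3 := hP3 g ga gc gs
  have Ngp : Ndef ep Dom g = ∑ x, if Dom x then (g x - av ep g x) ^ 2 else 0 := by
    unfold Ndef
    refine Finset.sum_congr rfl (fun x _ => ?_)
    by_cases hx : Dom x
    · rw [if_pos hx, if_pos hx, av_mrel_of_const hep hx (fun y hy hxy => hp1 x y hx hy hxy)]
    · rw [if_neg hx, if_neg hx]
  have Ngq : Ndef eq Dom g = ∑ x, if Dom x then (g x - av eq g x) ^ 2 else 0 := by
    unfold Ndef
    refine Finset.sum_congr rfl (fun x _ => ?_)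
    by_cases hx : Dom x
    · rw [if_pos hx, if_pos hx, av_mrel_of_const heq hx (fun y hy hxy => hp2 x y hx hy hxy)]
    · rw [if_neg hx, if_neg hx]
  have hfin : 0 ≤ 2 * ∑ x, (g x - av ep g x) * (g x - av eq g x)
      + Ndef ep Dom g + Ndef eq Dom g := by
    have e : 2 * ∑ x, (g x - av ep g x) * (g x - av eq g x) + Ndef ep Dom g + Ndef eq Dom g
        = 2 * (∑ x, if Dom x then 0 else (g x - av ep g x) * (g x - av eq g x))
          + ∑ x, if Dom x then ((g x - av ep g x) + (g x - av eq g x)) ^ 2 else 0 := by
      rw [Ngp, Ngq, Finset.mul_sum, Finset.mul_sum, ← Finset.sum_add_distrib,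
        ← Finset.sum_add_distrib, ← Finset.sum_add_distrib]
      refine Finset.sum_congr rfl (fun x _ => ?_)
      by_cases hx : Dom x
      · rw [if_pos hx, if_pos hx, if_pos hx, if_pos hx]
        ring
      · rw [if_neg hx, if_neg hx, if_neg hx, if_neg hx]
        ring
    rw [e]
    have h2 : 0 ≤ ∑ x, if Dom x then ((g x - av ep g x) + (g x - av eq g x)) ^ 2 else 0 := by
      apply Finset.sum_nonneg
      intro x _
      by_cases hx : Dom x
      · rw [if_pos hx]
        exact sq_nonneg _
      · rw [if_neg hx]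
    linarith
  linarith

/-- FIRST STEP, RELATIONAL FORM.  The pointwise inputs of `step_one_mrel` are replaced by
facts about the relations only: `Od` is a set of points, disjoint from `Dom` and saturated for
`ep` and `eq`, on which `ep` and `eq` have the rectangle property; two points of `Dom` in one
`ep`-class are joined by an `a`-step followed by an `s`-step (and likewise for `eq`, `c`); and
at every point outside `Dom` and `Od` the `ep`-class is inside the `a`-class or the `eq`-class
is inside the `c`-class. -/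
theorem step_one_rel {ep eq s a c : X → X → Prop} (Dom Od : X → Prop)
    (hep : Equivalence ep) (heq : Equivalence eq) (hs : Equivalence s)
    (ha : Equivalence a) (hc : Equivalence c)
    (hsp : ∀ x y, s x y → ep x y) (hsq : ∀ x y, s x y → eq x y)
    (hap : ∀ x y, a x y → ep x y) (hcq : ∀ x y, c x y → eq x y)
    (hac : ∀ f : X → ℝ, av a (av c f) = av c (av a f))
    (hsa : ∀ f : X → ℝ, av s (av a f) = av a (av s f))
    (hsc : ∀ f : X → ℝ, av s (av c f) = av c (av s f))
    (hrpc : ∀ x y z, ep x y → c x z → ∃! w, c y w ∧ ep z w)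
    (hrqa : ∀ x y z, eq x y → a x z → ∃! w, a y w ∧ eq z w)
    (hDs : ∀ x y, s x y → (Dom x ↔ Dom y))
    (hDa : ∀ x y, a x y → (Dom x ↔ Dom y))
    (hDc : ∀ x y, c x y → (Dom x ↔ Dom y))
    (hF1p : ∀ x y, Dom x → Dom y → ep x y → ∃ z, a x z ∧ s z y)
    (hF1q : ∀ x y, Dom x → Dom y → eq x y → ∃ z, c x z ∧ s z y)
    (hDO : ∀ x, Dom x → ¬ Od x)
    (hOp : ∀ x y, ep x y → (Od x ↔ Od y)) (hOq : ∀ x y, eq x y → (Od x ↔ Od y))
    (hF2 : ∀ x, ¬ Dom x → ¬ Od x → (∀ y, ep x y → a x y) ∨ (∀ y, eq x y → c x y))
    (hF3 : ∀ x y z, Od x → ep x y → eq x z → ∃! w, eq y w ∧ ep z w)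
    (f : X → ℝ) :
    2 * ∑ x, (f x - av s f x) ^ 2
      ≤ 2 * ∑ x, (f x - av ep f x) * (f x - av eq f x) + Ndef ep Dom f + Ndef eq Dom f := by
  have inv_of : ∀ (t : X → X → Prop), Equivalence t → ∀ g : X → ℝ, av t g = g →
      ∀ x y, t x y → g x = g y := by
    intro t ht g hg x y hxy
    rw [← hg]
    exact av_congr_of_rel ht g hxy
  refine step_one_mrel Dom hep heq hs ha hc hsp hsq hap hcq hac hsa hsc
    (fun f' => av_comm_of_rect hep hc hrpc f') (fun f' => av_comm_of_rect heq ha hrqa f')
    hDs hDa hDc (fun f' => mrel_comm hep hc hDc hrpc f') (fun f' => mrel_comm heq ha hDa hrqa f')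
    ?_ ?_ ?_ f
  · intro g ga _ gs x y hx hy hxy
    obtain ⟨z, hxz, hzy⟩ := hF1p x y hx hy hxy
    rw [inv_of a ha g ga x z hxz, inv_of s hs g gs z y hzy]
  · intro g _ gc gs x y hx hy hxy
    obtain ⟨z, hxz, hzy⟩ := hF1q x y hx hy hxy
    rw [inv_of c hc g gc x z hxz, inv_of s hs g gs z y hzy]
  · intro g ga gc _
    have h3 := cross_nonneg_on hep heq Od hOp hOq hF3 g
    refine le_trans h3 (le_of_eq ?_)
    refine Finset.sum_congr rfl (fun x _ => ?_)
    by_cases hx : Dom x
    · rw [if_pos hx, if_neg (hDO x hx)]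
    · rw [if_neg hx]
      by_cases ho : Od x
      · rw [if_pos ho]
      · rw [if_neg ho]
        rcases hF2 x hx ho with h | h
        · have e : av ep g x = g x :=
            av_eq_self_of_class hep (fun y hy => (inv_of a ha g ga x y (h y hy)).symm)
          rw [e, sub_self, zero_mul]
        · have e : av eq g x = g x :=
            av_eq_self_of_class heq (fun y hy => (inv_of c hc g gc x y (h y hy)).symm)
          rw [e, sub_self, mul_zero]

end Vale.Agent.Lib.P335.Gr
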