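import Vale.Agent.Lib.P335.Bip.Main
import Vale.Agent.Lib.P335.Split.Mix
import Vale.Agent.Lib.P335.Connect
import Vale.Agent.Lib.P335.Gr.Rel
import Vale.Agent.Lib.P335.Gr.Cells
import Vale.Agent.Lib.P335.Gr.StepOne

/-!
# P335 / simple graphs: definitions for the vertex-pair finite-size criterion

`X = SimpleGraph (Fin n)`.  For a symmetric predicate `c` of free cells, `RelG c G G'` says that
`G'` agrees with `G` on every cell outside `c` and has the same degree at every vertex.
All conditional expectations are `Bip.av (RelG c)`.
-/

namespace Vale.Agent.Lib.P335.Gr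

open Finset
open scoped Classical

variable {n : ℕ}

/- `RelG c G G'` (`G'` agrees with `G` on every cell that is not free, same degrees) and
`cellsV S` (the cells with an endpoint in `S`) are defined in `Gr/Rel.lean`; `cellsX S T` (the
cells between `S` and `T`) and `cellsAll` in `Gr/Cells.lean`; `mrel`, `Ndef` in `Gr/StepOne.lean`. -/

/-- Same graph outside the cells touching `S` (i.e. the same induced graph on the complement of
`S`), same degrees. -/
def rV (S : Finset (Fin n)) : SimpleGraph (Fin n) → SimpleGraph (Fin n) → Prop :=
  RelG (cellsV S)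

/-- Same graph outside the cells between `S` and `T`, same degrees. -/
def rX (S T : Finset (Fin n)) : SimpleGraph (Fin n) → SimpleGraph (Fin n) → Prop :=
  RelG (cellsX S T)

/-- Same degrees. -/
def rAll : SimpleGraph (Fin n) → SimpleGraph (Fin n) → Prop :=
  RelG cellsAll

/-- The switch block `p × q` applies to `G`: the class of `G` for `rX p q` is not a singleton. -/
def Dom (p q : Finset (Fin n)) (G : SimpleGraph (Fin n)) : Prop :=
  ∃ G', G' ≠ G ∧ rX p q G G'

/-- Same `p`-fibre and same status with respect to the switch block `p × q`. -/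
def mD (p q : Finset (Fin n)) : SimpleGraph (Fin n) → SimpleGraph (Fin n) → Prop :=
  mrel (rV p) (Dom p q)

/-- The defect term `N_{p;q}(f)`. -/
noncomputable def Nterm (p q : Finset (Fin n)) (f : SimpleGraph (Fin n) → ℝ) : ℝ :=
  Ndef (rV p) (Dom p q) f

/-- The graph obtained from `G` by complementing every cell between `p` and `q`. -/
def flipB (p q : Finset (Fin n)) (G : SimpleGraph (Fin n)) : SimpleGraph (Fin n) :=
  SimpleGraph.fromRel (fun u v => if cellsX p q u v then ¬ G.Adj u v else G.Adj u v)

/-- The number of edges of `G` between `p` and `q`. -/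
noncomputable def blockCount (p q : Finset (Fin n)) (G : SimpleGraph (Fin n)) : ℕ :=
  ((p ×ˢ q).filter (fun x => G.Adj x.1 x.2)).card

/-- The free columns of the `{a, b}`-fibre of `G`: the vertices outside `{a, b}` adjacent to
exactly one of `a`, `b`. -/
noncomputable def freeCols (a b : Fin n) (G : SimpleGraph (Fin n)) : Finset (Fin n) :=
  univ.filter (fun w => w ≠ a ∧ w ≠ b ∧ (G.Adj a w ↔ ¬ G.Adj b w))

/-- The free columns adjacent to `a`: the coordinate of `G` in its `{a, b}`-fibre. -/
noncomputable def aSet (a b : Fin n) (G : SimpleGraph (Fin n)) : Finset (Fin n) :=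
  (freeCols a b G).filter (fun w => G.Adj a w)

end Vale.Agent.Lib.P335.Gr
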