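import Vale.Agent.Lib.P335.Gr.Block

/-!
# P335 / graphs, leaf K6: the `{a, b}`-fibre of a graph is a Johnson set

`p = {a, b}`, `a ≠ b`.  `freeCols a b G` = the vertices `w ∉ p` adjacent to exactly one of `a`, `b`;
`aSet a b G` = those adjacent to `a`.  In the class of `G₀` for `rV {a, b}`: the cell `ab` and the
cells `aw`, `bw` with `w ∉ freeCols` are frozen, `freeCols` is constant, and `G ↦ aSet a b G` is a
bijection from the class onto the `k`-subsets of `freeCols a b G₀`, `k = (aSet a b G₀).card`.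
-/

namespace Vale.Agent.Lib.P335.Gr

open Finset
open scoped Classical
open Vale.Agent.Lib.P335.Bip

variable {n : ℕ}

/-! ### Degrees as sums of indicators -/

/-- The degree as a sum of indicators. -/
theorem fib_degree_eq_sum (G : SimpleGraph (Fin n)) (v : Fin n) :
    G.degree v = ∑ w, if G.Adj v w then 1 else 0 := by
  rw [← SimpleGraph.card_neighborFinset_eq_degree, SimpleGraph.neighborFinset_eq_filter,
    Finset.card_filter]

/-- Split of the degree at the pair `{a, b}`. -/
theorem fib_degree_split {a b : Fin n} (hab : a ≠ b) (G : SimpleGraph (Fin n)) (v : Fin n) :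
    G.degree v = (if G.Adj v a then 1 else 0) + (if G.Adj v b then 1 else 0)
      + ∑ u ∈ ({a, b} : Finset (Fin n))ᶜ, if G.Adj v u then 1 else 0 := by
  rw [fib_degree_eq_sum, ← Finset.sum_add_sum_compl ({a, b} : Finset (Fin n)),
    Finset.sum_pair hab]

/-- Outside `{a, b}` the two graphs of a fibre agree. -/
theorem fib_out {a b : Fin n} {G G' : SimpleGraph (Fin n)} (h : rV {a, b} G G') {u v : Fin n}
    (hua : u ≠ a) (hub : u ≠ b) (hva : v ≠ a) (hvb : v ≠ b) : G'.Adj u v ↔ G.Adj u v := by
  apply h.1 u v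
  unfold cellsV
  simp only [Finset.mem_insert, Finset.mem_singleton]
  tauto

/-- Column sums in a fibre. -/
theorem fib_col {a b : Fin n} (hab : a ≠ b) {G G' : SimpleGraph (Fin n)} (h : rV {a, b} G G')
    {w : Fin n} (hwa : w ≠ a) (hwb : w ≠ b) :
    (if G'.Adj a w then 1 else 0) + (if G'.Adj b w then 1 else 0)
      = (if G.Adj a w then 1 else 0) + (if G.Adj b w then 1 else 0) := by
  have hd := h.2 w
  rw [fib_degree_split hab G' w, fib_degree_split hab G w] at hd
  have hs : ∑ u ∈ ({a, b} : Finset (Fin n))ᶜ, (if G'.Adj w u then 1 else 0)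
      = ∑ u ∈ ({a, b} : Finset (Fin n))ᶜ, (if G.Adj w u then 1 else 0) := by
    refine Finset.sum_congr rfl (fun u hu => ?_)
    simp only [Finset.mem_compl, Finset.mem_insert, Finset.mem_singleton, not_or] at hu
    rw [if_congr (fib_out h hwa hwb hu.1 hu.2) rfl rfl]
  rw [hs] at hd
  rw [G'.adj_comm a w, G'.adj_comm b w, G.adj_comm a w, G.adj_comm b w]
  omega

/-- (K6a) column sums: a vertex outside `{a, b}` sees the same number of `a`, `b`. -/
theorem rV_pair_col {a b : Fin n} (hab : a ≠ b) {G G' : SimpleGraph (Fin n)}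
    (h : rV {a, b} G G') {w : Fin n} (hwa : w ≠ a) (hwb : w ≠ b) :
    (G'.Adj a w ∧ G'.Adj b w ↔ G.Adj a w ∧ G.Adj b w) ∧
    (¬ G'.Adj a w ∧ ¬ G'.Adj b w ↔ ¬ G.Adj a w ∧ ¬ G.Adj b w) := by
  have hc := fib_col hab h hwa hwb
  by_cases h1 : G'.Adj a w <;> by_cases h2 : G'.Adj b w <;> by_cases h3 : G.Adj a w <;>
    by_cases h4 : G.Adj b w <;> simp [h1, h2, h3, h4] at hc ⊢

/-- (K6b) the cell `ab` is frozen. -/
theorem rV_pair_ab {a b : Fin n} (hab : a ≠ b) {G G' : SimpleGraph (Fin n)}
    (h : rV {a, b} G G') : G'.Adj a b ↔ G.Adj a b := by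
  have hda := h.2 a
  have hdb := h.2 b
  rw [fib_degree_split hab G' a, fib_degree_split hab G a] at hda
  rw [fib_degree_split hab G' b, fib_degree_split hab G b] at hdb
  have hs : ∑ u ∈ ({a, b} : Finset (Fin n))ᶜ,
        ((if G'.Adj a u then 1 else 0) + (if G'.Adj b u then 1 else 0))
      = ∑ u ∈ ({a, b} : Finset (Fin n))ᶜ,
        ((if G.Adj a u then 1 else 0) + (if G.Adj b u then 1 else 0)) := by
    refine Finset.sum_congr rfl (fun u hu => ?_)
    simp only [Finset.mem_compl, Finset.mem_insert, Finset.mem_singleton, not_or] at hu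
    exact fib_col hab h hu.1 hu.2
  rw [Finset.sum_add_distrib, Finset.sum_add_distrib] at hs
  rw [if_neg (G'.irrefl), if_neg (G.irrefl)] at hda
  rw [if_neg (G'.irrefl), if_neg (G.irrefl), G'.adj_comm b a, G.adj_comm b a] at hdb
  constructor
  · intro h1
    by_contra h2
    rw [if_pos h1, if_neg h2] at hda hdb
    omega
  · intro h2
    by_contra h1
    rw [if_neg h1, if_pos h2] at hda hdb
    omega

/-- (K6c) -/
theorem freeCols_rV {a b : Fin n} (hab : a ≠ b) {G G' : SimpleGraph (Fin n)}
    (h : rV {a, b} G G') : freeCols a b G' = freeCols a b G := by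
  ext w
  simp only [freeCols, Finset.mem_filter, Finset.mem_univ, true_and]
  constructor
  · rintro ⟨hwa, hwb, hw⟩
    have hc := rV_pair_col hab h hwa hwb
    refine ⟨hwa, hwb, ?_⟩
    tauto
  · rintro ⟨hwa, hwb, hw⟩
    have hc := rV_pair_col hab h hwa hwb
    refine ⟨hwa, hwb, ?_⟩
    tauto

theorem fib_mem_freeCols {a b : Fin n} (G : SimpleGraph (Fin n)) (w : Fin n) :
    w ∈ freeCols a b G ↔ w ≠ a ∧ w ≠ b ∧ (G.Adj a w ↔ ¬ G.Adj b w) := by
  simp only [freeCols, Finset.mem_filter, Finset.mem_univ, true_and]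

theorem fib_mem_aSet {a b : Fin n} (G : SimpleGraph (Fin n)) (w : Fin n) :
    w ∈ aSet a b G ↔ w ≠ a ∧ w ≠ b ∧ (G.Adj a w ↔ ¬ G.Adj b w) ∧ G.Adj a w := by
  simp only [aSet, freeCols, Finset.mem_filter, Finset.mem_univ, true_and, and_assoc]

theorem fib_card_aSet {a b : Fin n} (G : SimpleGraph (Fin n)) :
    (aSet a b G).card
      = ∑ u ∈ ({a, b} : Finset (Fin n))ᶜ, if (G.Adj a u ∧ ¬ G.Adj b u) then 1 else 0 := by
  rw [← Finset.card_filter]
  congr 1
  ext w
  simp only [fib_mem_aSet, Finset.mem_filter, Finset.mem_compl, Finset.mem_insert,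
    Finset.mem_singleton]
  tauto

theorem fib_deg_a {a b : Fin n} (hab : a ≠ b) (G : SimpleGraph (Fin n)) :
    G.degree a = (if G.Adj a b then 1 else 0)
      + (∑ u ∈ ({a, b} : Finset (Fin n))ᶜ, if (G.Adj a u ∧ G.Adj b u) then 1 else 0)
      + (aSet a b G).card := by
  rw [fib_degree_split hab G a, if_neg G.irrefl, fib_card_aSet, zero_add, add_assoc,
    ← Finset.sum_add_distrib]
  congr 1
  refine Finset.sum_congr rfl (fun u _ => ?_)
  by_cases h1 : G.Adj a u <;> by_cases h2 : G.Adj b u <;> simp [h1, h2]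

/-- (K6d) -/
theorem aSet_card_rV {a b : Fin n} (hab : a ≠ b) {G G' : SimpleGraph (Fin n)}
    (h : rV {a, b} G G') : (aSet a b G').card = (aSet a b G).card := by
  have hd := h.2 a
  rw [fib_deg_a hab G', fib_deg_a hab G] at hd
  have hs : ∑ u ∈ ({a, b} : Finset (Fin n))ᶜ, (if (G'.Adj a u ∧ G'.Adj b u) then 1 else 0)
      = ∑ u ∈ ({a, b} : Finset (Fin n))ᶜ, (if (G.Adj a u ∧ G.Adj b u) then 1 else 0) := by
    refine Finset.sum_congr rfl (fun u hu => ?_)
    simp only [Finset.mem_compl, Finset.mem_insert, Finset.mem_singleton, not_or] at hu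
    rw [if_congr (rV_pair_col hab h hu.1 hu.2).1 rfl rfl]
  rw [hs, if_congr (rV_pair_ab hab h) rfl rfl] at hd
  omega

/-- (K6e) injectivity of the coordinate on a fibre. -/
theorem aSet_inj {a b : Fin n} (hab : a ≠ b) {G G' : SimpleGraph (Fin n)}
    (h : rV {a, b} G G') (hJ : aSet a b G' = aSet a b G) : G' = G := by
  have key : ∀ w, (G'.Adj a w ↔ G.Adj a w) ∧ (G'.Adj b w ↔ G.Adj b w) := by
    intro w
    by_cases hwa : w = a
    · rw [hwa]
      refine ⟨⟨fun h1 => absurd h1 G'.irrefl, fun h1 => absurd h1 G.irrefl⟩, ?_⟩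
      rw [G'.adj_comm, G.adj_comm]
      exact rV_pair_ab hab h
    · by_cases hwb : w = b
      · rw [hwb]
        exact ⟨rV_pair_ab hab h, ⟨fun h1 => absurd h1 G'.irrefl, fun h1 => absurd h1 G.irrefl⟩⟩
      · have hc := rV_pair_col hab h hwa hwb
        have hm : w ∈ aSet a b G' ↔ w ∈ aSet a b G := by rw [hJ]
        rw [fib_mem_aSet, fib_mem_aSet] at hm
        tauto
  ext u v
  by_cases hu : u = a ∨ u = b
  · rcases hu with rfl | rfl
    · exact (key v).1
    · exact (key v).2
  · by_cases hv : v = a ∨ v = b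
    · rw [G'.adj_comm, G.adj_comm]
      rcases hv with rfl | rfl
      · exact (key u).1
      · exact (key u).2
    · rw [not_or] at hu hv
      exact fib_out h hu.1 hu.2 hv.1 hv.2

/-! ### The graph of a fibre with a given coordinate -/

/-- The graph obtained from `G` by making `a` adjacent to the free columns in `J` and `b` adjacent
to the other free columns. -/
noncomputable def fibGraph (a b : Fin n) (G : SimpleGraph (Fin n)) (J : Finset (Fin n)) :
    SimpleGraph (Fin n) :=
  SimpleGraph.fromRel (fun u v =>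
    (u = a ∧ v ∈ freeCols a b G ∧ v ∈ J) ∨ (u = b ∧ v ∈ freeCols a b G ∧ v ∉ J) ∨
    (¬ ((u = a ∨ u = b) ∧ v ∈ freeCols a b G) ∧ ¬ ((v = a ∨ v = b) ∧ u ∈ freeCols a b G)
      ∧ G.Adj u v))

theorem fibGraph_adj_a {a b : Fin n} (hab : a ≠ b) (G : SimpleGraph (Fin n)) (J : Finset (Fin n))
    {w : Fin n} (hw : w ∈ freeCols a b G) : (fibGraph a b G J).Adj a w ↔ w ∈ J := by
  have hw' := (fib_mem_freeCols G w).mp hw
  have ha : a ∉ freeCols a b G := fun h => ((fib_mem_freeCols G a).mp h).1 rfl
  unfold fibGraph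
  rw [SimpleGraph.fromRel_adj]
  constructor
  · rintro ⟨-, h | h⟩
    · rcases h with h | h | h
      · exact h.2.2
      · exact absurd h.1 hab
      · exact absurd ⟨Or.inl rfl, hw⟩ h.1
    · rcases h with h | h | h
      · exact absurd h.1 hw'.1
      · exact absurd h.1 hw'.2.1
      · exact absurd ⟨Or.inl rfl, hw⟩ h.2.1
  · intro hJ
    exact ⟨fun h => hw'.1 h.symm, Or.inl (Or.inl ⟨rfl, hw, hJ⟩)⟩

theorem fibGraph_adj_b {a b : Fin n} (hab : a ≠ b) (G : SimpleGraph (Fin n)) (J : Finset (Fin n))
    {w : Fin n} (hw : w ∈ freeCols a b G) : (fibGraph a b G J).Adj b w ↔ w ∉ J := by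
  have hw' := (fib_mem_freeCols G w).mp hw
  unfold fibGraph
  rw [SimpleGraph.fromRel_adj]
  constructor
  · rintro ⟨-, h | h⟩
    · rcases h with h | h | h
      · exact absurd h.1.symm hab
      · exact h.2.2
      · exact absurd ⟨Or.inr rfl, hw⟩ h.1
    · rcases h with h | h | h
      · exact absurd h.1 hw'.1
      · exact absurd h.1 hw'.2.1
      · exact absurd ⟨Or.inr rfl, hw⟩ h.2.1
  · intro hJ
    exact ⟨fun h => hw'.2.1 h.symm, Or.inl (Or.inr (Or.inl ⟨rfl, hw, hJ⟩))⟩

theorem fibGraph_adj_of_not_free {a b : Fin n} (G : SimpleGraph (Fin n)) (J : Finset (Fin n))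
    {u v : Fin n} (h1 : ¬ ((u = a ∨ u = b) ∧ v ∈ freeCols a b G))
    (h2 : ¬ ((v = a ∨ v = b) ∧ u ∈ freeCols a b G)) :
    (fibGraph a b G J).Adj u v ↔ G.Adj u v := by
  unfold fibGraph
  rw [SimpleGraph.fromRel_adj]
  constructor
  · rintro ⟨-, h | h⟩
    · rcases h with h | h | h
      · exact absurd ⟨Or.inl h.1, h.2.1⟩ h1
      · exact absurd ⟨Or.inr h.1, h.2.1⟩ h1
      · exact h.2.2
    · rcases h with h | h | h
      · exact absurd ⟨Or.inl h.1, h.2.1⟩ h2
      · exact absurd ⟨Or.inr h.1, h.2.1⟩ h2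
      · exact h.2.2.symm
  · intro hadj
    exact ⟨G.ne_of_adj hadj, Or.inl (Or.inr (Or.inr ⟨h1, h2, hadj⟩))⟩

theorem fibGraph_rV {a b : Fin n} (hab : a ≠ b) (G : SimpleGraph (Fin n)) (J : Finset (Fin n))
    (hJ : J ⊆ freeCols a b G) (hc : J.card = (aSet a b G).card) :
    rV {a, b} G (fibGraph a b G J) := by
  have ha : a ∉ freeCols a b G := fun h => ((fib_mem_freeCols G a).mp h).1 rfl
  have hb : b ∉ freeCols a b G := fun h => ((fib_mem_freeCols G b).mp h).2.1 rfl
  refine ⟨?_, ?_⟩
  · intro u v huv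
    unfold cellsV at huv
    simp only [Finset.mem_insert, Finset.mem_singleton, not_or] at huv
    apply fibGraph_adj_of_not_free
    · rintro ⟨h1, -⟩
      tauto
    · rintro ⟨h1, -⟩
      tauto
  · intro v
    by_cases hva : v = a
    · -- the degree of `a`
      rw [hva, fib_degree_eq_sum, fib_degree_eq_sum,
        ← Finset.sum_add_sum_compl (freeCols a b G), ← Finset.sum_add_sum_compl (freeCols a b G)]
      have e1 : ∑ w ∈ freeCols a b G, (if (fibGraph a b G J).Adj a w then 1 else 0) = J.card := by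
        have : ∑ w ∈ freeCols a b G, (if (fibGraph a b G J).Adj a w then 1 else 0)
            = ∑ w ∈ freeCols a b G, (if w ∈ J then 1 else 0) :=
          Finset.sum_congr rfl (fun w hw => by rw [if_congr (fibGraph_adj_a hab G J hw) rfl rfl])
        rw [this, ← Finset.card_filter, Finset.filter_mem_eq_inter, Finset.inter_eq_right.mpr hJ]
      have e2 : ∑ w ∈ freeCols a b G, (if G.Adj a w then 1 else 0) = (aSet a b G).card := by
        rw [← Finset.card_filter]
        rfl
      have e3 : ∑ w ∈ (freeCols a b G)ᶜ, (if (fibGraph a b G J).Adj a w then 1 else 0)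
          = ∑ w ∈ (freeCols a b G)ᶜ, (if G.Adj a w then 1 else 0) := by
        refine Finset.sum_congr rfl (fun w hw => ?_)
        rw [Finset.mem_compl] at hw
        rw [if_congr (fibGraph_adj_of_not_free G J (fun h => hw h.2) (fun h => ha h.2)) rfl rfl]
      rw [e1, e2, e3, hc]
    · by_cases hvb : v = b
      · -- the degree of `b`
        rw [hvb, fib_degree_eq_sum, fib_degree_eq_sum,
          ← Finset.sum_add_sum_compl (freeCols a b G),
          ← Finset.sum_add_sum_compl (freeCols a b G)]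
        have e1 : ∑ w ∈ freeCols a b G, (if (fibGraph a b G J).Adj b w then 1 else 0)
            = ((freeCols a b G).filter (fun w => w ∉ J)).card := by
          rw [Finset.card_filter]
          exact Finset.sum_congr rfl
            (fun w hw => by rw [if_congr (fibGraph_adj_b hab G J hw) rfl rfl])
        have e2 : ∑ w ∈ freeCols a b G, (if G.Adj b w then 1 else 0)
            = ((freeCols a b G).filter (fun w => ¬ G.Adj a w)).card := by
          rw [Finset.card_filter]
          refine Finset.sum_congr rfl (fun w hw => ?_)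
          have hw' := ((fib_mem_freeCols G w).mp hw).2.2
          have : G.Adj b w ↔ ¬ G.Adj a w := by tauto
          rw [if_congr this rfl rfl]
        have e3 : ∑ w ∈ (freeCols a b G)ᶜ, (if (fibGraph a b G J).Adj b w then 1 else 0)
            = ∑ w ∈ (freeCols a b G)ᶜ, (if G.Adj b w then 1 else 0) := by
          refine Finset.sum_congr rfl (fun w hw => ?_)
          rw [Finset.mem_compl] at hw
          rw [if_congr (fibGraph_adj_of_not_free G J (fun h => hw h.2) (fun h => hb h.2)) rfl rfl]
        have c1 := Finset.card_filter_add_card_filter_not (s := freeCols a b G)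
          (fun w => w ∈ J)
        have c2 := Finset.card_filter_add_card_filter_not (s := freeCols a b G)
          (fun w => G.Adj a w)
        have c3 : ((freeCols a b G).filter (fun w => w ∈ J)).card = J.card := by
          rw [Finset.filter_mem_eq_inter, Finset.inter_eq_right.mpr hJ]
        have c4 : ((freeCols a b G).filter (fun w => G.Adj a w)).card = (aSet a b G).card := rfl
        rw [e1, e2, e3]
        omega
      · by_cases hvW : v ∈ freeCols a b G
        · -- the degree of a free column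
          rw [fib_degree_split hab, fib_degree_split hab G]
          have hv' := ((fib_mem_freeCols G v).mp hvW).2.2
          have e1 : ∑ u ∈ ({a, b} : Finset (Fin n))ᶜ,
                (if (fibGraph a b G J).Adj v u then 1 else 0)
              = ∑ u ∈ ({a, b} : Finset (Fin n))ᶜ, (if G.Adj v u then 1 else 0) := by
            refine Finset.sum_congr rfl (fun u hu => ?_)
            simp only [Finset.mem_compl, Finset.mem_insert, Finset.mem_singleton, not_or] at hu
            rw [if_congr (fibGraph_adj_of_not_free G J (fun h => by tauto)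
              (fun h => by tauto)) rfl rfl]
          rw [e1, (fibGraph a b G J).adj_comm v a, (fibGraph a b G J).adj_comm v b,
            if_congr (fibGraph_adj_a hab G J hvW) rfl rfl,
            if_congr (fibGraph_adj_b hab G J hvW) rfl rfl, G.adj_comm v a, G.adj_comm v b]
          by_cases h1 : v ∈ J <;> by_cases h2 : G.Adj a v <;> by_cases h3 : G.Adj b v <;>
            simp [h1, h2, h3] at hv' ⊢
        · -- the degree of any other vertex
          rw [fib_degree_eq_sum, fib_degree_eq_sum]
          refine Finset.sum_congr rfl (fun u _ => ?_)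
          rw [if_congr (fibGraph_adj_of_not_free G J (fun h => by tauto)
            (fun h => hvW h.2)) rfl rfl]

/-- (K6f) surjectivity of the coordinate on a fibre. -/
theorem aSet_surj {a b : Fin n} (hab : a ≠ b) (G : SimpleGraph (Fin n)) (J : Finset (Fin n))
    (hJ : J ∈ (freeCols a b G).powersetCard (aSet a b G).card) :
    ∃ G', rV {a, b} G G' ∧ aSet a b G' = J := by
  rw [Finset.mem_powersetCard] at hJ
  have hr := fibGraph_rV hab G J hJ.1 hJ.2
  refine ⟨fibGraph a b G J, hr, ?_⟩
  have hW := freeCols_rV hab hr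
  ext w
  unfold aSet
  rw [hW, Finset.mem_filter]
  constructor
  · rintro ⟨hw, hadj⟩
    exact (fibGraph_adj_a hab G J hw).mp hadj
  · intro hw
    exact ⟨hJ.1 hw, (fibGraph_adj_a hab G J (hJ.1 hw)).mpr hw⟩

/-- (K6g) the block `{a, b} × q` is a perfect matching iff `q` consists of two free columns
exactly one of which is adjacent to `a`. -/
theorem dom_iff_aSet {a b : Fin n} (hab : a ≠ b) (q : Finset (Fin n)) (hq : q.card = 2)
    (hpq : Disjoint {a, b} q) (G : SimpleGraph (Fin n)) :
    Dom {a, b} q G ↔ q ⊆ freeCols a b G ∧ (aSet a b G ∩ q).card = 1 := by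
  obtain ⟨c, d, hcd, rfl⟩ := Finset.card_eq_two.mp hq
  have hcq : c ∈ ({c, d} : Finset (Fin n)) := Finset.mem_insert_self c _
  have hdq : d ∈ ({c, d} : Finset (Fin n)) :=
    Finset.mem_insert_of_mem (Finset.mem_singleton_self d)
  have hap : a ∈ ({a, b} : Finset (Fin n)) := Finset.mem_insert_self a _
  have hbp : b ∈ ({a, b} : Finset (Fin n)) :=
    Finset.mem_insert_of_mem (Finset.mem_singleton_self b)
  have hac : a ≠ c := fun h => Finset.disjoint_left.mp hpq hap (by rw [h]; exact hcq)
  have had : a ≠ d := fun h => Finset.disjoint_left.mp hpq hap (by rw [h]; exact hdq)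
  have hbc : b ≠ c := fun h => Finset.disjoint_left.mp hpq hbp (by rw [h]; exact hcq)
  have hbd : b ≠ d := fun h => Finset.disjoint_left.mp hpq hbp (by rw [h]; exact hdq)
  rw [dom_iff_adj hab hcd hac had hbc hbd G]
  have hcard : (aSet a b G ∩ {c, d}).card
      = (if c ∈ aSet a b G then 1 else 0) + (if d ∈ aSet a b G then 1 else 0) := by
    rw [Finset.inter_comm, ← Finset.filter_mem_eq_inter, Finset.card_filter, Finset.sum_pair hcd]
  rw [hcard]
  have hsub : ({c, d} : Finset (Fin n)) ⊆ freeCols a b G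
      ↔ c ∈ freeCols a b G ∧ d ∈ freeCols a b G := by
    simp only [Finset.insert_subset_iff, Finset.singleton_subset_iff]
  rw [hsub, fib_mem_freeCols, fib_mem_freeCols]
  have hc' : c ∈ aSet a b G ↔ (G.Adj a c ↔ ¬ G.Adj b c) ∧ G.Adj a c := by
    rw [fib_mem_aSet]
    constructor
    · rintro ⟨-, -, h⟩
      exact h
    · intro h
      exact ⟨hac.symm, hbc.symm, h⟩
  have hd' : d ∈ aSet a b G ↔ (G.Adj a d ↔ ¬ G.Adj b d) ∧ G.Adj a d := by
    rw [fib_mem_aSet]
    constructor
    · rintro ⟨-, -, h⟩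
      exact h
    · intro h
      exact ⟨had.symm, hbd.symm, h⟩
  rw [if_congr hc' rfl rfl, if_congr hd' rfl rfl]
  by_cases h1 : G.Adj a c <;> by_cases h2 : G.Adj b c <;> by_cases h3 : G.Adj a d <;>
    by_cases h4 : G.Adj b d <;>
    simp [h1, h2, h3, h4, hac.symm, hbc.symm, had.symm, hbd.symm]

/-- (K6h) the coordinate of the flipped graph. -/
theorem aSet_flipB {a b : Fin n} (hab : a ≠ b) (q : Finset (Fin n)) (hq : q.card = 2)
    (hpq : Disjoint {a, b} q) (G : SimpleGraph (Fin n)) (hD : Dom {a, b} q G) :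
    aSet a b (flipB {a, b} q G) = symmDiff (aSet a b G) q := by
  have hfree := ((dom_iff_aSet hab q hq hpq G).mp hD).1
  have haq : a ∉ q := fun h => Finset.disjoint_left.mp hpq (Finset.mem_insert_self a _) h
  have hbq : b ∉ q := fun h => Finset.disjoint_left.mp hpq
    (Finset.mem_insert_of_mem (Finset.mem_singleton_self b)) h
  have hA : ∀ w, w ≠ a → w ≠ b →
      ((flipB {a, b} q G).Adj a w ↔ (if w ∈ q then ¬ G.Adj a w else G.Adj a w)) := by
    intro w hwa hwb
    rw [flipB_adj]
    have hcx : cellsX {a, b} q a w ↔ w ∈ q := by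
      unfold cellsX
      simp only [Finset.mem_insert, Finset.mem_singleton]
      tauto
    rw [if_congr hcx rfl rfl]
    constructor
    · exact fun h => h.2
    · exact fun h => ⟨fun h' => hwa h'.symm, h⟩
  have hB : ∀ w, w ≠ a → w ≠ b →
      ((flipB {a, b} q G).Adj b w ↔ (if w ∈ q then ¬ G.Adj b w else G.Adj b w)) := by
    intro w hwa hwb
    rw [flipB_adj]
    have hcx : cellsX {a, b} q b w ↔ w ∈ q := by
      unfold cellsX
      simp only [Finset.mem_insert, Finset.mem_singleton]
      tauto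
    rw [if_congr hcx rfl rfl]
    constructor
    · exact fun h => h.2
    · exact fun h => ⟨fun h' => hwb h'.symm, h⟩
  ext w
  rw [Finset.mem_symmDiff, fib_mem_aSet, fib_mem_aSet]
  by_cases hwa : w = a
  · have : w ∉ q := hwa ▸ haq
    tauto
  · by_cases hwb : w = b
    · have : w ∉ q := hwb ▸ hbq
      tauto
    · rw [hA w hwa hwb, hB w hwa hwb]
      by_cases hwq : w ∈ q
      · have hwf := ((fib_mem_freeCols G w).mp (hfree hwq)).2.2
        simp only [hwq, if_true]
        tauto
      · simp only [hwq, if_false]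
        tauto

end Vale.Agent.Lib.P335.Gr
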