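import Vale.Agent.Lib.P335.Gr.Energy
import Vale.Agent.Lib.P335.Split.Mix

/-!
# P335 / graphs: from the gap inequality on all graphs to the switch chain of a degree vector

The gap inequality (variance inside a degree class at most half of the sum of all block terms)
enters as the hypothesis `hgap`.  Restricting to the realizations of `d` gives the energy
inequality, the Poincare constant `2 * moveProb n` and the mixing time bound `n ^ 6`.
-/

namespace Vale.Agent.Lib.P335.Gr

open Finset
open scoped Classical
open Vale.Agent.Lib.P335.Bip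

variable {n : ℕ}

/-- The gap inequality on all graphs, as a hypothesis. -/
def GapHyp (n : ℕ) : Prop :=
  ∀ f : SimpleGraph (Fin n) → ℝ,
    ∑ G, (f G - av (RelG cellsAll) f G) ^ 2
      ≤ (1 / 2) * ∑ p ∈ (univ : Finset (Fin n)).powersetCard 2,
          ∑ q ∈ (univ \ p).powersetCard 2, ∑ G, (f G - av (RelG (cellsX p q)) f G) ^ 2

/-- The class of `H` for the relation with all cells free is the set of realizations of the
degree vector of `H`. -/
theorem relG_all_class {d : Fin n → ℕ} {H : SimpleGraph (Fin n)} (hH : H ∈ realizations d) :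
    univ.filter (fun G' => RelG cellsAll H G') = realizations d := by
  ext G'
  simp only [Finset.mem_filter, Finset.mem_univ, true_and, mem_realizations]
  constructor
  · intro h v
    rw [h.2 v]
    exact (mem_realizations.mp hH) v
  · intro h
    exact ⟨fun u v hc => absurd (show cellsAll u v from trivial) hc,
      fun v => (h v).trans ((mem_realizations.mp hH) v).symm⟩

/-- Energy inequality for the switch chain of an arbitrary degree vector. -/
theorem sum_sq_le_switchEnergy_of_gap {d : Fin n → ℕ} (hgap : GapHyp n)
    (u : SimpleGraph (Fin n) → ℝ) (hu : ∑ H ∈ realizations d, u H = 0) :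
    ∑ H ∈ realizations d, (u H) ^ 2 ≤ (1 / 4) * switchEnergy d u := by
  set f : SimpleGraph (Fin n) → ℝ := fun G => if G ∈ realizations d then u G else 0 with hfdef
  have hfin : ∀ G ∈ realizations d, f G = u G := by
    intro G hG
    rw [hfdef]
    exact if_pos hG
  have hfout : ∀ G, G ∉ realizations d → f G = 0 := by
    intro G hG
    rw [hfdef]
    exact if_neg hG
  have havg : ∀ H ∈ realizations d, av (RelG cellsAll) f H = 0 := by
    intro H hH
    show (∑ G' ∈ univ.filter (fun G' => RelG cellsAll H G'), f G')
      / ((univ.filter (fun G' => RelG cellsAll H G')).card : ℝ) = 0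
    rw [relG_all_class hH, Finset.sum_congr rfl hfin, hu, zero_div]
  -- left side
  have hL : ∑ H ∈ realizations d, (u H) ^ 2 ≤ ∑ G, (f G - av (RelG cellsAll) f G) ^ 2 := by
    have e1 : ∑ H ∈ realizations d, (u H) ^ 2
        = ∑ H ∈ realizations d, (f H - av (RelG cellsAll) f H) ^ 2 := by
      refine Finset.sum_congr rfl (fun H hH => ?_)
      rw [havg H hH, hfin H hH, sub_zero]
    rw [e1]
    exact Finset.sum_le_sum_of_subset_of_nonneg (Finset.subset_univ _)
      (fun G _ _ => sq_nonneg _)
  -- right side
  have hR : ∑ G, ∑ H, (if IsSwitch G H then (f G - f H) ^ 2 else 0) = switchEnergy d u := by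
    unfold switchEnergy
    have e2 : ∑ G, ∑ H, (if IsSwitch G H then (f G - f H) ^ 2 else 0)
        = ∑ G ∈ realizations d, ∑ H, (if IsSwitch G H then (f G - f H) ^ 2 else 0) := by
      symm
      apply Finset.sum_subset (Finset.subset_univ _)
      intro G _ hG
      apply Finset.sum_eq_zero
      intro H _
      by_cases hsw : IsSwitch G H
      · have hHn : H ∉ realizations d := fun hH => hG (hsw.symm.mem_realizations hH)
        rw [if_pos hsw, hfout G hG, hfout H hHn]
        norm_num
      · rw [if_neg hsw]
    rw [e2]
    refine Finset.sum_congr rfl (fun G hG => ?_)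
    have e3 : ∑ H, (if IsSwitch G H then (f G - f H) ^ 2 else 0)
        = ∑ H ∈ realizations d, (if IsSwitch G H then (f G - f H) ^ 2 else 0) := by
      symm
      apply Finset.sum_subset (Finset.subset_univ _)
      intro H _ hH
      rw [if_neg (fun hsw => hH (hsw.mem_realizations hG))]
    rw [e3]
    refine Finset.sum_congr rfl (fun H hH => ?_)
    rw [hfin G hG, hfin H hH]
  have h1 := hgap f
  have h2 := block_energy_le f
  rw [hR] at h2
  have h3 : (1 / 2 : ℝ) * ∑ p ∈ (univ : Finset (Fin n)).powersetCard 2,
      ∑ q ∈ (univ \ p).powersetCard 2, ∑ G, (f G - av (RelG (cellsX p q)) f G) ^ 2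
      ≤ (1 / 2) * ((1 / 2) * switchEnergy d u) :=
    mul_le_mul_of_nonneg_left h2 (by norm_num)
  linarith

/-- Poincare constant `2 * moveProb n` for every degree vector. -/
theorem poincare_of_gap (hgap : GapHyp n) (d : Fin n → ℕ) : Poincare d (2 * moveProb n) :=
  poincare_of_sum_sq_le (fun u hu => sum_sq_le_switchEnergy_of_gap hgap u hu)

/-- Mixing at every time `t ≥ n ^ 6` for every graphical degree vector; `tmix d ≤ n ^ 6`. -/
theorem mixed_of_gap (hn : 4 ≤ n) (hgap : GapHyp n) {d : Fin n → ℕ}
    (hne : (realizations d).Nonempty) :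
    (∀ t : ℕ, n ^ 6 ≤ t → IsMixedAt d t) ∧ tmix d ≤ n ^ 6 :=
  mixed_of_poincare_two hn hne (poincare_of_gap hgap d)

end Vale.Agent.Lib.P335.Gr
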