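import Vale.Agent.Lib.P335.Bip.Av

/-!
# P335 / graphs, abstract layer: transfer of a many-relation inequality along a map that is a
bijection between classes

`φ : X → Y` maps every class of `rT` bijectively onto a class of `sT`, and matches the finer
relations `r i` (on `X`) with `s i` (on `Y`) inside classes.  Then an inequality between the
quadratic forms of the class averages on `Y` holds on `X` as well.
-/

namespace Vale.Agent.Lib.P335.Gr

open Finset
open scoped Classical
open Vale.Agent.Lib.P335.Bip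

variable {X Y : Type*} [Fintype X] [Fintype Y]

/-- The function on `Y` that carries the values of `g` on the `rT`-class of `x0` (along `φ`)
and vanishes elsewhere. -/
noncomputable def pushCls (φ : X → Y) (rT : X → X → Prop) (x0 : X) (g : X → ℝ) : Y → ℝ :=
  fun y => if h : ∃ x, rT x0 x ∧ φ x = y then g h.choose else 0

theorem pushCls_apply {φ : X → Y} {rT : X → X → Prop} (hrT : Equivalence rT)
    (hinj : ∀ x x', rT x x' → φ x = φ x' → x = x') {x0 x : X} (hx : rT x0 x) (g : X → ℝ) :
    pushCls φ rT x0 g (φ x) = g x := by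
  have h : ∃ x', rT x0 x' ∧ φ x' = φ x := ⟨x, hx, rfl⟩
  unfold pushCls
  rw [dif_pos h]
  have h1 := h.choose_spec
  have h2 : h.choose = x := hinj _ _ (hrT.trans (hrT.symm h1.1) hx) h1.2
  rw [h2]

theorem pushCls_of_not {φ : X → Y} {rT : X → X → Prop} {x0 : X} {y : Y}
    (hy : ¬ ∃ x, rT x0 x ∧ φ x = y) (g : X → ℝ) : pushCls φ rT x0 g y = 0 := by
  unfold pushCls
  rw [dif_neg hy]

/-- Sums against the pushed function are sums over the class. -/
theorem sum_pushCls_mul {φ : X → Y} {rT : X → X → Prop} (hrT : Equivalence rT)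
    (hinj : ∀ x x', rT x x' → φ x = φ x' → x = x') (x0 : X) (g : X → ℝ) (F : Y → ℝ) :
    ∑ y, pushCls φ rT x0 g y * F y
      = ∑ x ∈ univ.filter (fun x => rT x0 x), g x * F (φ x) := by
  have himg : ∑ y ∈ (univ.filter (fun x => rT x0 x)).image φ, pushCls φ rT x0 g y * F y
      = ∑ y, pushCls φ rT x0 g y * F y := by
    apply Finset.sum_subset (Finset.subset_univ _)
    intro y _ hy
    have hno : ¬ ∃ x, rT x0 x ∧ φ x = y := by
      rintro ⟨x, hx, rfl⟩
      exact hy (Finset.mem_image.mpr ⟨x, Finset.mem_filter.mpr ⟨Finset.mem_univ _, hx⟩, rfl⟩)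
    rw [pushCls_of_not hno, zero_mul]
  rw [← himg, Finset.sum_image]
  · refine Finset.sum_congr rfl (fun x hx => ?_)
    rw [pushCls_apply hrT hinj (Finset.mem_filter.mp hx).2]
  · intro x hx x' hx' he
    exact hinj x x'
      (hrT.trans (hrT.symm (Finset.mem_filter.mp hx).2) (Finset.mem_filter.mp hx').2) he

/-- The class average of the pushed function is the class average of the function. -/
theorem av_pushCls {φ : X → Y} {rT : X → X → Prop} {sT : Y → Y → Prop} (hrT : Equivalence rT)
    (hinj : ∀ x x', rT x x' → φ x = φ x' → x = x')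
    (hsurj : ∀ x y, sT (φ x) y → ∃ x', rT x x' ∧ φ x' = y)
    {ρ : X → X → Prop} {σ : Y → Y → Prop}
    (hρ : ∀ x x', ρ x x' → rT x x') (hσ : ∀ y y', σ y y' → sT y y')
    (hiff : ∀ x x', rT x x' → (ρ x x' ↔ σ (φ x) (φ x')))
    {x0 x : X} (hx : rT x0 x) (g : X → ℝ) :
    av σ (pushCls φ rT x0 g) (φ x) = av ρ g x := by
  have hset : univ.filter (fun y => σ (φ x) y) = (univ.filter (fun x' => ρ x x')).image φ := by
    ext y
    simp only [Finset.mem_filter, Finset.mem_univ, true_and, Finset.mem_image]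
    constructor
    · intro hy
      obtain ⟨x', hx', rfl⟩ := hsurj x y (hσ _ _ hy)
      exact ⟨x', (hiff x x' hx').mpr hy, rfl⟩
    · rintro ⟨x', hx', rfl⟩
      exact (hiff x x' (hρ x x' hx')).mp hx'
  have hinjOn : ∀ a ∈ univ.filter (fun x' => ρ x x'), ∀ b ∈ univ.filter (fun x' => ρ x x'),
      φ a = φ b → a = b := by
    intro a ha b hb he
    have ha' := hρ _ _ (Finset.mem_filter.mp ha).2
    have hb' := hρ _ _ (Finset.mem_filter.mp hb).2
    exact hinj a b (hrT.trans (hrT.symm ha') hb') he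
  have hcard : ((univ.filter (fun x' => ρ x x')).image φ).card
      = (univ.filter (fun x' => ρ x x')).card := by
    apply Finset.card_image_of_injOn
    intro a ha b hb he
    exact hinjOn a (Finset.mem_coe.mp ha) b (Finset.mem_coe.mp hb) he
  show (∑ y ∈ univ.filter (fun y => σ (φ x) y), pushCls φ rT x0 g y)
      / ((univ.filter (fun y => σ (φ x) y)).card : ℝ)
    = (∑ x' ∈ univ.filter (fun x' => ρ x x'), g x')
      / ((univ.filter (fun x' => ρ x x')).card : ℝ)
  rw [hset, Finset.sum_image hinjOn, hcard]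
  have hsum : ∑ x' ∈ univ.filter (fun x' => ρ x x'), pushCls φ rT x0 g (φ x')
      = ∑ x' ∈ univ.filter (fun x' => ρ x x'), g x' := by
    refine Finset.sum_congr rfl (fun x' hx' => ?_)
    exact pushCls_apply hrT hinj (hrT.trans hx (hρ _ _ (Finset.mem_filter.mp hx').2)) g
  rw [hsum]

/-- TRANSFER LEMMA.  Let `φ : X → Y` map each `rT`-class bijectively onto an `sT`-class
(`hmap`, `hinj`, `hsurj`) and match the finer relations `r i` and `s i` inside classes
(`hiff`).  If the many-relation inequality holds for all functions on `Y`, it holds for all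
functions on `X`. -/
theorem transfer_ineq {ι : Type*} (φ : X → Y) (I : Finset ι)
    (r : ι → X → X → Prop) (rT : X → X → Prop) (s : ι → Y → Y → Prop) (sT : Y → Y → Prop)
    (hrT : Equivalence rT)
    (hrfine : ∀ i ∈ I, ∀ x x', r i x x' → rT x x')
    (hsfine : ∀ i ∈ I, ∀ y y', s i y y' → sT y y')
    (hmap : ∀ x x', rT x x' → sT (φ x) (φ x'))
    (hinj : ∀ x x', rT x x' → φ x = φ x' → x = x')
    (hsurj : ∀ x y, sT (φ x) y → ∃ x', rT x x' ∧ φ x' = y)
    (hiff : ∀ i ∈ I, ∀ x x', rT x x' → (r i x x' ↔ s i (φ x) (φ x')))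
    (c : ℝ)
    (hY : ∀ g : Y → ℝ, ∑ i ∈ I, ∑ y, g y * av (s i) g y
      ≤ c * ∑ y, g y ^ 2 + ∑ y, g y * av sT g y)
    (g : X → ℝ) :
    ∑ i ∈ I, ∑ x, g x * av (r i) g x ≤ c * ∑ x, g x ^ 2 + ∑ x, g x * av rT g x := by
  -- the inequality inside one class
  have hcls : ∀ x0 : X, ∑ i ∈ I, ∑ x ∈ univ.filter (fun x => rT x0 x), g x * av (r i) g x
      ≤ c * ∑ x ∈ univ.filter (fun x => rT x0 x), g x ^ 2
        + ∑ x ∈ univ.filter (fun x => rT x0 x), g x * av rT g x := by
    intro x0
    have h := hY (pushCls φ rT x0 g)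
    have e1 : ∀ i ∈ I, ∑ y, pushCls φ rT x0 g y * av (s i) (pushCls φ rT x0 g) y
        = ∑ x ∈ univ.filter (fun x => rT x0 x), g x * av (r i) g x := by
      intro i hi
      rw [sum_pushCls_mul hrT hinj x0 g]
      refine Finset.sum_congr rfl (fun x hx => ?_)
      rw [av_pushCls hrT hinj hsurj (hrfine i hi) (hsfine i hi) (hiff i hi)
        (Finset.mem_filter.mp hx).2]
    have e2 : ∑ y, pushCls φ rT x0 g y ^ 2
        = ∑ x ∈ univ.filter (fun x => rT x0 x), g x ^ 2 := by
      have h2 := sum_pushCls_mul hrT hinj x0 g (pushCls φ rT x0 g)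
      have h3 : ∑ y, pushCls φ rT x0 g y ^ 2
          = ∑ y, pushCls φ rT x0 g y * pushCls φ rT x0 g y :=
        Finset.sum_congr rfl (fun y _ => sq _)
      rw [h3, h2]
      refine Finset.sum_congr rfl (fun x hx => ?_)
      rw [pushCls_apply hrT hinj (Finset.mem_filter.mp hx).2, sq]
    have e3 : ∑ y, pushCls φ rT x0 g y * av sT (pushCls φ rT x0 g) y
        = ∑ x ∈ univ.filter (fun x => rT x0 x), g x * av rT g x := by
      rw [sum_pushCls_mul hrT hinj x0 g]
      refine Finset.sum_congr rfl (fun x hx => ?_)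
      rw [av_pushCls hrT hinj hsurj (fun _ _ h => h) (fun _ _ h => h)
        (fun x x' h => ⟨fun _ => hmap x x' h, fun _ => h⟩) (Finset.mem_filter.mp hx).2]
    rw [Finset.sum_congr rfl e1, e2, e3] at h
    exact h
  -- sum over the classes
  set F : X → ℝ := fun x => ∑ i ∈ I, g x * av (r i) g x - c * g x ^ 2 - g x * av rT g x
    with hF
  have hneg : ∀ x0, av rT F x0 ≤ 0 := by
    intro x0
    show (∑ x ∈ univ.filter (fun x => rT x0 x), F x)
      / ((univ.filter (fun x => rT x0 x)).card : ℝ) ≤ 0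
    apply div_nonpos_of_nonpos_of_nonneg _ (Nat.cast_nonneg _)
    have h := hcls x0
    rw [Finset.sum_comm] at h
    have e : ∑ x ∈ univ.filter (fun x => rT x0 x), F x
        = ∑ x ∈ univ.filter (fun x => rT x0 x), ∑ i ∈ I, g x * av (r i) g x
          - c * ∑ x ∈ univ.filter (fun x => rT x0 x), g x ^ 2
          - ∑ x ∈ univ.filter (fun x => rT x0 x), g x * av rT g x := by
      rw [Finset.mul_sum, ← Finset.sum_sub_distrib, ← Finset.sum_sub_distrib]
    rw [e]
    linarith
  have htot : ∑ x, F x ≤ 0 := by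
    rw [← sum_av hrT F]
    exact Finset.sum_nonpos (fun x _ => hneg x)
  have e : ∑ x, F x = ∑ i ∈ I, ∑ x, g x * av (r i) g x - c * ∑ x, g x ^ 2
      - ∑ x, g x * av rT g x := by
    rw [Finset.sum_comm (s := I), Finset.mul_sum, ← Finset.sum_sub_distrib,
      ← Finset.sum_sub_distrib]
  rw [e] at htot
  linarith

end Vale.Agent.Lib.P335.Gr
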