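import Vale.Agent.Lib.P335.Gr.PhiRel
import Vale.Agent.Lib.P335.Gr.Transfer
import Vale.Agent.Lib.P335.Bip.Main

/-!
# P335 / graphs: the three-vertex inequality (G1)

For a set `t` of three vertices, the class averages `E_p` over the classes of the three pairs
`p ⊆ t` and the average `E_t` over the class of `t` satisfy
`∑_p ⟨g, E_p g⟩ ≤ 2 ‖g‖² + ⟨g, E_t g⟩`.  It is the three-row inequality for 0/1 matrices,
transferred along the three-row encoding of a triple class.
-/

namespace Vale.Agent.Lib.P335.Gr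

open Finset
open scoped Classical
open Vale.Agent.Lib.P335.Bip

variable {n : ℕ}

/-- The three-row inequality transferred along a map that is a bijection between classes
(generic in the index types of the matrices, so that no instance is fixed). -/
theorem three_transfer {R C : Type*} [Fintype R] [Fintype C] {X : Type*} [Fintype X]
    (φ : X → R → C → Bool) (t : Finset R) (ht : t.card = 3) (T : Finset C)
    (r : Finset R → X → X → Prop) (rT : X → X → Prop) (hrT : Equivalence rT)
    (hrfine : ∀ p ∈ t.powersetCard 2, ∀ x x', r p x x' → rT x x')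
    (hmap : ∀ x x', rT x x' → Bip.Rel t T (φ x) (φ x'))
    (hinj : ∀ x x', rT x x' → φ x = φ x' → x = x')
    (hsurj : ∀ x M, Bip.Rel t T (φ x) M → ∃ x', rT x x' ∧ φ x' = M)
    (hiff : ∀ p ∈ t.powersetCard 2, ∀ x x', rT x x' → (r p x x' ↔ Bip.Rel p T (φ x) (φ x')))
    (g : X → ℝ) :
    ∑ p ∈ t.powersetCard 2, ∑ x, g x * av (r p) g x
      ≤ 2 * ∑ x, g x ^ 2 + ∑ x, g x * av rT g x :=
  transfer_ineq φ (t.powersetCard 2) r rT (fun p => Bip.Rel p T) (Bip.Rel t T) hrT hrfine
    (fun _ hp _ _ h => Bip.rel_mono (Finset.mem_powersetCard.mp hp).1 (Finset.Subset.refl _) h)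
    hmap hinj hsurj hiff 2 (fun f => Bip.three_row t ht T f) g

/-- (G1) The three-vertex inequality. -/
theorem three_vertex (t : Finset (Fin n)) (ht : t.card = 3) (g : SimpleGraph (Fin n) → ℝ) :
    ∑ p ∈ t.powersetCard 2, ∑ G, g G * av (RelG (cellsV p)) g G
      ≤ 2 * ∑ G, g G ^ 2 + ∑ G, g G * av (RelG (cellsV t)) g G :=
  three_transfer (phiT t) t ht (TT t) (fun p => RelG (cellsV p)) (RelG (cellsV t))
    (relG_equivalence _)
    (fun _ hp _ _ h => relG_mono (cellsV_mono (Finset.mem_powersetCard.mp hp).1) h)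
    (fun _ _ h => rel_phiT_of_relG ht h)
    (fun _ _ h hphi => eq_of_phiT_eq ht h hphi)
    (fun _ _ h => exists_relG_of_rel ht h)
    (fun _ hp _ _ h => relG_pair_iff ht (Finset.mem_powersetCard.mp hp).1
      (Finset.mem_powersetCard.mp hp).2 h)
    g

end Vale.Agent.Lib.P335.Gr
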