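import Vale.Agent.Lib.P335.Gr.Final
import Vale.Agent.Lib.P335.Gr.Triple

/-!
# P335 / graphs: the gap inequality on all graphs from the local steps

The two local steps for disjoint pairs and the kernel statement enter as hypotheses; with the
three-vertex inequality `three_vertex` the abstract criterion `gap_two` gives `GapHyp n`.
-/

namespace Vale.Agent.Lib.P335.Gr

open Finset
open scoped Classical
open Vale.Agent.Lib.P335.Bip

variable {n : ℕ}

/-- The block term of the ordered pair `(p, q)`. -/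
noncomputable def blockTerm (p q : Finset (Fin n)) (a : SimpleGraph (Fin n) → ℝ) : ℝ :=
  ∑ G, (a G - av (RelG (cellsX p q)) a G) ^ 2

theorem gapHyp_of_steps
    (hker : ∀ a : SimpleGraph (Fin n) → ℝ,
      (∀ p ∈ (univ : Finset (Fin n)).powersetCard 2, av (RelG (cellsV p)) a = a) →
        av (RelG cellsAll) a = a)
    (N : Finset (Fin n) → Finset (Fin n) → (SimpleGraph (Fin n) → ℝ) → ℝ)
    (hN : ∀ p q a, 0 ≤ N p q a)
    (hstep1 : ∀ p ∈ (univ : Finset (Fin n)).powersetCard 2,
      ∀ q ∈ (univ \ p).powersetCard 2, ∀ a : SimpleGraph (Fin n) → ℝ,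
        2 * blockTerm p q a
          ≤ 2 * ∑ G, (a G - av (RelG (cellsV p)) a G) * (a G - av (RelG (cellsV q)) a G)
            + N p q a + N q p a)
    (hstep2 : ∀ p ∈ (univ : Finset (Fin n)).powersetCard 2, ∀ a : SimpleGraph (Fin n) → ℝ,
      ∑ G, (a G - av (RelG (cellsV p)) a G) ^ 2
        ≤ ∑ q ∈ (univ \ p).powersetCard 2, (blockTerm p q a - N p q a)) :
    GapHyp n := by
  intro f
  have h1 := gap_two (univ : Finset (Fin n)) (fun p => RelG (cellsV p)) (RelG cellsAll)
    (fun p _ => relG_equivalence _) (fun t _ => relG_equivalence _) (relG_equivalence _)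
    (fun p _ x y h => relG_all h)
    (fun t _ p hp x y h => relG_mono (cellsV_mono (Finset.mem_powersetCard.mp hp).1) h)
    hker (fun t ht g => three_vertex t (Finset.mem_powersetCard.mp ht).2 g)
    blockTerm N hstep1 hstep2 f
  have h2 : ∑ p ∈ (univ : Finset (Fin n)).powersetCard 2,
      ∑ G, (f G - av (RelG (cellsV p)) f G) ^ 2
      ≤ ∑ p ∈ (univ : Finset (Fin n)).powersetCard 2, ∑ q ∈ (univ \ p).powersetCard 2,
          ∑ G, (f G - av (RelG (cellsX p q)) f G) ^ 2 := by
    refine Finset.sum_le_sum (fun p hp => (hstep2 p hp f).trans ?_)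
    refine Finset.sum_le_sum (fun q _ => ?_)
    have := hN p q f
    show blockTerm p q f - N p q f ≤ blockTerm p q f
    linarith
  have h3 : (1 / 2 : ℝ) * ∑ p ∈ (univ : Finset (Fin n)).powersetCard 2,
      ∑ G, (f G - av (RelG (cellsV p)) f G) ^ 2
      ≤ (1 / 2) * ∑ p ∈ (univ : Finset (Fin n)).powersetCard 2,
          ∑ q ∈ (univ \ p).powersetCard 2,
            ∑ G, (f G - av (RelG (cellsX p q)) f G) ^ 2 :=
    mul_le_mul_of_nonneg_left h2 (by norm_num)
  exact h1.trans h3

end Vale.Agent.Lib.P335.Gr
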