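import Vale.Agent.Lib.P335.Jo.Main
import Vale.Agent.Lib.P335.John.JSFinset

/-!
# P335 / graphs, leaf KJ: STEP 2 on a Johnson set, in the form consumed by the graph side

`W : Finset β` the free columns, `k`-subsets `J` of `W`, pairs `q ⊆ W`.  Derived from the frame
bound `Jo.J2` (on the subtype `↥W`) and the sharp Johnson Poincare inequality by transport along
`↥W ↪ β` (`John.johnson_step2_finset_of_J2`).
-/

namespace Vale.Agent.Lib.P335.Gr

open Finset
open scoped Classical

/-- The `k`-subsets of `W` containing exactly one element of `q`. -/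
noncomputable def dSet {β : Type*} [DecidableEq β] (W : Finset β) (k : ℕ) (q : Finset β) :
    Finset (Finset β) :=
  (W.powersetCard k).filter (fun J => (J ∩ q).card = 1)

/-- (KJ) STEP 2 on the `k`-subsets of `W`. -/
theorem johnson_step2_on {β : Type*} [DecidableEq β] (W : Finset β) (k : ℕ) (h : Finset β → ℝ)
    (hh : ∑ J ∈ W.powersetCard k, h J = 0) :
    ∑ J ∈ W.powersetCard k, h J ^ 2 ≤ ∑ q ∈ W.powersetCard 2,
      ((1 / 4) * ∑ J ∈ dSet W k q, (h J - h (symmDiff J q)) ^ 2
        - (∑ J ∈ dSet W k q, h J) ^ 2 / ((dSet W k q).card : ℝ)) := by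
  unfold dSet
  exact Vale.Agent.Lib.P335.John.johnson_step2_finset_of_J2 W k h hh
    (fun f hf hm => Vale.Agent.Lib.P335.Jo.J2 k f hf hm)

end Vale.Agent.Lib.P335.Gr
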