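import Vale.Agent.Lib.P335.Gr.Basic
import Vale.Agent.Lib.P335.Connect

/-!
# P335 / graphs, leaf K10: the kernel condition from the connectivity of the switch graph
-/

namespace Vale.Agent.Lib.P335.Gr

open Finset
open scoped Classical
open Vale.Agent.Lib.P335.Bip

variable {n : ℕ}

/-- (K10a) a switch on `a, b, c, d` (edges `ab`, `cd` replaced by `ac`, `bd`) only changes cells
touching `{a, d}` and keeps the degrees. -/
theorem exists_rV_of_isSwitch {G H : SimpleGraph (Fin n)} (h : IsSwitch G H) :
    ∃ p ∈ (univ : Finset (Fin n)).powersetCard 2, rV p G H := by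
  have hdeg := h.degree_eq
  rw [isSwitch_iff'] at h
  obtain ⟨a, b, c, d, hs, rfl⟩ := h
  refine ⟨{a, d}, ?_, ?_, hdeg⟩
  · rw [Finset.mem_powersetCard]
    exact ⟨Finset.subset_univ _, Finset.card_pair hs.had⟩
  · intro u v huv
    have hu' : u ∉ ({a, d} : Finset (Fin n)) := fun hh => huv (Or.inl hh)
    have hv' : v ∉ ({a, d} : Finset (Fin n)) := fun hh => huv (Or.inr hh)
    have hu : u ≠ a ∧ u ≠ d := by
      rw [Finset.mem_insert, Finset.mem_singleton, not_or] at hu'
      exact hu'
    have hv : v ≠ a ∧ v ≠ d := by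
      rw [Finset.mem_insert, Finset.mem_singleton, not_or] at hv'
      exact hv'
    rw [switchGraph_adj hs.hac hs.hbd]
    constructor
    · rintro (h1 | h1 | h1)
      · exact h1.1
      · rcases Sym2.eq_iff.mp h1 with ⟨e1, e2⟩ | ⟨e1, e2⟩
        · exact absurd e1 hu.1
        · exact absurd e2 hv.1
      · rcases Sym2.eq_iff.mp h1 with ⟨e1, e2⟩ | ⟨e1, e2⟩
        · exact absurd e2 hv.2
        · exact absurd e1 hu.2
    · intro h1
      refine Or.inl ⟨h1, ?_, ?_⟩
      · intro e
        rcases Sym2.eq_iff.mp e with ⟨e1, e2⟩ | ⟨e1, e2⟩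
        · exact hu.1 e1
        · exact hv.1 e2
      · intro e
        rcases Sym2.eq_iff.mp e with ⟨e1, e2⟩ | ⟨e1, e2⟩
        · exact hv.2 e2
        · exact hu.2 e1

/-- (K10) a function fixed by every pair average is fixed by the average over all graphs with
the same degrees.  [`Connect.switch_connected`, (K10a), `Bip.av_of_invariant`.] -/
theorem ker_of_pairs (a : SimpleGraph (Fin n) → ℝ)
    (h : ∀ p ∈ (univ : Finset (Fin n)).powersetCard 2, av (rV p) a = a) : av rAll a = a := by
  have hinv : ∀ p ∈ (univ : Finset (Fin n)).powersetCard 2, ∀ G H, rV p G H → a G = a H := by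
    intro p hp G H hGH
    calc a G = av (rV p) a G := (congrFun (h p hp) G).symm
      _ = av (rV p) a H := av_congr_of_rel (relG_equivalence (cellsV p)) a hGH
      _ = a H := congrFun (h p hp) H
  have hsw : ∀ G H, IsSwitch G H → a G = a H := by
    intro G H hGH
    obtain ⟨p, hp, hr⟩ := exists_rV_of_isSwitch hGH
    exact hinv p hp G H hr
  have hchain : ∀ G H, Relation.ReflTransGen IsSwitch G H → a G = a H := by
    intro G H hGH
    induction hGH with
    | refl => rfl
    | tail _ hstep ih => exact ih.trans (hsw _ _ hstep)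
  refine av_of_invariant (relG_equivalence _) (fun G H hGH => ?_)
  have hG : G ∈ realizations (fun v => G.degree v) := mem_realizations.mpr (fun v => rfl)
  have hH : H ∈ realizations (fun v => G.degree v) := mem_realizations.mpr (fun v => hGH.2 v)
  exact hchain G H (switch_connected hG hH)

end Vale.Agent.Lib.P335.Gr
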