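import Vale.Agent.Lib.P335.Gr.Block
import Vale.Agent.Lib.P335.Gr.StepOne

/-!
# P335 / graphs, leaves K3 (`dom_link`), K4a (`rect_off_two`), K4b (`cherry_frozen`): the graph facts of STEP 1

They are the hypotheses `hF1p`/`hF1q`, `hF3`, `hF2` of `step_one_rel` (Gr/StepOne.lean) with
`ep = rV p`, `eq = rV q`, `s = rX p q`, `a = rX p Y`, `c = rX q Y`, `Dom = Dom p q`,
`Od G := blockCount p q G ≠ 2`.

`p = {a, b}`, `q = {c, d}` disjoint, `Y = (p ∪ q)ᶜ`.
-/

namespace Vale.Agent.Lib.P335.Gr

open Finset
open scoped Classical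
open Vale.Agent.Lib.P335.Bip

variable {n : ℕ}

/-! ### Degree bookkeeping -/

theorem sf_degree_eq_sum (G : SimpleGraph (Fin n)) (v : Fin n) :
    G.degree v = ∑ w, if G.Adj v w then 1 else 0 := by
  rw [← SimpleGraph.card_neighborFinset_eq_degree, SimpleGraph.neighborFinset_eq_filter,
    Finset.card_filter]

theorem sf_degree_split (S : Finset (Fin n)) (G : SimpleGraph (Fin n)) (v : Fin n) :
    G.degree v = (∑ w ∈ S, if G.Adj v w then 1 else 0) + ∑ w ∈ Sᶜ, if G.Adj v w then 1 else 0 := by
  rw [sf_degree_eq_sum, Finset.sum_add_sum_compl]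

/-- Indicator sums of two graphs with the same adjacency on the range agree. -/
theorem sf_sum_congr {S : Finset (Fin n)} {H H' : SimpleGraph (Fin n)} {v : Fin n}
    (h : ∀ w ∈ S, (H'.Adj v w ↔ H.Adj v w)) :
    (∑ w ∈ S, if H'.Adj v w then 1 else 0) = ∑ w ∈ S, if H.Adj v w then 1 else 0 := by
  refine Finset.sum_congr rfl (fun w hw => ?_)
  by_cases hadj : H.Adj v w
  · rw [if_pos hadj, if_pos ((h w hw).mpr hadj)]
  · rw [if_neg hadj, if_neg (fun hh => hadj ((h w hw).mp hh))]

/-- In a class of `rV S`, a vertex outside `S` keeps its number of neighbours in `S`. -/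
theorem sf_inDeg_eq {S : Finset (Fin n)} {G G' : SimpleGraph (Fin n)} (h : rV S G G')
    {v : Fin n} (hv : v ∉ S) :
    (∑ w ∈ S, if G'.Adj v w then 1 else 0) = ∑ w ∈ S, if G.Adj v w then 1 else 0 := by
  have hd := h.2 v
  rw [sf_degree_split S G' v, sf_degree_split S G v] at hd
  have hc : (∑ w ∈ Sᶜ, if G'.Adj v w then 1 else 0) = ∑ w ∈ Sᶜ, if G.Adj v w then 1 else 0 :=
    sf_sum_congr (fun w hw => h.1 v w (fun hc => hc.elim hv (Finset.mem_compl.mp hw)))
  omega

/-- In a class of `rV {a, b}` the cell `{a, b}` is frozen. -/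
theorem sf_adj_pair {a b : Fin n} (hab : a ≠ b) {G G' : SimpleGraph (Fin n)}
    (h : rV {a, b} G G') : G'.Adj a b ↔ G.Adj a b := by
  have key : ∀ H : SimpleGraph (Fin n), H.degree a + H.degree b
      = 2 * (if H.Adj a b then 1 else 0)
        + ∑ w ∈ ({a, b} : Finset (Fin n))ᶜ,
            ∑ u ∈ ({a, b} : Finset (Fin n)), if H.Adj w u then 1 else 0 := by
    intro H
    rw [sf_degree_split {a, b} H a, sf_degree_split {a, b} H b, Finset.sum_pair hab,
      Finset.sum_pair hab]
    have e : ∑ w ∈ ({a, b} : Finset (Fin n))ᶜ,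
          ∑ u ∈ ({a, b} : Finset (Fin n)), (if H.Adj w u then 1 else 0)
        = (∑ w ∈ ({a, b} : Finset (Fin n))ᶜ, if H.Adj a w then 1 else 0)
          + ∑ w ∈ ({a, b} : Finset (Fin n))ᶜ, if H.Adj b w then 1 else 0 := by
      rw [← Finset.sum_add_distrib]
      refine Finset.sum_congr rfl (fun w _ => ?_)
      rw [Finset.sum_pair hab]
      have e1 : (if H.Adj w a then 1 else 0) = (if H.Adj a w then 1 else 0) := by
        by_cases hh : H.Adj a w
        · rw [if_pos hh, if_pos hh.symm]
        · rw [if_neg hh, if_neg (fun h2 => hh h2.symm)]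
      have e2 : (if H.Adj w b then 1 else 0) = (if H.Adj b w then 1 else 0) := by
        by_cases hh : H.Adj b w
        · rw [if_pos hh, if_pos hh.symm]
        · rw [if_neg hh, if_neg (fun h2 => hh h2.symm)]
      rw [e1, e2]
    rw [e]
    have h1 : ¬ H.Adj a a := H.irrefl
    have h2 : ¬ H.Adj b b := H.irrefl
    rw [if_neg h1, if_neg h2]
    by_cases hadj : H.Adj a b
    · rw [if_pos hadj, if_pos hadj.symm]
      omega
    · rw [if_neg hadj, if_neg (fun hh => hadj hh.symm)]
      omega
  have k1 := key G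
  have k2 := key G'
  have hsum : (∑ w ∈ ({a, b} : Finset (Fin n))ᶜ,
        ∑ u ∈ ({a, b} : Finset (Fin n)), if G'.Adj w u then 1 else 0)
      = ∑ w ∈ ({a, b} : Finset (Fin n))ᶜ,
        ∑ u ∈ ({a, b} : Finset (Fin n)), if G.Adj w u then 1 else 0 :=
    Finset.sum_congr rfl (fun w hw => sf_inDeg_eq h (Finset.mem_compl.mp hw))
  rw [hsum, h.2 a, h.2 b] at k2
  by_cases h1 : G.Adj a b <;> by_cases h2 : G'.Adj a b
  · exact ⟨fun _ => h1, fun _ => h2⟩
  · rw [if_pos h1] at k1
    rw [if_neg h2] at k2
    omega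
  · rw [if_neg h1] at k1
    rw [if_pos h2] at k2
    omega
  · exact ⟨fun hh => absurd hh h2, fun hh => absurd hh h1⟩

/-- The number of block edges as a sum of four indicators. -/
theorem sf_blockCount_eq {a b c d : Fin n} (hab : a ≠ b) (hcd : c ≠ d)
    (G : SimpleGraph (Fin n)) :
    blockCount {a, b} {c, d} G
      = (if G.Adj a c then 1 else 0) + (if G.Adj a d then 1 else 0)
        + ((if G.Adj b c then 1 else 0) + (if G.Adj b d then 1 else 0)) := by
  unfold blockCount
  rw [Finset.card_filter, Finset.sum_product, Finset.sum_pair hab, Finset.sum_pair hcd,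
    Finset.sum_pair hcd]

/-- In a class of `rV {c, d}`, a vertex `v` outside `{c, d}` whose two cells to `c`, `d` are
equal keeps both cells. -/
theorem sf_frozen_row {c d : Fin n} (hcd : c ≠ d) {G G' : SimpleGraph (Fin n)}
    (h : rV {c, d} G G') {v : Fin n} (hv : v ∉ ({c, d} : Finset (Fin n)))
    (hrow : G.Adj v c ↔ G.Adj v d) :
    (G'.Adj v c ↔ G.Adj v c) ∧ (G'.Adj v d ↔ G.Adj v d) := by
  have hs := sf_inDeg_eq h hv
  rw [Finset.sum_pair hcd, Finset.sum_pair hcd] at hs
  by_cases h1 : G.Adj v c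
  · have h2 : G.Adj v d := hrow.mp h1
    rw [if_pos h1, if_pos h2] at hs
    by_cases h3 : G'.Adj v c <;> by_cases h4 : G'.Adj v d
    · exact ⟨⟨fun _ => h1, fun _ => h3⟩, ⟨fun _ => h2, fun _ => h4⟩⟩
    · rw [if_pos h3, if_neg h4] at hs
      omega
    · rw [if_neg h3, if_pos h4] at hs
      omega
    · rw [if_neg h3, if_neg h4] at hs
      omega
  · have h2 : ¬ G.Adj v d := fun hh => h1 (hrow.mpr hh)
    rw [if_neg h1, if_neg h2] at hs
    by_cases h3 : G'.Adj v c <;> by_cases h4 : G'.Adj v d
    · rw [if_pos h3, if_pos h4] at hs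
      omega
    · rw [if_pos h3, if_neg h4] at hs
      omega
    · rw [if_neg h3, if_pos h4] at hs
      omega
    · exact ⟨⟨fun hh => absurd hh h3, fun hh => absurd hh h1⟩,
        ⟨fun hh => absurd hh h4, fun hh => absurd hh h2⟩⟩

/-- A graph that agrees with `G₂` on the block, inside `p` and away from `p`, and has the same
degrees, is related to `G₂` by a move between `p` and `Y`. -/
theorem sf_rX_arm (p q : Finset (Fin n)) {G₂ G' : SimpleGraph (Fin n)}
    (hblock : ∀ u ∈ p, ∀ v ∈ q, (G'.Adj u v ↔ G₂.Adj u v))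
    (hin : ∀ u ∈ p, ∀ v ∈ p, (G'.Adj u v ↔ G₂.Adj u v))
    (hout : ∀ u v, u ∉ p → v ∉ p → (G'.Adj u v ↔ G₂.Adj u v))
    (hdeg : ∀ v, G'.degree v = G₂.degree v) : rX p (p ∪ q)ᶜ G₂ G' := by
  refine ⟨fun u v huv => ?_, hdeg⟩
  by_cases hu : u ∈ p
  · by_cases hv : v ∈ p
    · exact hin u hu v hv
    · by_cases hvq : v ∈ q
      · exact hblock u hu v hvq
      · exfalso
        apply huv
        left
        refine ⟨hu, ?_⟩
        rw [Finset.mem_compl, Finset.mem_union]
        exact fun h => h.elim hv hvq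
  · by_cases hv : v ∈ p
    · by_cases huq : u ∈ q
      · rw [SimpleGraph.adj_comm G' u v, SimpleGraph.adj_comm G₂ u v]
        exact hblock v hv u huq
      · exfalso
        apply huv
        right
        refine ⟨?_, hv⟩
        rw [Finset.mem_compl, Finset.mem_union]
        exact fun h => h.elim hu huq
    · exact hout u v hu hv

/-! ### K3 -/

/-- (K3) Two graphs of the same `p`-fibre on which the block `p × q` is a perfect matching are
joined by a move that only changes cells between `p` and `Y`, followed by (at most) one block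
flip.  [If the two blocks agree take `G₂ = G'`; otherwise `G₂ = flipB p q G'`.  Needs: in an
`rV p`-class the cell `{a, b}` is frozen (degree count: the sum of the degrees of `a` and `b`).] -/
theorem dom_link (p q : Finset (Fin n)) (hp : p.card = 2) (hq : q.card = 2) (hpq : Disjoint p q)
    (G G' : SimpleGraph (Fin n)) (hD : Dom p q G) (hD' : Dom p q G') (hm : rV p G G') :
    ∃ G₂, rX p (p ∪ q)ᶜ G G₂ ∧ rX p q G₂ G' := by
  have hr : rV p G G' := hm
  have hflip := rX_flipB p q hp hq hpq hD'
  obtain ⟨a, b, hab, rfl⟩ := Finset.card_eq_two.mp hp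
  obtain ⟨c, d, hcd, rfl⟩ := Finset.card_eq_two.mp hq
  have hd := Finset.disjoint_left.mp hpq
  have hac : a ≠ c := by
    rintro rfl
    exact hd (Finset.mem_insert_self a {b}) (Finset.mem_insert_self a {d})
  have had : a ≠ d := by
    rintro rfl
    exact hd (Finset.mem_insert_self a {b})
      (Finset.mem_insert_of_mem (Finset.mem_singleton_self a))
  have hbc : b ≠ c := by
    rintro rfl
    exact hd (Finset.mem_insert_of_mem (Finset.mem_singleton_self b))
      (Finset.mem_insert_self b {d})
  have hbd : b ≠ d := by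
    rintro rfl
    exact hd (Finset.mem_insert_of_mem (Finset.mem_singleton_self b))
      (Finset.mem_insert_of_mem (Finset.mem_singleton_self b))
  rw [dom_iff_adj hab hcd hac had hbc hbd] at hD hD'
  have hab' : G'.Adj a b ↔ G.Adj a b := sf_adj_pair hab hr
  have hin : ∀ u ∈ ({a, b} : Finset (Fin n)), ∀ v ∈ ({a, b} : Finset (Fin n)),
      (G'.Adj u v ↔ G.Adj u v) := by
    intro u hu v hv
    rw [Finset.mem_insert, Finset.mem_singleton] at hu hv
    rcases hu with rfl | rfl <;> rcases hv with rfl | rfl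
    · exact ⟨fun h => absurd h G'.irrefl, fun h => absurd h G.irrefl⟩
    · exact hab'
    · rw [SimpleGraph.adj_comm G' u v, SimpleGraph.adj_comm G u v]
      exact hab'
    · exact ⟨fun h => absurd h G'.irrefl, fun h => absurd h G.irrefl⟩
  have hout : ∀ u v, u ∉ ({a, b} : Finset (Fin n)) → v ∉ ({a, b} : Finset (Fin n)) →
      (G'.Adj u v ↔ G.Adj u v) :=
    fun u v hu hv => hr.1 u v (fun hc => hc.elim hu hv)
  -- the two blocks agree, or one is the flip of the other
  have hsame_or : (∀ u ∈ ({a, b} : Finset (Fin n)), ∀ v ∈ ({c, d} : Finset (Fin n)),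
        (G'.Adj u v ↔ G.Adj u v))
      ∨ (∀ u ∈ ({a, b} : Finset (Fin n)), ∀ v ∈ ({c, d} : Finset (Fin n)),
        (G'.Adj u v ↔ ¬ G.Adj u v)) := by
    rcases hD with ⟨g1, g2, g3, g4⟩ | ⟨g1, g2, g3, g4⟩ <;>
      rcases hD' with ⟨k1, k2, k3, k4⟩ | ⟨k1, k2, k3, k4⟩
    · left
      intro u hu v hv
      rw [Finset.mem_insert, Finset.mem_singleton] at hu hv
      rcases hu with rfl | rfl <;> rcases hv with rfl | rfl
      · exact ⟨fun _ => g1, fun _ => k1⟩
      · exact ⟨fun h => absurd h k3, fun h => absurd h g3⟩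
      · exact ⟨fun h => absurd h k4, fun h => absurd h g4⟩
      · exact ⟨fun _ => g2, fun _ => k2⟩
    · right
      intro u hu v hv
      rw [Finset.mem_insert, Finset.mem_singleton] at hu hv
      rcases hu with rfl | rfl <;> rcases hv with rfl | rfl
      · exact ⟨fun h => absurd h k3, fun h => absurd g1 h⟩
      · exact ⟨fun _ => g3, fun _ => k1⟩
      · exact ⟨fun _ => g4, fun _ => k2⟩
      · exact ⟨fun h => absurd h k4, fun h => absurd g2 h⟩
    · right
      intro u hu v hv
      rw [Finset.mem_insert, Finset.mem_singleton] at hu hv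
      rcases hu with rfl | rfl <;> rcases hv with rfl | rfl
      · exact ⟨fun _ => g3, fun _ => k1⟩
      · exact ⟨fun h => absurd h k3, fun h => absurd g1 h⟩
      · exact ⟨fun h => absurd h k4, fun h => absurd g2 h⟩
      · exact ⟨fun _ => g4, fun _ => k2⟩
    · left
      intro u hu v hv
      rw [Finset.mem_insert, Finset.mem_singleton] at hu hv
      rcases hu with rfl | rfl <;> rcases hv with rfl | rfl
      · exact ⟨fun h => absurd h k3, fun h => absurd h g3⟩
      · exact ⟨fun _ => g1, fun _ => k1⟩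
      · exact ⟨fun _ => g2, fun _ => k2⟩
      · exact ⟨fun h => absurd h k4, fun h => absurd h g4⟩
  rcases hsame_or with hsame | hdiff
  · exact ⟨G', sf_rX_arm {a, b} {c, d} hsame hin hout hr.2, ⟨fun _ _ _ => Iff.rfl, fun _ => rfl⟩⟩
  · refine ⟨flipB {a, b} {c, d} G', ?_, (relG_equivalence _).symm hflip⟩
    apply sf_rX_arm {a, b} {c, d}
    · intro u hu v hv
      have hcx : cellsX {a, b} {c, d} u v := Or.inl ⟨hu, hv⟩
      rw [flipB_adj, if_pos hcx]
      have hne : u ≠ v := fun h => hd hu (h ▸ hv)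
      constructor
      · rintro ⟨_, h⟩
        by_contra hG
        exact h ((hdiff u hu v hv).mpr hG)
      · intro h
        exact ⟨hne, fun h2 => (hdiff u hu v hv).mp h2 h⟩
    · intro u hu v hv
      have hnc : ¬ cellsX {a, b} {c, d} u v := by
        rintro (⟨_, h2⟩ | ⟨h1, _⟩)
        · exact hd hv h2
        · exact hd hu h1
      rw [flipB_adj, if_neg hnc]
      exact ⟨fun h => (hin u hu v hv).mp h.2, fun h => ⟨G.ne_of_adj h, (hin u hu v hv).mpr h⟩⟩
    · intro u v hu hv
      have hnc : ¬ cellsX {a, b} {c, d} u v := by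
        rintro (⟨h1, _⟩ | ⟨_, h2⟩)
        · exact hu h1
        · exact hv h2
      rw [flipB_adj, if_neg hnc]
      exact ⟨fun h => (hout u v hu hv).mp h.2,
        fun h => ⟨G.ne_of_adj h, (hout u v hu hv).mpr h⟩⟩
    · intro v
      rw [hflip.2 v, hr.2 v]

/-! ### K4a: the corner graph -/

/-- The corner of the rectangle spanned by `G'` (in the `p`-fibre of `G`) and `G''` (in the
`q`-fibre of `G`). -/
def cornerW (p q : Finset (Fin n)) (G G' G'' : SimpleGraph (Fin n)) : SimpleGraph (Fin n) :=
  SimpleGraph.fromRel (fun x y =>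
    (x ∈ p ∧ y ∈ q ∧ (if blockCount p q G ≤ 1 then 2 else 3)
        ≤ (∑ w ∈ q, if G'.Adj x w then 1 else 0) + ∑ u ∈ p, if G''.Adj u y then 1 else 0)
    ∨ (x ∉ q ∧ y ∉ q ∧ G'.Adj x y)
    ∨ (x ∉ p ∧ y ∉ p ∧ G''.Adj x y))

theorem cornerW_block {p q : Finset (Fin n)} (hpq : Disjoint p q) (G G' G'' : SimpleGraph (Fin n))
    {x y : Fin n} (hx : x ∈ p) (hy : y ∈ q) :
    (cornerW p q G G' G'').Adj x y ↔ (if blockCount p q G ≤ 1 then 2 else 3)
        ≤ (∑ w ∈ q, if G'.Adj x w then 1 else 0) + ∑ u ∈ p, if G''.Adj u y then 1 else 0 := by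
  have hd := Finset.disjoint_left.mp hpq
  have hxq : x ∉ q := hd hx
  have hyp : y ∉ p := fun h => hd h hy
  have hne : x ≠ y := fun h => hxq (h ▸ hy)
  unfold cornerW
  rw [SimpleGraph.fromRel_adj]
  constructor
  · rintro ⟨-, (h | h | h) | (h | h | h)⟩
    · exact h.2.2
    · exact absurd hy h.2.1
    · exact absurd hx h.1
    · exact absurd h.1 hyp
    · exact absurd hy h.1
    · exact absurd hx h.2.1
  · intro h
    exact ⟨hne, Or.inl (Or.inl ⟨hx, hy, h⟩)⟩

theorem cornerW_off_q {p q : Finset (Fin n)} {G G' G'' : SimpleGraph (Fin n)}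
    (h' : rV p G G') (h'' : rV q G G'') {x y : Fin n} (hx : x ∉ q) (hy : y ∉ q) :
    (cornerW p q G G' G'').Adj x y ↔ G'.Adj x y := by
  have key : ∀ u v, u ∉ q → v ∉ q → u ∉ p → v ∉ p → G''.Adj u v → G'.Adj u v := by
    intro u v huq hvq hup hvp hadj
    have h1 : G.Adj u v := (h''.1 u v (fun hc => hc.elim huq hvq)).mp hadj
    exact (h'.1 u v (fun hc => hc.elim hup hvp)).mpr h1
  unfold cornerW
  rw [SimpleGraph.fromRel_adj]
  constructor
  · rintro ⟨-, (h | h | h) | (h | h | h)⟩
    · exact absurd h.2.1 hy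
    · exact h.2.2
    · exact key x y hx hy h.1 h.2.1 h.2.2
    · exact absurd h.2.1 hx
    · exact h.2.2.symm
    · exact (key y x hy hx h.1 h.2.1 h.2.2).symm
  · intro h
    exact ⟨G'.ne_of_adj h, Or.inl (Or.inr (Or.inl ⟨hx, hy, h⟩))⟩

theorem cornerW_off_p {p q : Finset (Fin n)} {G G' G'' : SimpleGraph (Fin n)}
    (h' : rV p G G') (h'' : rV q G G'') {x y : Fin n} (hx : x ∉ p) (hy : y ∉ p) :
    (cornerW p q G G' G'').Adj x y ↔ G''.Adj x y := by
  have key : ∀ u v, u ∉ q → v ∉ q → u ∉ p → v ∉ p → G'.Adj u v → G''.Adj u v := by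
    intro u v huq hvq hup hvp hadj
    have h1 : G.Adj u v := (h'.1 u v (fun hc => hc.elim hup hvp)).mp hadj
    exact (h''.1 u v (fun hc => hc.elim huq hvq)).mpr h1
  unfold cornerW
  rw [SimpleGraph.fromRel_adj]
  constructor
  · rintro ⟨-, (h | h | h) | (h | h | h)⟩
    · exact absurd h.1 hx
    · exact key x y h.1 h.2.1 hx hy h.2.2
    · exact h.2.2
    · exact absurd h.1 hy
    · exact (key y x h.1 h.2.1 hy hx h.2.2).symm
    · exact h.2.2.symm
  · intro h
    exact ⟨G''.ne_of_adj h, Or.inl (Or.inr (Or.inr ⟨hx, hy, h⟩))⟩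

/-- Row sums of the threshold block. -/
theorem sf_thr_row (r c1 c2 e : ℕ) (h1 : c1 + c2 = e) (hc1 : c1 ≤ 2) (hc2 : c2 ≤ 2)
    (hr : r ≤ 2) (hre : r ≤ e) (her : e ≤ r + 2) (he : e ≠ 2) :
    (if (if e ≤ 1 then 2 else 3) ≤ r + c1 then 1 else 0)
      + (if (if e ≤ 1 then 2 else 3) ≤ r + c2 then 1 else 0) = r := by
  split_ifs <;> omega

/-- A 0/1 block with total different from two is determined by its margins. -/
theorem sf_block_iff (x1 x2 x3 x4 : Prop) (e : ℕ) (he : e ≠ 2)
    (hsum : e = (if x1 then 1 else 0) + (if x2 then 1 else 0)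
      + ((if x3 then 1 else 0) + (if x4 then 1 else 0))) :
    (x1 ↔ (if e ≤ 1 then 2 else 3)
      ≤ ((if x1 then 1 else 0) + (if x2 then 1 else 0))
        + ((if x1 then 1 else 0) + (if x3 then 1 else 0)))
    ∧ (x2 ↔ (if e ≤ 1 then 2 else 3)
      ≤ ((if x1 then 1 else 0) + (if x2 then 1 else 0))
        + ((if x2 then 1 else 0) + (if x4 then 1 else 0)))
    ∧ (x3 ↔ (if e ≤ 1 then 2 else 3)
      ≤ ((if x3 then 1 else 0) + (if x4 then 1 else 0))
        + ((if x1 then 1 else 0) + (if x3 then 1 else 0)))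
    ∧ (x4 ↔ (if e ≤ 1 then 2 else 3)
      ≤ ((if x3 then 1 else 0) + (if x4 then 1 else 0))
        + ((if x2 then 1 else 0) + (if x4 then 1 else 0))) := by
  by_cases h1 : x1 <;> by_cases h2 : x2 <;> by_cases h3 : x3 <;> by_cases h4 : x4 <;>
    simp only [h1, h2, h3, h4, if_true, if_false] at hsum ⊢ <;>
    (subst hsum; simp at he ⊢)

theorem sf_ind_le_one (P : Prop) : (if P then 1 else 0) ≤ 1 := by
  split_ifs <;> omega

theorem sf_ind_comm (H : SimpleGraph (Fin n)) (u v : Fin n) :
    (if H.Adj u v then 1 else 0) = (if H.Adj v u then 1 else 0) := by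
  by_cases hh : H.Adj u v
  · rw [if_pos hh, if_pos hh.symm]
  · rw [if_neg hh, if_neg (fun h2 => hh h2.symm)]

/-- (K4a) On the graphs whose block `p × q` does not have exactly two edges, `rV p` and `rV q`
satisfy the rectangle property.  [`W` := `G'` on the cells touching `p` but not `q`, `G''` on the
cells touching `q` but not `p`, `G` elsewhere outside the block; the block of `W` is the unique
0/1 matrix with the row sums of the block of `G'` and the column sums of the block of `G''`:
with `e = blockCount p q G`, cell (`u`, `v`) is an edge iff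
`rowsum'(u) + colsum''(v) ≥ (if e ≤ 1 then 2 else 3)`.] -/
theorem rect_off_two (p q : Finset (Fin n)) (hp : p.card = 2) (hq : q.card = 2)
    (hpq : Disjoint p q) (G G' G'' : SimpleGraph (Fin n)) (he : blockCount p q G ≠ 2)
    (h' : rV p G G') (h'' : rV q G G'') : ∃! W, rV q G' W ∧ rV p G'' W := by
  have hb' : blockCount p q G' = blockCount p q G := blockCount_rV p q hpq (Or.inl h')
  have hb'' : blockCount p q G'' = blockCount p q G := blockCount_rV p q hpq (Or.inr h'')
  have hdis := Finset.disjoint_left.mp hpq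
  obtain ⟨a, b, hab, hpe⟩ := Finset.card_eq_two.mp hp
  obtain ⟨c, d, hcd, hqe⟩ := Finset.card_eq_two.mp hq
  have hap : a ∈ p := by rw [hpe]; exact Finset.mem_insert_self a {b}
  have hbp : b ∈ p := by rw [hpe]; exact Finset.mem_insert_of_mem (Finset.mem_singleton_self b)
  have hcq : c ∈ q := by rw [hqe]; exact Finset.mem_insert_self c {d}
  have hdq : d ∈ q := by rw [hqe]; exact Finset.mem_insert_of_mem (Finset.mem_singleton_self d)
  have hmp : ∀ x, x ∈ p → x = a ∨ x = b := by
    intro x hx
    rw [hpe, Finset.mem_insert, Finset.mem_singleton] at hx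
    exact hx
  have hmq : ∀ x, x ∈ q → x = c ∨ x = d := by
    intro x hx
    rw [hqe, Finset.mem_insert, Finset.mem_singleton] at hx
    exact hx
  -- sums over `p` and `q`
  have sp : ∀ F : Fin n → ℕ, ∑ u ∈ p, F u = F a + F b := by
    intro F
    rw [hpe, Finset.sum_pair hab]
  have sq : ∀ F : Fin n → ℕ, ∑ w ∈ q, F w = F c + F d := by
    intro F
    rw [hqe, Finset.sum_pair hcd]
  have bc : ∀ H : SimpleGraph (Fin n), blockCount p q H
      = (if H.Adj a c then 1 else 0) + (if H.Adj a d then 1 else 0)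
        + ((if H.Adj b c then 1 else 0) + (if H.Adj b d then 1 else 0)) := by
    intro H
    rw [hpe, hqe]
    exact sf_blockCount_eq hab hcd H
  -- the threshold block has the row sums of `G'` and the column sums of `G''`
  have hrow : ∀ x ∈ p, (∑ w ∈ q, if (cornerW p q G G' G'').Adj x w then 1 else 0)
      = ∑ w ∈ q, if G'.Adj x w then 1 else 0 := by
    intro x hx
    have e1 : (∑ w ∈ q, if (cornerW p q G G' G'').Adj x w then 1 else 0)
        = ∑ w ∈ q, if (if blockCount p q G ≤ 1 then 2 else 3)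
            ≤ (∑ w' ∈ q, if G'.Adj x w' then 1 else 0) + ∑ u ∈ p, if G''.Adj u w then 1 else 0
          then 1 else 0 := by
      refine Finset.sum_congr rfl (fun w hw => ?_)
      by_cases hh : (cornerW p q G G' G'').Adj x w
      · rw [if_pos hh, if_pos ((cornerW_block hpq G G' G'' hx hw).mp hh)]
      · rw [if_neg hh, if_neg (fun h2 => hh ((cornerW_block hpq G G' G'' hx hw).mpr h2))]
    rw [e1, sq]
    have hbG' := bc G'
    have hbG'' := bc G''
    rw [hb'] at hbG'
    rw [hb''] at hbG''
    have i1 := sf_ind_le_one (G'.Adj a c)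
    have i2 := sf_ind_le_one (G'.Adj a d)
    have i3 := sf_ind_le_one (G'.Adj b c)
    have i4 := sf_ind_le_one (G'.Adj b d)
    have j1 := sf_ind_le_one (G''.Adj a c)
    have j2 := sf_ind_le_one (G''.Adj a d)
    have j3 := sf_ind_le_one (G''.Adj b c)
    have j4 := sf_ind_le_one (G''.Adj b d)
    rw [sq (fun w' => if G'.Adj x w' then 1 else 0), sp (fun u => if G''.Adj u c then 1 else 0),
      sp (fun u => if G''.Adj u d then 1 else 0)]
    rcases hmp x hx with rfl | rfl
    · apply sf_thr_row _ _ _ _ (by omega) (by omega) (by omega) (by omega) (by omega) (by omega) he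
    · apply sf_thr_row _ _ _ _ (by omega) (by omega) (by omega) (by omega) (by omega) (by omega) he
  have hcol : ∀ y ∈ q, (∑ u ∈ p, if (cornerW p q G G' G'').Adj u y then 1 else 0)
      = ∑ u ∈ p, if G''.Adj u y then 1 else 0 := by
    intro y hy
    have e1 : (∑ u ∈ p, if (cornerW p q G G' G'').Adj u y then 1 else 0)
        = ∑ u ∈ p, if (if blockCount p q G ≤ 1 then 2 else 3)
            ≤ (∑ w' ∈ q, if G'.Adj u w' then 1 else 0) + ∑ u' ∈ p, if G''.Adj u' y then 1 else 0
          then 1 else 0 := by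
      refine Finset.sum_congr rfl (fun u hu => ?_)
      by_cases hh : (cornerW p q G G' G'').Adj u y
      · rw [if_pos hh, if_pos ((cornerW_block hpq G G' G'' hu hy).mp hh)]
      · rw [if_neg hh, if_neg (fun h2 => hh ((cornerW_block hpq G G' G'' hu hy).mpr h2))]
    rw [e1, sp]
    have hbG' := bc G'
    have hbG'' := bc G''
    rw [hb'] at hbG'
    rw [hb''] at hbG''
    have i1 := sf_ind_le_one (G'.Adj a c)
    have i2 := sf_ind_le_one (G'.Adj a d)
    have i3 := sf_ind_le_one (G'.Adj b c)
    have i4 := sf_ind_le_one (G'.Adj b d)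
    have j1 := sf_ind_le_one (G''.Adj a c)
    have j2 := sf_ind_le_one (G''.Adj a d)
    have j3 := sf_ind_le_one (G''.Adj b c)
    have j4 := sf_ind_le_one (G''.Adj b d)
    rw [sq (fun w' => if G'.Adj a w' then 1 else 0), sq (fun w' => if G'.Adj b w' then 1 else 0),
      sp (fun u' => if G''.Adj u' y then 1 else 0)]
    have comm1 : ∀ r s t : ℕ, (if t ≤ r + s then 1 else 0) = (if t ≤ s + r then 1 else 0) := by
      intro r s t
      rw [Nat.add_comm]
    rw [comm1 ((if G'.Adj a c then 1 else 0) + (if G'.Adj a d then 1 else 0)),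
      comm1 ((if G'.Adj b c then 1 else 0) + (if G'.Adj b d then 1 else 0))]
    rcases hmq y hy with rfl | rfl
    · apply sf_thr_row _ _ _ _ (by omega) (by omega) (by omega) (by omega) (by omega) (by omega) he
    · apply sf_thr_row _ _ _ _ (by omega) (by omega) (by omega) (by omega) (by omega) (by omega) he
  -- the degrees of the corner
  have hdegW : ∀ v, (cornerW p q G G' G'').degree v = G'.degree v := by
    intro v
    by_cases hvp : v ∈ p
    · have hvq : v ∉ q := hdis hvp
      rw [sf_degree_split q (cornerW p q G G' G'') v, sf_degree_split q G' v, hrow v hvp]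
      congr 1
      exact sf_sum_congr (fun w hw =>
        cornerW_off_q h' h'' hvq (Finset.mem_compl.mp hw))
    · by_cases hvq : v ∈ q
      · have e1 : (cornerW p q G G' G'').degree v = G''.degree v := by
          rw [sf_degree_split p (cornerW p q G G' G'') v, sf_degree_split p G'' v]
          congr 1
          · have e2 : (∑ w ∈ p, if (cornerW p q G G' G'').Adj v w then 1 else 0)
                = ∑ w ∈ p, if (cornerW p q G G' G'').Adj w v then 1 else 0 :=
              Finset.sum_congr rfl (fun w _ => sf_ind_comm _ v w)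
            have e3 : (∑ w ∈ p, if G''.Adj v w then 1 else 0)
                = ∑ w ∈ p, if G''.Adj w v then 1 else 0 :=
              Finset.sum_congr rfl (fun w _ => sf_ind_comm _ v w)
            rw [e2, e3, hcol v hvq]
          · exact sf_sum_congr (fun w hw =>
              cornerW_off_p h' h'' hvp (Finset.mem_compl.mp hw))
        rw [e1, h''.2 v, h'.2 v]
      · rw [sf_degree_split q (cornerW p q G G' G'') v, sf_degree_split q G' v]
        congr 1
        · have e1 : (∑ w ∈ q, if (cornerW p q G G' G'').Adj v w then 1 else 0)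
              = ∑ w ∈ q, if G''.Adj v w then 1 else 0 :=
            sf_sum_congr (fun w hw => cornerW_off_p h' h'' hvp (fun hwp => hdis hwp hw))
          have e2 : (∑ w ∈ q, if G'.Adj v w then 1 else 0)
              = ∑ w ∈ q, if G.Adj v w then 1 else 0 :=
            sf_sum_congr (fun w hw => h'.1 v w (fun hc => hc.elim hvp (fun hwp => hdis hwp hw)))
          rw [e1, e2, sf_inDeg_eq h'' hvq]
        · exact sf_sum_congr (fun w hw =>
            cornerW_off_q h' h'' hvq (Finset.mem_compl.mp hw))
  have hW1 : rV q G' (cornerW p q G G' G'') :=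
    ⟨fun u v huv => cornerW_off_q h' h'' (fun h => huv (Or.inl h)) (fun h => huv (Or.inr h)),
      hdegW⟩
  have hW2 : rV p G'' (cornerW p q G G' G'') :=
    ⟨fun u v huv => cornerW_off_p h' h'' (fun h => huv (Or.inl h)) (fun h => huv (Or.inr h)),
      fun v => by rw [hdegW v, h'.2 v, h''.2 v]⟩
  refine ⟨cornerW p q G G' G'', ⟨hW1, hW2⟩, ?_⟩
  -- uniqueness
  rintro W₂ ⟨k1, k2⟩
  have hblockW : ∀ x ∈ p, ∀ y ∈ q, (W₂.Adj x y ↔ (cornerW p q G G' G'').Adj x y) := by
    intro x hx y hy
    have hxq : x ∉ q := hdis hx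
    have hyp : y ∉ p := fun h => hdis h hy
    rw [cornerW_block hpq G G' G'' hx hy]
    -- margins of the block of `W₂`
    have hR : ∀ u ∈ p, (∑ w ∈ q, if W₂.Adj u w then 1 else 0)
        = ∑ w ∈ q, if G'.Adj u w then 1 else 0 :=
      fun u hu => sf_inDeg_eq k1 (hdis hu)
    have hC : ∀ v ∈ q, (∑ u ∈ p, if W₂.Adj u v then 1 else 0)
        = ∑ u ∈ p, if G''.Adj u v then 1 else 0 := by
      intro v hv
      have hvp : v ∉ p := fun h => hdis h hv
      have e := sf_inDeg_eq k2 hvp
      have e2 : (∑ u ∈ p, if W₂.Adj u v then 1 else 0) = ∑ u ∈ p, if W₂.Adj v u then 1 else 0 :=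
        Finset.sum_congr rfl (fun u _ => sf_ind_comm _ u v)
      have e3 : (∑ u ∈ p, if G''.Adj u v then 1 else 0)
          = ∑ u ∈ p, if G''.Adj v u then 1 else 0 :=
        Finset.sum_congr rfl (fun u _ => sf_ind_comm _ u v)
      rw [e2, e3, e]
    rw [← hR x hx, ← hC y hy]
    have hbW : blockCount p q W₂ = blockCount p q G := by
      rw [blockCount_rV p q hpq (Or.inr k1), hb']
    have hbW' := bc W₂
    rw [hbW] at hbW'
    rw [sq (fun w => if W₂.Adj x w then 1 else 0), sp (fun u => if W₂.Adj u y then 1 else 0)]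
    have key := sf_block_iff (W₂.Adj a c) (W₂.Adj a d) (W₂.Adj b c) (W₂.Adj b d) _ he hbW'
    rcases hmp x hx with rfl | rfl <;> rcases hmq y hy with rfl | rfl
    · exact key.1
    · exact key.2.1
    · exact key.2.2.1
    · exact key.2.2.2
  ext x y
  by_cases hxq : x ∈ q
  · by_cases hyp : y ∈ p
    · rw [SimpleGraph.adj_comm W₂ x y, SimpleGraph.adj_comm (cornerW p q G G' G'') x y]
      exact hblockW y hyp x hxq
    · have hxp : x ∉ p := fun h => hdis h hxq
      rw [cornerW_off_p h' h'' hxp hyp]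
      exact k2.1 x y (fun hc => hc.elim hxp hyp)
  · by_cases hyq : y ∈ q
    · by_cases hxp : x ∈ p
      · exact hblockW x hxp y hyq
      · have hyp : y ∉ p := fun h => hdis h hyq
        rw [cornerW_off_p h' h'' hxp hyp]
        exact k2.1 x y (fun hc => hc.elim hxp hyp)
    · rw [cornerW_off_q h' h'' hxq hyq]
      exact k1.1 x y (fun hc => hc.elim hxq hyq)

/-! ### K4b -/

/-- (K4b) If the block has exactly two edges and is not a perfect matching (a cherry), then the
`q`-fibre of `G` only moves cells between `q` and `Y`, or the `p`-fibre of `G` only moves cells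
between `p` and `Y`.  [Cherry at `a ∈ p` (edges `ac`, `ad`): `a` is adjacent to both of `c`, `d`
and `b` to none, so the cells `q × p` are frozen in the `q`-fibre.] -/
theorem cherry_frozen (p q : Finset (Fin n)) (hp : p.card = 2) (hq : q.card = 2)
    (hpq : Disjoint p q) (G : SimpleGraph (Fin n)) (he : blockCount p q G = 2)
    (hD : ¬ Dom p q G) :
    (∀ G', rV p G G' → rX p (p ∪ q)ᶜ G G') ∨ (∀ G', rV q G G' → rX q (p ∪ q)ᶜ G G') := by
  obtain ⟨a, b, hab, rfl⟩ := Finset.card_eq_two.mp hp
  obtain ⟨c, d, hcd, rfl⟩ := Finset.card_eq_two.mp hq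
  have hd := Finset.disjoint_left.mp hpq
  have hac : a ≠ c := by
    rintro rfl
    exact hd (Finset.mem_insert_self a {b}) (Finset.mem_insert_self a {d})
  have had : a ≠ d := by
    rintro rfl
    exact hd (Finset.mem_insert_self a {b})
      (Finset.mem_insert_of_mem (Finset.mem_singleton_self a))
  have hbc : b ≠ c := by
    rintro rfl
    exact hd (Finset.mem_insert_of_mem (Finset.mem_singleton_self b))
      (Finset.mem_insert_self b {d})
  have hbd : b ≠ d := by
    rintro rfl
    exact hd (Finset.mem_insert_of_mem (Finset.mem_singleton_self b))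
      (Finset.mem_insert_of_mem (Finset.mem_singleton_self b))
  rw [dom_iff_adj hab hcd hac had hbc hbd] at hD
  rw [sf_blockCount_eq hab hcd] at he
  -- rows constant, or columns constant
  have hcases : ((G.Adj a c ↔ G.Adj a d) ∧ (G.Adj b c ↔ G.Adj b d))
      ∨ ((G.Adj a c ↔ G.Adj b c) ∧ (G.Adj a d ↔ G.Adj b d)) := by
    by_cases h1 : G.Adj a c <;> by_cases h2 : G.Adj a d <;> by_cases h3 : G.Adj b c <;>
      by_cases h4 : G.Adj b d <;>
      simp only [h1, h2, h3, h4, if_true, if_false, not_true, not_false_eq_true, and_true,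
        and_false, or_false, false_or, iff_true, iff_false, or_self] at he hD ⊢ <;>
      omega
  rcases hcases with ⟨hra, hrb⟩ | ⟨hcc, hcd'⟩
  · -- rows constant: the block is frozen in the `q`-fibre
    right
    intro G' hr
    have hanq : a ∉ ({c, d} : Finset (Fin n)) := hd (Finset.mem_insert_self a {b})
    have hbnq : b ∉ ({c, d} : Finset (Fin n)) :=
      hd (Finset.mem_insert_of_mem (Finset.mem_singleton_self b))
    have fa := sf_frozen_row hcd hr hanq hra
    have fb := sf_frozen_row hcd hr hbnq hrb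
    have hcd2 : G'.Adj c d ↔ G.Adj c d := sf_adj_pair hcd hr
    have hres : rX {c, d} ({c, d} ∪ {a, b})ᶜ G G' := by
      apply sf_rX_arm {c, d} {a, b}
      · intro u hu v hv
        rw [Finset.mem_insert, Finset.mem_singleton] at hu hv
        rw [SimpleGraph.adj_comm G' u v, SimpleGraph.adj_comm G u v]
        rcases hu with rfl | rfl <;> rcases hv with rfl | rfl
        · exact fa.1
        · exact fb.1
        · exact fa.2
        · exact fb.2
      · intro u hu v hv
        rw [Finset.mem_insert, Finset.mem_singleton] at hu hv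
        rcases hu with rfl | rfl <;> rcases hv with rfl | rfl
        · exact ⟨fun h => absurd h G'.irrefl, fun h => absurd h G.irrefl⟩
        · exact hcd2
        · rw [SimpleGraph.adj_comm G' u v, SimpleGraph.adj_comm G u v]
          exact hcd2
        · exact ⟨fun h => absurd h G'.irrefl, fun h => absurd h G.irrefl⟩
      · exact fun u v hu hv => hr.1 u v (fun hc => hc.elim hu hv)
      · exact hr.2
    rw [Finset.union_comm] at hres
    exact hres
  · -- columns constant: the block is frozen in the `p`-fibre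
    left
    intro G' hr
    have hcnp : c ∉ ({a, b} : Finset (Fin n)) := fun h => hd h (Finset.mem_insert_self c {d})
    have hdnp : d ∉ ({a, b} : Finset (Fin n)) :=
      fun h => hd h (Finset.mem_insert_of_mem (Finset.mem_singleton_self d))
    have hcc2 : G.Adj c a ↔ G.Adj c b := by
      rw [SimpleGraph.adj_comm G c a, SimpleGraph.adj_comm G c b]
      exact hcc
    have hcd2 : G.Adj d a ↔ G.Adj d b := by
      rw [SimpleGraph.adj_comm G d a, SimpleGraph.adj_comm G d b]
      exact hcd'
    have fc := sf_frozen_row hab hr hcnp hcc2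
    have fd := sf_frozen_row hab hr hdnp hcd2
    have hab2 : G'.Adj a b ↔ G.Adj a b := sf_adj_pair hab hr
    apply sf_rX_arm {a, b} {c, d}
    · intro u hu v hv
      rw [Finset.mem_insert, Finset.mem_singleton] at hu hv
      rw [SimpleGraph.adj_comm G' u v, SimpleGraph.adj_comm G u v]
      rcases hu with rfl | rfl <;> rcases hv with rfl | rfl
      · exact fc.1
      · exact fd.1
      · exact fc.2
      · exact fd.2
    · intro u hu v hv
      rw [Finset.mem_insert, Finset.mem_singleton] at hu hv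
      rcases hu with rfl | rfl <;> rcases hv with rfl | rfl
      · exact ⟨fun h => absurd h G'.irrefl, fun h => absurd h G.irrefl⟩
      · exact hab2
      · rw [SimpleGraph.adj_comm G' u v, SimpleGraph.adj_comm G u v]
        exact hab2
      · exact ⟨fun h => absurd h G'.irrefl, fun h => absurd h G.irrefl⟩
    · exact fun u v hu hv => hr.1 u v (fun hc => hc.elim hu hv)
    · exact hr.2

end Vale.Agent.Lib.P335.Gr
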