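import Vale.Agent.Lib.P335.Gr.StepOne
import Vale.Agent.Lib.P335.Gr.StepOneFacts

/-!
# P335 / graphs, leaf K5: STEP 1 for graphs (assembly of K0-K4 with `step_one_rel`)
-/

namespace Vale.Agent.Lib.P335.Gr

open Finset
open scoped Classical
open Vale.Agent.Lib.P335.Bip

variable {n : ℕ}

theorem cellsX_symm' (S T : Finset (Fin n)) (u v : Fin n) (h : cellsX S T u v) :
    cellsX S T v u := cellsX_symm h

theorem cellsV_symm' (S : Finset (Fin n)) (u v : Fin n) (h : cellsV S u v) : cellsV S v u :=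
  h.symm

/-- (K5) STEP 1 -/
theorem step_one (p q : Finset (Fin n)) (hp : p.card = 2) (hq : q.card = 2) (hpq : Disjoint p q)
    (f : SimpleGraph (Fin n) → ℝ) :
    2 * ∑ G, (f G - av (rX p q) f G) ^ 2
      ≤ 2 * ∑ G, (f G - av (rV p) f G) * (f G - av (rV q) f G) + Nterm p q f + Nterm q p f := by
  have hnp : ∀ {x : Fin n}, x ∈ p → x ∉ q := fun hx hx' => Finset.disjoint_left.mp hpq hx hx'
  have hY : ∀ {x : Fin n}, x ∈ (p ∪ q)ᶜ → x ∉ p ∧ x ∉ q := by
    intro x hx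
    rw [Finset.mem_compl, Finset.mem_union] at hx
    exact ⟨fun h => hx (Or.inl h), fun h => hx (Or.inr h)⟩
  have hDq : ∀ G : SimpleGraph (Fin n), Dom q p G ↔ Dom p q G := fun G => dom_comm q p G
  have hNq : Nterm q p f = Ndef (rV q) (Dom p q) f := by
    have : (Dom q p : SimpleGraph (Fin n) → Prop) = Dom p q := funext (fun G => propext (hDq G))
    unfold Nterm
    rw [this]
  rw [hNq]
  -- disjointness of the cell sets
  have d_aY_cY : ∀ u v, cellsX p (p ∪ q)ᶜ u v → ¬ cellsX q (p ∪ q)ᶜ u v := by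
    rintro u v (⟨h1, h2⟩ | ⟨h1, h2⟩) (⟨h3, h4⟩ | ⟨h3, h4⟩)
    · exact hnp h1 h3
    · exact (hY h3).1 h1
    · exact (hY h1).2 h3
    · exact hnp h2 h4
  have d_s_aY : ∀ u v, cellsX p q u v → ¬ cellsX p (p ∪ q)ᶜ u v := by
    rintro u v (⟨h1, h2⟩ | ⟨h1, h2⟩) (⟨h3, h4⟩ | ⟨h3, h4⟩)
    · exact (hY h4).2 h2
    · exact (hY h3).1 h1
    · exact (hY h4).1 h2
    · exact (hY h3).2 h1
  have d_s_cY : ∀ u v, cellsX p q u v → ¬ cellsX q (p ∪ q)ᶜ u v := by
    rintro u v (⟨h1, h2⟩ | ⟨h1, h2⟩) (⟨h3, h4⟩ | ⟨h3, h4⟩)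
    · exact hnp h1 h3
    · exact (hY h3).1 h1
    · exact (hY h4).1 h2
    · exact hnp h2 h4
  have d_p_cY : ∀ u v, cellsV p u v → ¬ cellsX q (p ∪ q)ᶜ u v := by
    rintro u v (h1 | h1) (⟨h3, h4⟩ | ⟨h3, h4⟩)
    · exact hnp h1 h3
    · exact (hY h3).1 h1
    · exact (hY h4).1 h1
    · exact hnp h1 h4
  have d_q_aY : ∀ u v, cellsV q u v → ¬ cellsX p (p ∪ q)ᶜ u v := by
    rintro u v (h1 | h1) (⟨h3, h4⟩ | ⟨h3, h4⟩)
    · exact hnp h3 h1
    · exact (hY h3).2 h1
    · exact (hY h4).2 h1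
    · exact hnp h4 h1
  have hOp : ∀ G G' : SimpleGraph (Fin n), rV p G G' →
      (blockCount p q G ≠ 2 ↔ blockCount p q G' ≠ 2) := by
    intro G G' h
    rw [blockCount_rV p q hpq (Or.inl h)]
  have hOq : ∀ G G' : SimpleGraph (Fin n), rV q G G' →
      (blockCount p q G ≠ 2 ↔ blockCount p q G' ≠ 2) := by
    intro G G' h
    rw [blockCount_rV p q hpq (Or.inr h)]
  have key := step_one_rel (X := SimpleGraph (Fin n)) (ep := rV p) (eq := rV q) (s := rX p q)
    (a := rX p (p ∪ q)ᶜ) (c := rX q (p ∪ q)ᶜ) (Dom p q) (fun G => blockCount p q G ≠ 2)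
    (relG_equivalence _) (relG_equivalence _) (relG_equivalence _) (relG_equivalence _)
    (relG_equivalence _)
    (fun G G' h => relG_mono (fun u v huv => huv.elim (fun h => Or.inl h.1) (fun h => Or.inr h.2)) h)
    (fun G G' h => relG_mono (fun u v huv => huv.elim (fun h => Or.inr h.2) (fun h => Or.inl h.1)) h)
    (fun G G' h => relG_mono (fun u v huv => huv.elim (fun h => Or.inl h.1) (fun h => Or.inr h.2)) h)
    (fun G G' h => relG_mono (fun u v huv => huv.elim (fun h => Or.inl h.1) (fun h => Or.inr h.2)) h)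
    (fun f' => av_comm_relG (cellsX_symm' _ _) (cellsX_symm' _ _) d_aY_cY f')
    (fun f' => av_comm_relG (cellsX_symm' _ _) (cellsX_symm' _ _) d_s_aY f')
    (fun f' => av_comm_relG (cellsX_symm' _ _) (cellsX_symm' _ _) d_s_cY f')
    (relG_rect (cellsV_symm' _) (cellsX_symm' _ _) d_p_cY)
    (relG_rect (cellsV_symm' _) (cellsX_symm' _ _) d_q_aY)
    (fun G G' h => dom_of_rX p q h)
    (fun G G' h => dom_of_relG (cellsX_symm' _ _) p q (fun u v h1 h2 => d_s_aY u v h2 h1) h)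
    (fun G G' h => dom_of_relG (cellsX_symm' _ _) p q (fun u v h1 h2 => d_s_cY u v h2 h1) h)
    (fun G G' hD hD' h => dom_link p q hp hq hpq G G' hD hD' h)
    (fun G G' hD hD' h => by
      obtain ⟨G₂, h1, h2⟩ := dom_link q p hq hp hpq.symm G G' ((hDq G).mpr hD) ((hDq G').mpr hD') h
      refine ⟨G₂, ?_, ?_⟩
      · rw [Finset.union_comm]; exact h1
      · rw [rX_comm p q]; exact h2)
    (fun G hD he => he (blockCount_of_dom p q hp hq hpq hD))
    hOp hOq
    (fun G hD hO => by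
      have he : blockCount p q G = 2 := by
        by_contra hne
        exact hO hne
      exact cherry_frozen p q hp hq hpq G he hD)
    (fun G G' G'' he h' h'' => rect_off_two p q hp hq hpq G G' G'' he h' h'')
    f
  exact key

end Vale.Agent.Lib.P335.Gr
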