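import Vale.Agent.Lib.P335.Gr.Transfer

/-!
# P335 / graphs, abstract layer: step two from the slice (Johnson set) inequality

The classes of the pair relation `rp` are identified, through a coordinate `ψ`, with the slices
`W.powersetCard k`; the block relations become the flips `J ↦ symmDiff J q` and their domains
the sets of `J` meeting `q` in exactly one point.  The slice inequality then gives the
inequality of step two, class by class.
-/

namespace Vale.Agent.Lib.P335.Gr

open Finset
open scoped Classical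
open Vale.Agent.Lib.P335.Bip

section Card

variable {V : Type*} [DecidableEq V]

theorem card_symmDiff_of_inter_one {J q : Finset V} (hq : q.card = 2) (h : (J ∩ q).card = 1) :
    (symmDiff J q).card = J.card := by
  have h1 : symmDiff J q = (J \ q) ∪ (q \ J) := rfl
  rw [h1, Finset.card_union_of_disjoint disjoint_sdiff_sdiff]
  have h2 := Finset.card_sdiff_add_card_inter J q
  have h3 := Finset.card_sdiff_add_card_inter q J
  rw [Finset.inter_comm q J] at h3
  omega

theorem symmDiff_subset_of_subset {J q W : Finset V} (hJ : J ⊆ W) (hq : q ⊆ W) :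
    symmDiff J q ⊆ W := by
  have h1 : symmDiff J q = (J \ q) ∪ (q \ J) := rfl
  rw [h1]
  exact Finset.union_subset (Finset.sdiff_subset.trans hJ) (Finset.sdiff_subset.trans hq)

theorem symmDiff_ne_self {J q : Finset V} (hq : q.card = 2) : symmDiff J q ≠ J := by
  intro h
  rw [symmDiff_eq_left] at h
  rw [h] at hq
  simp at hq

end Card

variable {X : Type*} [Fintype X]

/-- If the sum of `Φ` over every class is nonpositive, the total sum is nonpositive. -/
theorem sum_nonpos_of_class {r : X → X → Prop} (hr : Equivalence r) (Φ : X → ℝ)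
    (h : ∀ x0, ∑ x ∈ univ.filter (fun x => r x0 x), Φ x ≤ 0) : ∑ x, Φ x ≤ 0 := by
  rw [← sum_av hr Φ]
  refine Finset.sum_nonpos (fun x0 _ => ?_)
  show (∑ x ∈ univ.filter (fun x => r x0 x), Φ x)
    / ((univ.filter (fun x => r x0 x)).card : ℝ) ≤ 0
  exact div_nonpos_of_nonpos_of_nonneg (h x0) (Nat.cast_nonneg _)

/-- The average over a class described as a finite set. -/
theorem av_eq_of_mem_iff {r : X → X → Prop} {x : X} {s : Finset X}
    (h : ∀ z, z ∈ s ↔ r x z) (f : X → ℝ) : av r f x = (∑ z ∈ s, f z) / (s.card : ℝ) := by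
  have hset : univ.filter (fun z => r x z) = s := by
    ext z
    simp only [Finset.mem_filter, Finset.mem_univ, true_and]
    exact (h z).symm
  show (∑ z ∈ univ.filter (fun z => r x z), f z) / ((univ.filter (fun z => r x z)).card : ℝ)
    = (∑ z ∈ s, f z) / (s.card : ℝ)
  rw [hset]

/-- The average over a class with exactly two elements. -/
theorem av_of_class_pair {r : X → X → Prop} {x y : X} (hxy : x ≠ y)
    (h : ∀ z, r x z ↔ (z = x ∨ z = y)) (f : X → ℝ) : av r f x = (f x + f y) / 2 := by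
  rw [av_eq_of_mem_iff (s := {x, y}) (fun z => by
    rw [Finset.mem_insert, Finset.mem_singleton]
    exact (h z).symm) f, Finset.sum_pair hxy, Finset.card_pair hxy]
  norm_num

/-- The average over a class with exactly one element. -/
theorem av_of_class_single {r : X → X → Prop} {x : X}
    (h : ∀ z, r x z ↔ z = x) (f : X → ℝ) : av r f x = f x := by
  rw [av_eq_of_mem_iff (s := {x}) (fun z => by
    rw [Finset.mem_singleton]
    exact (h z).symm) f, Finset.sum_singleton, Finset.card_singleton]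
  norm_num

section Main

variable {V : Type*} [DecidableEq V]

/-- The block term at one point, in slice coordinates. -/
theorem slice_block_term
    (rp : X → X → Prop) (hp : Equivalence rp)
    (q : Finset V) (hq2 : q.card = 2)
    (rS : X → X → Prop) (D : X → Prop)
    (W : X → Finset V) (ψ : X → Finset V)
    (hψW : ∀ x, ψ x ⊆ W x)
    (hinj : ∀ x y, rp x y → ψ x = ψ y → x = y)
    (hsurj : ∀ x J, J ⊆ W x → J.card = (ψ x).card → ∃ y, rp x y ∧ ψ y = J)
    (hD : ∀ x, D x ↔ (q ⊆ W x ∧ (ψ x ∩ q).card = 1))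
    (hflip : ∀ x y, rS x y ↔ (y = x ∨ (D x ∧ rp x y ∧ ψ y = symmDiff (ψ x) q)))
    (f : X → ℝ) (F : Finset V → ℝ) (c : ℝ) (x : X)
    (hF : ∀ y, rp x y → F (ψ y) = f y - c) :
    (f x - av rS f x) ^ 2
      = if D x then (1 / 4) * (F (ψ x) - F (symmDiff (ψ x) q)) ^ 2 else 0 := by
  by_cases hDx : D x
  · rw [if_pos hDx]
    obtain ⟨hqW, hone⟩ := (hD x).mp hDx
    obtain ⟨y, hxy, hy⟩ := hsurj x (symmDiff (ψ x) q)
      (symmDiff_subset_of_subset (hψW x) hqW) (card_symmDiff_of_inter_one hq2 hone)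
    have hne : x ≠ y := by
      intro h
      rw [← h] at hy
      exact symmDiff_ne_self hq2 hy.symm
    have hav : av rS f x = (f x + f y) / 2 := by
      apply av_of_class_pair hne
      intro z
      rw [hflip]
      constructor
      · rintro (h | ⟨_, hxz, hz⟩)
        · exact Or.inl h
        · exact Or.inr (hinj y z (hp.trans (hp.symm hxy) hxz) (by rw [hy, hz])).symm
      · rintro (h | h)
        · exact Or.inl h
        · rw [h]
          exact Or.inr ⟨hDx, hxy, hy⟩
    rw [← hy, hF x (hp.refl x), hF y hxy, hav]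
    ring
  · rw [if_neg hDx]
    have hav : av rS f x = f x := by
      apply av_of_class_single
      intro z
      rw [hflip]
      constructor
      · rintro (h | ⟨h, _⟩)
        · exact h
        · exact absurd h hDx
      · intro h
        exact Or.inl h
    rw [hav]
    ring

/-- The defect term summed over one class. -/
theorem slice_defect_term
    (rp : X → X → Prop) (hp : Equivalence rp) (D : X → Prop) (f : X → ℝ) (x0 : X) :
    ∑ x ∈ univ.filter (fun x => rp x0 x), (if D x then
        (av (fun x y => rp x y ∧ (D x ↔ D y)) f x - av rp f x) ^ 2 else 0)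
      = (∑ x ∈ (univ.filter (fun x => rp x0 x)).filter (fun x => D x), (f x - av rp f x0)) ^ 2
        / (((univ.filter (fun x => rp x0 x)).filter (fun x => D x)).card : ℝ) := by
  set cls : Finset X := univ.filter (fun x => rp x0 x) with hcls
  set Dc : Finset X := cls.filter (fun x => D x) with hDc
  set c : ℝ := av rp f x0 with hc
  have hmem : ∀ x, x ∈ cls ↔ rp x0 x := by
    intro x
    rw [hcls, Finset.mem_filter]
    exact ⟨fun h => h.2, fun h => ⟨Finset.mem_univ _, h⟩⟩
  have hav : ∀ x ∈ cls, D x → av (fun x y => rp x y ∧ (D x ↔ D y)) f x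
      = (∑ y ∈ Dc, f y) / (Dc.card : ℝ) := by
    intro x hxc hxD
    apply av_eq_of_mem_iff
    intro y
    rw [hDc, Finset.mem_filter, hmem]
    constructor
    · rintro ⟨hy, hyD⟩
      exact ⟨hp.trans (hp.symm ((hmem x).mp hxc)) hy, ⟨fun _ => hyD, fun _ => hxD⟩⟩
    · rintro ⟨hxy, hiff⟩
      exact ⟨hp.trans ((hmem x).mp hxc) hxy, hiff.mp hxD⟩
  have e1 : ∑ x ∈ cls, (if D x then
        (av (fun x y => rp x y ∧ (D x ↔ D y)) f x - av rp f x) ^ 2 else 0)
      = ∑ x ∈ cls, (if D x then ((∑ y ∈ Dc, f y) / (Dc.card : ℝ) - c) ^ 2 else 0) := by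
    refine Finset.sum_congr rfl (fun x hx => ?_)
    by_cases hDx : D x
    · rw [if_pos hDx, if_pos hDx, hav x hx hDx,
        ← av_congr_of_rel hp f ((hmem x).mp hx)]
    · rw [if_neg hDx, if_neg hDx]
  have e2 : ∑ x ∈ cls, (if D x then ((∑ y ∈ Dc, f y) / (Dc.card : ℝ) - c) ^ 2 else 0)
      = (Dc.card : ℝ) * ((∑ y ∈ Dc, f y) / (Dc.card : ℝ) - c) ^ 2 := by
    rw [← Finset.sum_filter, Finset.sum_const, nsmul_eq_mul]
  have e3 : ∑ x ∈ Dc, (f x - c) = ∑ y ∈ Dc, f y - (Dc.card : ℝ) * c := by
    rw [Finset.sum_sub_distrib, Finset.sum_const, nsmul_eq_mul]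
  rw [e1, e2, e3]
  rcases Nat.eq_zero_or_pos Dc.card with h0 | hpos
  · rw [h0]
    simp
  · have hpos' : (0 : ℝ) < (Dc.card : ℝ) := by exact_mod_cast hpos
    field_simp

/-- The inequality of step two inside one class, from the slice inequality. -/
theorem step_two_class [Fintype V]
    (rp : X → X → Prop) (hp : Equivalence rp)
    (Q : Finset (Finset V)) (hQ2 : ∀ q ∈ Q, q.card = 2)
    (rS : Finset V → X → X → Prop) (D : Finset V → X → Prop)
    (W : X → Finset V) (ψ : X → Finset V)
    (hW : ∀ x y, rp x y → W y = W x)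
    (hk : ∀ x y, rp x y → (ψ y).card = (ψ x).card)
    (hψW : ∀ x, ψ x ⊆ W x)
    (hinj : ∀ x y, rp x y → ψ x = ψ y → x = y)
    (hsurj : ∀ x J, J ⊆ W x → J.card = (ψ x).card → ∃ y, rp x y ∧ ψ y = J)
    (hQ : ∀ x q, q ⊆ W x → q.card = 2 → q ∈ Q)
    (hD : ∀ q ∈ Q, ∀ x, D q x ↔ (q ⊆ W x ∧ (ψ x ∩ q).card = 1))
    (hflip : ∀ q ∈ Q, ∀ x y, rS q x y ↔ (y = x ∨ (D q x ∧ rp x y ∧ ψ y = symmDiff (ψ x) q)))
    (hJ : ∀ (W : Finset V) (k : ℕ) (F : Finset V → ℝ), ∑ J ∈ W.powersetCard k, F J = 0 →
      ∑ J ∈ W.powersetCard k, F J ^ 2 ≤ ∑ q ∈ W.powersetCard 2,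
        ((1 / 4) * ∑ J ∈ (W.powersetCard k).filter (fun J => (J ∩ q).card = 1),
            (F J - F (symmDiff J q)) ^ 2
          - (∑ J ∈ (W.powersetCard k).filter (fun J => (J ∩ q).card = 1), F J) ^ 2
            / (((W.powersetCard k).filter (fun J => (J ∩ q).card = 1)).card : ℝ)))
    (f : X → ℝ) (x0 : X) :
    ∑ x ∈ univ.filter (fun x => rp x0 x), (f x - av rp f x) ^ 2
      ≤ ∑ q ∈ Q, (∑ x ∈ univ.filter (fun x => rp x0 x), (f x - av (rS q) f x) ^ 2
          - ∑ x ∈ univ.filter (fun x => rp x0 x), (if D q x then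
              (av (fun x y => rp x y ∧ (D q x ↔ D q y)) f x - av rp f x) ^ 2 else 0)) := by
  -- the class and its coordinates
  set cls : Finset X := univ.filter (fun x => rp x0 x) with hcls
  set W0 : Finset V := W x0 with hW0
  set k0 : ℕ := (ψ x0).card with hk0
  set c : ℝ := av rp f x0 with hc
  have hmem : ∀ x, x ∈ cls ↔ rp x0 x := by
    intro x
    rw [hcls, Finset.mem_filter]
    exact ⟨fun h => h.2, fun h => ⟨Finset.mem_univ _, h⟩⟩
  have hcW : ∀ x ∈ cls, W x = W0 := fun x hx => hW x0 x ((hmem x).mp hx)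
  have hck : ∀ x ∈ cls, (ψ x).card = k0 := fun x hx => hk x0 x ((hmem x).mp hx)
  have hcav : ∀ x ∈ cls, av rp f x = c := fun x hx =>
    (av_congr_of_rel hp f ((hmem x).mp hx)).symm
  set F : Finset V → ℝ := pushCls ψ rp x0 (fun x => f x - c) with hFdef
  have hF : ∀ x ∈ cls, F (ψ x) = f x - c := fun x hx =>
    pushCls_apply hp hinj ((hmem x).mp hx) _
  have hinjOn : ∀ x ∈ cls, ∀ y ∈ cls, ψ x = ψ y → x = y := by
    intro x hx y hy he
    exact hinj x y (hp.trans (hp.symm ((hmem x).mp hx)) ((hmem y).mp hy)) he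
  have himg : cls.image ψ = W0.powersetCard k0 := by
    ext J
    rw [Finset.mem_image, Finset.mem_powersetCard]
    constructor
    · rintro ⟨x, hx, rfl⟩
      exact ⟨by rw [← hcW x hx]; exact hψW x, hck x hx⟩
    · rintro ⟨hJW, hJk⟩
      obtain ⟨y, hy, hyJ⟩ := hsurj x0 J hJW hJk
      exact ⟨y, (hmem y).mpr hy, hyJ⟩
  have hsumF : ∀ Φ : Finset V → ℝ, ∑ J ∈ W0.powersetCard k0, Φ J = ∑ x ∈ cls, Φ (ψ x) := by
    intro Φ
    rw [← himg, Finset.sum_image hinjOn]
  -- the pushed function has zero sum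
  have hx0 : x0 ∈ cls := (hmem x0).mpr (hp.refl x0)
  have hcard_pos : (0 : ℝ) < (cls.card : ℝ) := by
    exact_mod_cast Finset.card_pos.mpr ⟨x0, hx0⟩
  have hcdef : c = (∑ x ∈ cls, f x) / (cls.card : ℝ) := rfl
  have hzero : ∑ J ∈ W0.powersetCard k0, F J = 0 := by
    rw [hsumF, Finset.sum_congr rfl hF, Finset.sum_sub_distrib, Finset.sum_const,
      nsmul_eq_mul, hcdef]
    field_simp
    ring
  have hmain := hJ W0 k0 F hzero
  -- the left side
  have hL : ∑ J ∈ W0.powersetCard k0, F J ^ 2 = ∑ x ∈ cls, (f x - av rp f x) ^ 2 := by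
    rw [hsumF]
    refine Finset.sum_congr rfl (fun x hx => ?_)
    rw [hF x hx, hcav x hx]
  -- the terms of the right side
  have hR : ∀ q ∈ W0.powersetCard 2,
      (1 / 4) * ∑ J ∈ (W0.powersetCard k0).filter (fun J => (J ∩ q).card = 1),
            (F J - F (symmDiff J q)) ^ 2
          - (∑ J ∈ (W0.powersetCard k0).filter (fun J => (J ∩ q).card = 1), F J) ^ 2
            / (((W0.powersetCard k0).filter (fun J => (J ∩ q).card = 1)).card : ℝ)
        = ∑ x ∈ cls, (f x - av (rS q) f x) ^ 2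
          - ∑ x ∈ cls, (if D q x then
              (av (fun x y => rp x y ∧ (D q x ↔ D q y)) f x - av rp f x) ^ 2 else 0) := by
    intro q hq
    rw [Finset.mem_powersetCard] at hq
    have hqQ : q ∈ Q := hQ x0 q hq.1 hq.2
    have hDiff : ∀ x ∈ cls, ((ψ x ∩ q).card = 1 ↔ D q x) := by
      intro x hx
      rw [hD q hqQ x, hcW x hx]
      exact ⟨fun h => ⟨hq.1, h⟩, fun h => h.2⟩
    have hDS : (W0.powersetCard k0).filter (fun J => (J ∩ q).card = 1)
        = (cls.filter (fun x => D q x)).image ψ := by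
      rw [← himg, Finset.filter_image]
      congr 1
      exact Finset.filter_congr hDiff
    have hinjD : ∀ x ∈ cls.filter (fun x => D q x), ∀ y ∈ cls.filter (fun x => D q x),
        ψ x = ψ y → x = y := fun x hx y hy he =>
      hinjOn x (Finset.mem_filter.mp hx).1 y (Finset.mem_filter.mp hy).1 he
    have hcardDS : ((cls.filter (fun x => D q x)).image ψ).card
        = (cls.filter (fun x => D q x)).card := by
      apply Finset.card_image_of_injOn
      intro a ha b hb he
      exact hinjD a (Finset.mem_coe.mp ha) b (Finset.mem_coe.mp hb) he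
    rw [hDS, Finset.sum_image hinjD, Finset.sum_image hinjD, hcardDS]
    have hA : (1 / 4) * ∑ x ∈ cls.filter (fun x => D q x), (F (ψ x) - F (symmDiff (ψ x) q)) ^ 2
        = ∑ x ∈ cls, (f x - av (rS q) f x) ^ 2 := by
      rw [Finset.mul_sum, Finset.sum_filter]
      refine Finset.sum_congr rfl (fun x hx => ?_)
      exact (slice_block_term rp hp q hq.2 (rS q) (D q) W ψ hψW hinj hsurj (hD q hqQ)
        (hflip q hqQ) f F c x
        (fun y hxy => hF y ((hmem y).mpr (hp.trans ((hmem x).mp hx) hxy)))).symm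
    have hB : (∑ x ∈ cls.filter (fun x => D q x), F (ψ x)) ^ 2
          / ((cls.filter (fun x => D q x)).card : ℝ)
        = ∑ x ∈ cls, (if D q x then
              (av (fun x y => rp x y ∧ (D q x ↔ D q y)) f x - av rp f x) ^ 2 else 0) := by
      rw [slice_defect_term rp hp (D q) f x0]
      rw [Finset.sum_congr rfl (fun x hx => hF x (Finset.mem_filter.mp hx).1)]
    rw [hA, hB]
  -- the pairs that are not pairs of free columns
  have hN : ∀ q ∈ Q, q ∉ W0.powersetCard 2 →
      0 ≤ ∑ x ∈ cls, (f x - av (rS q) f x) ^ 2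
          - ∑ x ∈ cls, (if D q x then
              (av (fun x y => rp x y ∧ (D q x ↔ D q y)) f x - av rp f x) ^ 2 else 0) := by
    intro q hqQ hq
    have hz : ∑ x ∈ cls, (if D q x then
        (av (fun x y => rp x y ∧ (D q x ↔ D q y)) f x - av rp f x) ^ 2 else 0) = 0 := by
      apply Finset.sum_eq_zero
      intro x hx
      have hDx : ¬ D q x := by
        intro h
        apply hq
        rw [Finset.mem_powersetCard]
        refine ⟨?_, hQ2 q hqQ⟩
        rw [← hcW x hx]
        exact ((hD q hqQ x).mp h).1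
      rw [if_neg hDx]
    rw [hz, sub_zero]
    exact Finset.sum_nonneg (fun x _ => sq_nonneg _)
  have hsub : W0.powersetCard 2 ⊆ Q := by
    intro q hq
    rw [Finset.mem_powersetCard] at hq
    exact hQ x0 q hq.1 hq.2
  rw [hL, Finset.sum_congr rfl hR] at hmain
  exact le_trans hmain (Finset.sum_le_sum_of_subset_of_nonneg hsub hN)

/-- STEP TWO FROM THE SLICE INEQUALITY.  `rp` is the pair relation, `ψ x ⊆ W x` the slice
coordinate of `x` inside its `rp`-class (a bijection from the class onto the subsets of `W x`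
of a fixed size), `Q` the set of pairs, `rS q` the block relation of `q` (identity or the flip
`ψ ↦ symmDiff ψ q`), `D q` its domain.  If the slice inequality `hJ` holds, then the sum over
`q ∈ Q` of block term minus defect term dominates the variance inside the `rp`-classes. -/
theorem step_two_of_slice [Fintype V]
    (rp : X → X → Prop) (hp : Equivalence rp)
    (Q : Finset (Finset V)) (hQ2 : ∀ q ∈ Q, q.card = 2)
    (rS : Finset V → X → X → Prop) (D : Finset V → X → Prop)
    (W : X → Finset V) (ψ : X → Finset V)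
    (hW : ∀ x y, rp x y → W y = W x)
    (hk : ∀ x y, rp x y → (ψ y).card = (ψ x).card)
    (hψW : ∀ x, ψ x ⊆ W x)
    (hinj : ∀ x y, rp x y → ψ x = ψ y → x = y)
    (hsurj : ∀ x J, J ⊆ W x → J.card = (ψ x).card → ∃ y, rp x y ∧ ψ y = J)
    (hQ : ∀ x q, q ⊆ W x → q.card = 2 → q ∈ Q)
    (hD : ∀ q ∈ Q, ∀ x, D q x ↔ (q ⊆ W x ∧ (ψ x ∩ q).card = 1))
    (hflip : ∀ q ∈ Q, ∀ x y, rS q x y ↔ (y = x ∨ (D q x ∧ rp x y ∧ ψ y = symmDiff (ψ x) q)))
    (hJ : ∀ (W : Finset V) (k : ℕ) (F : Finset V → ℝ), ∑ J ∈ W.powersetCard k, F J = 0 →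
      ∑ J ∈ W.powersetCard k, F J ^ 2 ≤ ∑ q ∈ W.powersetCard 2,
        ((1 / 4) * ∑ J ∈ (W.powersetCard k).filter (fun J => (J ∩ q).card = 1),
            (F J - F (symmDiff J q)) ^ 2
          - (∑ J ∈ (W.powersetCard k).filter (fun J => (J ∩ q).card = 1), F J) ^ 2
            / (((W.powersetCard k).filter (fun J => (J ∩ q).card = 1)).card : ℝ)))
    (f : X → ℝ) :
    ∑ x, (f x - av rp f x) ^ 2
      ≤ ∑ q ∈ Q, (∑ x, (f x - av (rS q) f x) ^ 2
          - ∑ x, (if D q x then
              (av (fun x y => rp x y ∧ (D q x ↔ D q y)) f x - av rp f x) ^ 2 else 0)) := by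
  have hre : ∀ s : Finset X,
      ∑ x ∈ s, ((f x - av rp f x) ^ 2 - ∑ q ∈ Q, ((f x - av (rS q) f x) ^ 2
          - (if D q x then
              (av (fun x y => rp x y ∧ (D q x ↔ D q y)) f x - av rp f x) ^ 2 else 0)))
        = ∑ x ∈ s, (f x - av rp f x) ^ 2
          - ∑ q ∈ Q, (∑ x ∈ s, (f x - av (rS q) f x) ^ 2
            - ∑ x ∈ s, (if D q x then
              (av (fun x y => rp x y ∧ (D q x ↔ D q y)) f x - av rp f x) ^ 2 else 0)) := by
    intro s
    rw [Finset.sum_sub_distrib, Finset.sum_comm]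
    simp only [Finset.sum_sub_distrib]
  have hall := sum_nonpos_of_class hp
    (fun x => (f x - av rp f x) ^ 2 - ∑ q ∈ Q, ((f x - av (rS q) f x) ^ 2
          - (if D q x then
              (av (fun x y => rp x y ∧ (D q x ↔ D q y)) f x - av rp f x) ^ 2 else 0)))
    (fun x0 => by
      rw [hre]
      have h := step_two_class rp hp Q hQ2 rS D W ψ hW hk hψW hinj hsurj hQ hD hflip hJ f x0
      linarith)
  rw [hre] at hall
  linarith

end Main

end Vale.Agent.Lib.P335.Gr
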