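import Vale.Agent.Lib.P335.Gr.Fibre
import Vale.Agent.Lib.P335.Gr.JohnsonW
import Vale.Agent.Lib.P335.Gr.SliceTransfer

/-!
# P335 / graphs, leaf K8: STEP 2 for graphs

Assembly of `step_two_of_slice` (Gr/SliceTransfer.lean) with the fibre facts (K6), the block
facts (K1) and the Johnson slice inequality `johnson_step2_on` (Gr/JohnsonW.lean).
-/

namespace Vale.Agent.Lib.P335.Gr

open Finset
open scoped Classical
open Vale.Agent.Lib.P335.Bip

variable {n : ℕ}

/-- (K8) STEP 2 -/
theorem step_two (p : Finset (Fin n)) (hp : p.card = 2) (f : SimpleGraph (Fin n) → ℝ) :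
    ∑ G, (f G - av (rV p) f G) ^ 2
      ≤ ∑ q ∈ (univ \ p).powersetCard 2,
          (∑ G, (f G - av (rX p q) f G) ^ 2 - Nterm p q f) := by
  obtain ⟨a, b, hab, rfl⟩ := Finset.card_eq_two.mp hp
  have hQd : ∀ q ∈ (univ \ ({a, b} : Finset (Fin n))).powersetCard 2,
      q.card = 2 ∧ Disjoint ({a, b} : Finset (Fin n)) q := by
    intro q hq
    have hq' := Finset.mem_powersetCard.mp hq
    refine ⟨hq'.2, ?_⟩
    rw [Finset.disjoint_left]
    intro x hx hxq
    exact (Finset.mem_sdiff.mp (hq'.1 hxq)).2 hx
  have hE := relG_equivalence (cellsV ({a, b} : Finset (Fin n)))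
  have key := step_two_of_slice (X := SimpleGraph (Fin n)) (V := Fin n)
    (rV ({a, b} : Finset (Fin n))) hE
    ((univ \ ({a, b} : Finset (Fin n))).powersetCard 2) (fun q hq => (hQd q hq).1)
    (fun q => rX ({a, b} : Finset (Fin n)) q) (fun q => Dom ({a, b} : Finset (Fin n)) q)
    (freeCols a b) (aSet a b)
    (fun G G' h => freeCols_rV hab h)
    (fun G G' h => aSet_card_rV hab h)
    (fun G => Finset.filter_subset _ _)
    (fun G G' h hJ => (aSet_inj hab h hJ.symm).symm)
    (fun G J hJW hJk => aSet_surj hab G J (Finset.mem_powersetCard.mpr ⟨hJW, hJk⟩))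
    (fun G q hqW hq2 => by
      refine Finset.mem_powersetCard.mpr ⟨fun w hw => ?_, hq2⟩
      have hw' := hqW hw
      unfold freeCols at hw'
      rw [Finset.mem_filter] at hw'
      rw [Finset.mem_sdiff, Finset.mem_insert, Finset.mem_singleton]
      exact ⟨Finset.mem_univ _, fun h => h.elim hw'.2.1 hw'.2.2.1⟩)
    (fun q hq G => dom_iff_aSet hab q (hQd q hq).1 (hQd q hq).2 G)
    (fun q hq G G' => by
      have hq2 := (hQd q hq).1
      have hdj := (hQd q hq).2
      have hp2 : ({a, b} : Finset (Fin n)).card = 2 := Finset.card_pair hab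
      constructor
      · intro h
        rcases (rX_iff _ q hp2 hq2 hdj G G').mp h with h1 | ⟨hD, h1⟩
        · exact Or.inl h1
        · refine Or.inr ⟨hD, relG_mono (fun u v huv => cellsV_of_cellsX u v huv) h, ?_⟩
          rw [h1]
          exact aSet_flipB hab q hq2 hdj G hD
      · rintro (h1 | ⟨hD, hr, hψ⟩)
        · rw [h1]
          exact (relG_equivalence _).refl G
        · have hfl := rX_flipB _ q hp2 hq2 hdj hD
          have hfl' : rV ({a, b} : Finset (Fin n)) G (flipB {a, b} q G) :=
            relG_mono (fun u v huv => cellsV_of_cellsX u v huv) hfl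
          have h2 : rV ({a, b} : Finset (Fin n)) (flipB {a, b} q G) G' :=
            hE.trans (hE.symm hfl') hr
          have h3 : aSet a b G' = aSet a b (flipB {a, b} q G) := by
            rw [hψ, aSet_flipB hab q hq2 hdj G hD]
          have h4 : G' = flipB {a, b} q G := aSet_inj hab h2 h3
          rw [h4]
          exact hfl)
    (fun W k F hF => johnson_step2_on W k F hF)
    f
  exact key

end Vale.Agent.Lib.P335.Gr
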