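import Vale.Agent.Lib.P335.Gr.GapAssembly
import Vale.Agent.Lib.P335.Gr.StepOneG
import Vale.Agent.Lib.P335.Gr.StepTwo
import Vale.Agent.Lib.P335.Gr.Ker

/-!
# P335 / graphs, leaf K12: assembly of the gap for all degree sequences

`gapHyp_of_steps` (Gr/GapAssembly.lean) with `ker_of_pairs` (K10), `step_one` (K5),
`step_two` (K8); then `mixed_of_gap`, `sum_sq_le_switchEnergy_of_gap` (Gr/Final.lean).
-/

namespace Vale.Agent.Lib.P335.Gr

open Finset
open scoped Classical
open Vale.Agent.Lib.P335.Bip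

variable {n : ℕ}

theorem Nterm_nonneg (p q : Finset (Fin n)) (f : SimpleGraph (Fin n) → ℝ) : 0 ≤ Nterm p q f := by
  unfold Nterm Ndef
  refine Finset.sum_nonneg (fun G _ => ?_)
  split_ifs
  · exact sq_nonneg _
  · exact le_refl _

/-- (K12a) the gap inequality on all graphs. -/
theorem gapHyp_all (n : ℕ) : GapHyp n := by
  refine gapHyp_of_steps (fun a ha => ker_of_pairs a ha) (fun p q a => Nterm p q a)
    (fun p q a => Nterm_nonneg p q a) ?_ ?_
  · intro p hp q hq a
    have hq' := Finset.mem_powersetCard.mp hq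
    have hdisj : Disjoint p q := by
      rw [Finset.disjoint_left]
      intro x hx hxq
      exact (Finset.mem_sdiff.mp (hq'.1 hxq)).2 hx
    exact step_one p q (Finset.mem_powersetCard.mp hp).2 hq'.2 hdisj a
  · intro p hp a
    exact step_two p (Finset.mem_powersetCard.mp hp).2 a

/-- (K12b) the energy inequality on the realizations of `d`. -/
theorem ktv_energy (d : Fin n → ℕ) (u : SimpleGraph (Fin n) → ℝ)
    (hu : ∑ H ∈ realizations d, u H = 0) :
    ∑ H ∈ realizations d, (u H) ^ 2 ≤ (1 / 4) * switchEnergy d u :=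
  sum_sq_le_switchEnergy_of_gap (gapHyp_all n) u hu

/-- (K12c) mixing -/
theorem ktv_mixed (hn : 4 ≤ n) (d : Fin n → ℕ) (hne : (realizations d).Nonempty) :
    (∀ t : ℕ, n ^ 6 ≤ t → IsMixedAt d t) ∧ tmix d ≤ n ^ 6 :=
  mixed_of_gap hn (gapHyp_all n) hne

end Vale.Agent.Lib.P335.Gr
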