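import Vale.Agent.Lib.P335.Bip.Defs
import Vale.Agent.Lib.P335.Gr.Rel

/-!
# P335 / graphs: the three-row encoding of the class of a vertex triple

For a set `t` of three vertices, a graph `G` is encoded by the 0/1 matrix `phiT t G` with rows
the vertices of `t` and columns the vertices outside `t` together with one virtual column `none`:
the entry at `(u, some w)` is the adjacency of `u` and `w`, and the entry at `(u, none)` is the
NON-adjacency of the two other vertices of `t`.  Graphs with the same cells away from `t` and the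
same degrees correspond exactly to matrices with the same margins.
-/

namespace Vale.Agent.Lib.P335.Gr

open Finset
open scoped Classical

variable {n : ℕ}

/-- The columns of the encoding: the virtual column and the vertices outside `t`. -/
noncomputable def TT (t : Finset (Fin n)) : Finset (Option (Fin n)) :=
  insert none ((univ.filter (fun w => w ∉ t)).image some)

theorem none_mem_TT (t : Finset (Fin n)) : (none : Option (Fin n)) ∈ TT t :=
  Finset.mem_insert_self _ _

theorem some_mem_TT (t : Finset (Fin n)) (w : Fin n) : some w ∈ TT t ↔ w ∉ t := by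
  unfold TT
  rw [Finset.mem_insert, Finset.mem_image]
  constructor
  · rintro (h | ⟨x, hx, hxw⟩)
    · exact absurd h (Option.some_ne_none w)
    · rw [← Option.some.inj hxw]
      exact (Finset.mem_filter.mp hx).2
  · intro h
    exact Or.inr ⟨w, Finset.mem_filter.mpr ⟨Finset.mem_univ w, h⟩, rfl⟩

/-- The three-row encoding of a graph. -/
noncomputable def phiT (t : Finset (Fin n)) (G : SimpleGraph (Fin n)) :
    Fin n → Option (Fin n) → Bool :=
  fun u c => match c with
    | none => decide (u ∈ t ∧ ∀ v ∈ t, ∀ w ∈ t, v ≠ u → w ≠ u → ¬ G.Adj v w)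
    | some w => decide (u ∈ t ∧ w ∉ t ∧ G.Adj u w)

theorem phiT_none (t : Finset (Fin n)) (G : SimpleGraph (Fin n)) (u : Fin n) :
    phiT t G u none = true ↔ (u ∈ t ∧ ∀ v ∈ t, ∀ w ∈ t, v ≠ u → w ≠ u → ¬ G.Adj v w) := by
  show decide (u ∈ t ∧ ∀ v ∈ t, ∀ w ∈ t, v ≠ u → w ≠ u → ¬ G.Adj v w) = true ↔ _
  rw [decide_eq_true_eq]

theorem phiT_some (t : Finset (Fin n)) (G : SimpleGraph (Fin n)) (u w : Fin n) :
    phiT t G u (some w) = true ↔ (u ∈ t ∧ w ∉ t ∧ G.Adj u w) := by
  show decide (u ∈ t ∧ w ∉ t ∧ G.Adj u w) = true ↔ _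
  rw [decide_eq_true_eq]

theorem phiT_eq_false_of_not_mem (t : Finset (Fin n)) (G : SimpleGraph (Fin n)) {u : Fin n}
    (hu : u ∉ t) (c : Option (Fin n)) : phiT t G u c = false := by
  rw [Bool.eq_false_iff]
  intro h
  cases c with
  | none => exact hu ((phiT_none t G u).mp h).1
  | some w => exact hu ((phiT_some t G u w).mp h).1

theorem phiT_some_eq_false_of_mem (t : Finset (Fin n)) (G : SimpleGraph (Fin n)) (u : Fin n)
    {w : Fin n} (hw : w ∈ t) : phiT t G u (some w) = false := by
  rw [Bool.eq_false_iff]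
  intro h
  exact ((phiT_some t G u w).mp h).2.1 hw

/-- Outside the block `t × TT t` the encoding vanishes. -/
theorem phiT_eq_false_of_not_block (t : Finset (Fin n)) (G : SimpleGraph (Fin n)) {u : Fin n}
    {c : Option (Fin n)} (h : ¬ (u ∈ t ∧ c ∈ TT t)) : phiT t G u c = false := by
  by_cases hu : u ∈ t
  · cases c with
    | none => exact absurd ⟨hu, none_mem_TT t⟩ h
    | some w =>
      apply phiT_some_eq_false_of_mem
      by_contra hw
      exact h ⟨hu, (some_mem_TT t w).mpr hw⟩
  · exact phiT_eq_false_of_not_mem t G hu c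

/-! ### Triples -/

/-- `t` consists of the three distinct vertices `i, j, k`. -/
def IsTriple (t : Finset (Fin n)) (i j k : Fin n) : Prop :=
  i ∈ t ∧ j ∈ t ∧ k ∈ t ∧ i ≠ j ∧ i ≠ k ∧ j ≠ k ∧ ∀ x ∈ t, x = i ∨ x = j ∨ x = k

theorem IsTriple.rot {t : Finset (Fin n)} {i j k : Fin n} (h : IsTriple t i j k) :
    IsTriple t j k i := by
  obtain ⟨hi, hj, hk, hij, hik, hjk, hall⟩ := h
  refine ⟨hj, hk, hi, hjk, hij.symm, hik.symm, fun x hx => ?_⟩
  rcases hall x hx with h | h | h
  · exact Or.inr (Or.inr h)
  · exact Or.inl h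
  · exact Or.inr (Or.inl h)

theorem IsTriple.swap {t : Finset (Fin n)} {i j k : Fin n} (h : IsTriple t i j k) :
    IsTriple t i k j := by
  obtain ⟨hi, hj, hk, hij, hik, hjk, hall⟩ := h
  refine ⟨hi, hk, hj, hik, hij, hjk.symm, fun x hx => ?_⟩
  rcases hall x hx with h | h | h
  · exact Or.inl h
  · exact Or.inr (Or.inr h)
  · exact Or.inr (Or.inl h)

theorem exists_isTriple {t : Finset (Fin n)} (ht : t.card = 3) :
    ∃ i j k, IsTriple t i j k := by
  obtain ⟨i, j, k, hij, hik, hjk, rfl⟩ := Finset.card_eq_three.mp ht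
  refine ⟨i, j, k, by simp, by simp, by simp, hij, hik, hjk, fun x hx => ?_⟩
  simpa using hx

/-- Every vertex of a triple can be put first. -/
theorem exists_isTriple_of_mem {t : Finset (Fin n)} (ht : t.card = 3) {u : Fin n} (hu : u ∈ t) :
    ∃ j k, IsTriple t u j k := by
  obtain ⟨i, j, k, h⟩ := exists_isTriple ht
  rcases h.2.2.2.2.2.2 u hu with e | e | e
  · exact ⟨j, k, e ▸ h⟩
  · exact ⟨k, i, e ▸ h.rot⟩
  · exact ⟨i, j, e ▸ h.rot.rot⟩

/-- Two distinct vertices of a triple can be put last. -/
theorem exists_isTriple_of_mem_mem {t : Finset (Fin n)} (ht : t.card = 3) {x y : Fin n}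
    (hx : x ∈ t) (hy : y ∈ t) (hxy : x ≠ y) : ∃ u, IsTriple t u x y := by
  obtain ⟨j, k, h⟩ := exists_isTriple_of_mem ht hx
  rcases h.2.2.2.2.2.2 y hy with e | e | e
  · exact absurd e.symm hxy
  · exact ⟨k, e ▸ h.rot.rot⟩
  · exact ⟨j, e ▸ h.swap.rot.rot⟩

theorem IsTriple.sum_eq {t : Finset (Fin n)} {i j k : Fin n} (h : IsTriple t i j k)
    (f : Fin n → ℕ) : ∑ x ∈ t, f x = f i + f j + f k := by
  obtain ⟨hi, hj, hk, hij, hik, hjk, hall⟩ := h
  have ht : t = {i, j, k} := by
    ext x
    simp only [Finset.mem_insert, Finset.mem_singleton]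
    constructor
    · exact hall x
    · rintro (e | e | e)
      · exact e ▸ hi
      · exact e ▸ hj
      · exact e ▸ hk
  rw [ht, Finset.sum_insert (by simp [hij, hik]), Finset.sum_insert (by simp [hjk]),
    Finset.sum_singleton, add_assoc]

/-- The virtual entry of a row is the non-adjacency of the two other vertices. -/
theorem IsTriple.phiT_none_iff {t : Finset (Fin n)} {i j k : Fin n} (h : IsTriple t i j k)
    (G : SimpleGraph (Fin n)) : phiT t G i none = true ↔ ¬ G.Adj j k := by
  obtain ⟨hi, hj, hk, hij, hik, hjk, hall⟩ := h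
  rw [phiT_none]
  constructor
  · intro h1
    exact h1.2 j hj k hk hij.symm hik.symm
  · intro h1
    refine ⟨hi, fun v hv w hw hvi hwi => ?_⟩
    rcases hall v hv with e | e | e
    · exact absurd e hvi
    · rcases hall w hw with e' | e' | e'
      · exact absurd e' hwi
      · rw [e, e']
        exact G.irrefl
      · rw [e, e']
        exact h1
    · rcases hall w hw with e' | e' | e'
      · exact absurd e' hwi
      · rw [e, e']
        exact fun h2 => h1 h2.symm
      · rw [e, e']
        exact G.irrefl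

/-! ### Sums of indicators -/

theorem phi_degree_eq_sum (G : SimpleGraph (Fin n)) (v : Fin n) :
    G.degree v = ∑ w, if G.Adj v w then 1 else 0 := by
  rw [← SimpleGraph.card_neighborFinset_eq_degree, SimpleGraph.neighborFinset_eq_filter,
    Finset.card_filter]

theorem phi_rowSum_eq (M : Fin n → Option (Fin n) → Bool) (u : Fin n) :
    Bip.rowSum M u
      = (if M u none = true then 1 else 0) + ∑ w, if M u (some w) = true then 1 else 0 := by
  unfold Bip.rowSum
  rw [Finset.card_filter, Fintype.sum_option]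

theorem phi_colSum_eq (M : Fin n → Option (Fin n) → Bool) (c : Option (Fin n)) :
    Bip.colSum M c = ∑ u, if M u c = true then 1 else 0 := by
  unfold Bip.colSum
  rw [Finset.card_filter]

theorem phi_sum_split (t : Finset (Fin n)) (f : Fin n → ℕ) :
    ∑ w, f w = ∑ w ∈ t, f w + ∑ w ∈ tᶜ, f w :=
  (Finset.sum_add_sum_compl t f).symm

/-- The number of neighbours of `u` outside `t`. -/
noncomputable def outDeg (t : Finset (Fin n)) (G : SimpleGraph (Fin n)) (u : Fin n) : ℕ :=
  ∑ w ∈ tᶜ, if G.Adj u w then 1 else 0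

theorem rowSum_phiT_of_not_mem (t : Finset (Fin n)) (G : SimpleGraph (Fin n)) {u : Fin n}
    (hu : u ∉ t) : Bip.rowSum (phiT t G) u = 0 := by
  rw [phi_rowSum_eq, phiT_eq_false_of_not_mem t G hu none]
  simp [phiT_eq_false_of_not_mem t G hu]

theorem colSum_phiT_some_of_mem (t : Finset (Fin n)) (G : SimpleGraph (Fin n)) {w : Fin n}
    (hw : w ∈ t) : Bip.colSum (phiT t G) (some w) = 0 := by
  rw [phi_colSum_eq]
  simp [phiT_some_eq_false_of_mem t G _ hw]

/-- The part of a row of the encoding outside the virtual column. -/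
theorem sum_phiT_some (t : Finset (Fin n)) (G : SimpleGraph (Fin n)) {u : Fin n} (hu : u ∈ t) :
    (∑ w, if phiT t G u (some w) = true then 1 else 0) = outDeg t G u := by
  rw [phi_sum_split t]
  have h1 : ∑ w ∈ t, (if phiT t G u (some w) = true then 1 else 0) = 0 := by
    refine Finset.sum_eq_zero (fun w hw => ?_)
    rw [phiT_some_eq_false_of_mem t G u hw]
    simp
  rw [h1, zero_add]
  unfold outDeg
  refine Finset.sum_congr rfl (fun w hw => ?_)
  have hw' : w ∉ t := Finset.mem_compl.mp hw
  by_cases hadj : G.Adj u w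
  · rw [if_pos hadj, if_pos ((phiT_some t G u w).mpr ⟨hu, hw', hadj⟩)]
  · rw [if_neg hadj, if_neg (fun h => hadj ((phiT_some t G u w).mp h).2.2)]

/-- The virtual column sum. -/
theorem IsTriple.colSum_none {t : Finset (Fin n)} {i j k : Fin n} (h : IsTriple t i j k)
    (G : SimpleGraph (Fin n)) :
    Bip.colSum (phiT t G) none
      = (if G.Adj j k then 0 else 1) + (if G.Adj i k then 0 else 1)
        + (if G.Adj i j then 0 else 1) := by
  rw [phi_colSum_eq, phi_sum_split t]
  have h1 : ∑ u ∈ tᶜ, (if phiT t G u none = true then 1 else 0) = 0 := by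
    refine Finset.sum_eq_zero (fun u hu => ?_)
    rw [phiT_eq_false_of_not_mem t G (Finset.mem_compl.mp hu)]
    simp
  rw [h1, add_zero, h.sum_eq]
  have e1 : (if phiT t G i none = true then 1 else 0) = (if G.Adj j k then 0 else 1) := by
    by_cases hadj : G.Adj j k
    · rw [if_pos hadj, if_neg (fun hh => (h.phiT_none_iff G).mp hh hadj)]
    · rw [if_neg hadj, if_pos ((h.phiT_none_iff G).mpr hadj)]
  have e2 : (if phiT t G j none = true then 1 else 0) = (if G.Adj i k then 0 else 1) := by
    have h' := h.rot.phiT_none_iff G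
    by_cases hadj : G.Adj i k
    · rw [if_pos hadj, if_neg (fun hh => h'.mp hh hadj.symm)]
    · rw [if_neg hadj, if_pos (h'.mpr (fun hh => hadj hh.symm))]
  have e3 : (if phiT t G k none = true then 1 else 0) = (if G.Adj i j then 0 else 1) := by
    have h' := h.rot.rot.phiT_none_iff G
    by_cases hadj : G.Adj i j
    · rw [if_pos hadj, if_neg (fun hh => h'.mp hh hadj)]
    · rw [if_neg hadj, if_pos (h'.mpr hadj)]
  rw [e1, e2, e3]

/-- (D1) Degree of a vertex of the triple in terms of the margins of the encoding. -/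
theorem IsTriple.degree_add_colSum_none {t : Finset (Fin n)} {i j k : Fin n}
    (h : IsTriple t i j k) (G : SimpleGraph (Fin n)) :
    G.degree i + Bip.colSum (phiT t G) none = Bip.rowSum (phiT t G) i + 2 := by
  have hi : i ∈ t := h.1
  rw [h.colSum_none G, phi_rowSum_eq, sum_phiT_some t G hi, phi_degree_eq_sum, phi_sum_split t,
    h.sum_eq]
  have e0 : (if G.Adj i i then 1 else 0) = 0 := if_neg G.irrefl
  have e1 : (if phiT t G i none = true then 1 else 0) = (if G.Adj j k then 0 else 1) := by
    by_cases hadj : G.Adj j k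
    · rw [if_pos hadj, if_neg (fun hh => (h.phiT_none_iff G).mp hh hadj)]
    · rw [if_neg hadj, if_pos ((h.phiT_none_iff G).mpr hadj)]
  rw [e0, e1]
  show 0 + (if G.Adj i j then 1 else 0) + (if G.Adj i k then 1 else 0) + outDeg t G i
      + ((if G.Adj j k then 0 else 1) + (if G.Adj i k then 0 else 1)
        + (if G.Adj i j then 0 else 1))
    = (if G.Adj j k then 0 else 1) + outDeg t G i + 2
  by_cases h1 : G.Adj i j <;> by_cases h2 : G.Adj i k <;> by_cases h3 : G.Adj j k <;>
    simp only [h1, h2, h3, if_true, if_false] <;> omega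

/-- (D2) Degree of a vertex outside the triple. -/
theorem degree_of_not_mem (t : Finset (Fin n)) (G : SimpleGraph (Fin n)) {w : Fin n}
    (hw : w ∉ t) : G.degree w = outDeg t G w + Bip.colSum (phiT t G) (some w) := by
  rw [phi_degree_eq_sum, phi_sum_split t, phi_colSum_eq, phi_sum_split t, add_comm]
  have h1 : ∑ u ∈ tᶜ, (if phiT t G u (some w) = true then 1 else 0) = 0 := by
    refine Finset.sum_eq_zero (fun u hu => ?_)
    rw [phiT_eq_false_of_not_mem t G (Finset.mem_compl.mp hu)]
    simp
  rw [h1, add_zero]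
  congr 1
  refine Finset.sum_congr rfl (fun u hu => ?_)
  by_cases hadj : G.Adj w u
  · rw [if_pos hadj, if_pos ((phiT_some t G u w).mpr ⟨hu, hw, hadj.symm⟩)]
  · rw [if_neg hadj, if_neg (fun hh => hadj ((phiT_some t G u w).mp hh).2.2.symm)]

/-- (D3) Double counting inside the encoding. -/
theorem sum_rowSum_phiT (t : Finset (Fin n)) (G : SimpleGraph (Fin n)) :
    ∑ u ∈ t, Bip.rowSum (phiT t G) u
      = Bip.colSum (phiT t G) none + ∑ w ∈ tᶜ, Bip.colSum (phiT t G) (some w) := by
  have h1 : ∀ u ∈ t, Bip.rowSum (phiT t G) u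
      = (if phiT t G u none = true then 1 else 0)
        + ∑ w ∈ tᶜ, (if phiT t G u (some w) = true then 1 else 0) := by
    intro u hu
    rw [phi_rowSum_eq, phi_sum_split t]
    have h0 : ∑ w ∈ t, (if phiT t G u (some w) = true then 1 else 0) = 0 := by
      refine Finset.sum_eq_zero (fun w hw => ?_)
      rw [phiT_some_eq_false_of_mem t G u hw]
      simp
    rw [h0, zero_add]
  have h2 : Bip.colSum (phiT t G) none = ∑ u ∈ t, (if phiT t G u none = true then 1 else 0) := by
    rw [phi_colSum_eq, phi_sum_split t]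
    have h0 : ∑ u ∈ tᶜ, (if phiT t G u none = true then 1 else 0) = 0 := by
      refine Finset.sum_eq_zero (fun u hu => ?_)
      rw [phiT_eq_false_of_not_mem t G (Finset.mem_compl.mp hu)]
      simp
    rw [h0, add_zero]
  have h3 : ∀ w ∈ tᶜ, Bip.colSum (phiT t G) (some w)
      = ∑ u ∈ t, (if phiT t G u (some w) = true then 1 else 0) := by
    intro w _
    rw [phi_colSum_eq, phi_sum_split t]
    have h0 : ∑ u ∈ tᶜ, (if phiT t G u (some w) = true then 1 else 0) = 0 := by
      refine Finset.sum_eq_zero (fun u hu => ?_)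
      rw [phiT_eq_false_of_not_mem t G (Finset.mem_compl.mp hu)]
      simp
    rw [h0, add_zero]
  rw [Finset.sum_congr rfl h1, Finset.sum_add_distrib, h2, Finset.sum_congr rfl h3,
    Finset.sum_comm]

/-- (E) The virtual column sum is determined by the degrees on `t` and the other column sums. -/
theorem two_colSum_none (t : Finset (Fin n)) (ht : t.card = 3) (G : SimpleGraph (Fin n)) :
    2 * Bip.colSum (phiT t G) none + ∑ u ∈ t, G.degree u
      = ∑ w ∈ tᶜ, Bip.colSum (phiT t G) (some w) + 6 := by
  have h1 : ∀ u ∈ t, G.degree u + Bip.colSum (phiT t G) none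
      = Bip.rowSum (phiT t G) u + 2 := by
    intro u hu
    obtain ⟨j, k, h⟩ := exists_isTriple_of_mem ht hu
    exact h.degree_add_colSum_none G
  have h2 := Finset.sum_congr rfl h1
  rw [Finset.sum_add_distrib, Finset.sum_add_distrib, Finset.sum_const, Finset.sum_const, ht,
    sum_rowSum_phiT t G] at h2
  simp only [smul_eq_mul] at h2
  omega

end Vale.Agent.Lib.P335.Gr
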