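import Vale.Agent.Lib.P335.Gr.Phi

/-!
# P335 / graphs: the three-row encoding matches the classes of a vertex triple and of its pairs
with the matrix classes of three rows and of two rows
-/

namespace Vale.Agent.Lib.P335.Gr

open Finset
open scoped Classical

variable {n : ℕ}

theorem outDeg_eq_of_relG {t : Finset (Fin n)} {G G' : SimpleGraph (Fin n)}
    (hr : RelG (cellsV t) G G') {w : Fin n} (hw : w ∉ t) : outDeg t G' w = outDeg t G w := by
  unfold outDeg
  refine Finset.sum_congr rfl (fun x hx => ?_)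
  have hx' : x ∉ t := Finset.mem_compl.mp hx
  have hiff : G'.Adj w x ↔ G.Adj w x := hr.1 w x (fun hc => hc.elim hw hx')
  by_cases hadj : G.Adj w x
  · rw [if_pos hadj, if_pos (hiff.mpr hadj)]
  · rw [if_neg hadj, if_neg (fun hh => hadj (hiff.mp hh))]

/-- (b) Graphs in the same class of the triple have encodings in the same three-row class. -/
theorem rel_phiT_of_relG {t : Finset (Fin n)} (ht : t.card = 3) {G G' : SimpleGraph (Fin n)}
    (hr : RelG (cellsV t) G G') : Bip.Rel t (TT t) (phiT t G) (phiT t G') := by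
  have hcol : ∀ w, Bip.colSum (phiT t G') (some w) = Bip.colSum (phiT t G) (some w) := by
    intro w
    by_cases hw : w ∈ t
    · rw [colSum_phiT_some_of_mem t G' hw, colSum_phiT_some_of_mem t G hw]
    · have h1 := degree_of_not_mem t G hw
      have h2 := degree_of_not_mem t G' hw
      rw [hr.2 w, outDeg_eq_of_relG hr hw] at h2
      omega
  have hnone : Bip.colSum (phiT t G') none = Bip.colSum (phiT t G) none := by
    have h1 := two_colSum_none t ht G
    have h2 := two_colSum_none t ht G'
    rw [Finset.sum_congr rfl (fun u _ => hr.2 u),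
      Finset.sum_congr rfl (fun w _ => hcol w)] at h2
    omega
  refine ⟨fun u c huc => ?_, fun u => ?_, fun c => ?_⟩
  · rw [phiT_eq_false_of_not_block t G huc, phiT_eq_false_of_not_block t G' huc]
  · by_cases hu : u ∈ t
    · obtain ⟨j, k, h⟩ := exists_isTriple_of_mem ht hu
      have h1 := h.degree_add_colSum_none G
      have h2 := h.degree_add_colSum_none G'
      rw [hr.2 u, hnone] at h2
      omega
    · rw [rowSum_phiT_of_not_mem t G' hu, rowSum_phiT_of_not_mem t G hu]
  · cases c with
    | none => exact hnone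
    | some w => exact hcol w

/-- (c) The encoding is injective on the classes of the triple. -/
theorem eq_of_phiT_eq {t : Finset (Fin n)} (ht : t.card = 3) {G G' : SimpleGraph (Fin n)}
    (hr : RelG (cellsV t) G G') (hphi : phiT t G = phiT t G') : G = G' := by
  have key : ∀ x y, x ∈ t → (G.Adj x y ↔ G'.Adj x y) := by
    intro x y hx
    by_cases hy : y ∈ t
    · by_cases hxy : x = y
      · rw [hxy]
        exact ⟨fun h => absurd h G.irrefl, fun h => absurd h G'.irrefl⟩
      · obtain ⟨u, h⟩ := exists_isTriple_of_mem_mem ht hx hy hxy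
        have h1 := h.phiT_none_iff G
        have h2 := h.phiT_none_iff G'
        rw [hphi] at h1
        exact not_iff_not.mp (h1.symm.trans h2)
    · have h1 := phiT_some t G x y
      have h2 := phiT_some t G' x y
      rw [hphi] at h1
      constructor
      · intro h
        exact (h2.mp (h1.mpr ⟨hx, hy, h⟩)).2.2
      · intro h
        exact (h1.mp (h2.mpr ⟨hx, hy, h⟩)).2.2
  ext x y
  by_cases hx : x ∈ t
  · exact key x y hx
  · by_cases hy : y ∈ t
    · rw [G.adj_comm, G'.adj_comm]
      exact key y x hy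
    · exact (hr.1 x y (fun hc => hc.elim hx hy)).symm

/-- (a) Inside a class of the triple, the class of a pair of its vertices corresponds to the
two-row class of the encoding. -/
theorem relG_pair_iff {t : Finset (Fin n)} (ht : t.card = 3) {p : Finset (Fin n)} (hp : p ⊆ t)
    (hpc : p.card = 2) {G G' : SimpleGraph (Fin n)} (hr : RelG (cellsV t) G G') :
    RelG (cellsV p) G G' ↔ Bip.Rel p (TT t) (phiT t G) (phiT t G') := by
  have hrel := rel_phiT_of_relG ht hr
  -- the third vertex
  have hthird : ∀ u, u ∈ t → u ∉ p → ∀ x, x ∈ t → x ≠ u → x ∈ p := by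
    intro u hu hup x hx hxu
    by_contra hxp
    have hsub : p ⊆ (t.erase u).erase x := by
      intro y hy
      rw [Finset.mem_erase, Finset.mem_erase]
      exact ⟨fun e => hxp (e ▸ hy), fun e => hup (e ▸ hy), hp hy⟩
    have hcard := Finset.card_le_card hsub
    rw [Finset.card_erase_of_mem (Finset.mem_erase.mpr ⟨hxu, hx⟩), Finset.card_erase_of_mem hu,
      ht, hpc] at hcard
    omega
  constructor
  · intro hrp
    refine ⟨fun u c huc => ?_, hrel.2.1, hrel.2.2⟩
    by_cases hblock : u ∈ t ∧ c ∈ TT t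
    · have hu : u ∈ t := hblock.1
      have hup : u ∉ p := fun h => huc ⟨h, hblock.2⟩
      -- entries of the row of the third vertex outside the virtual column
      have hsome : ∀ w, phiT t G' u (some w) = phiT t G u (some w) := by
        intro w
        by_cases hw : w ∈ t
        · rw [phiT_some_eq_false_of_mem t G u hw, phiT_some_eq_false_of_mem t G' u hw]
        · have hwp : w ∉ p := fun h => hw (hp h)
          have hiff : G'.Adj u w ↔ G.Adj u w := hrp.1 u w (fun hc => hc.elim hup hwp)
          rw [Bool.eq_iff_iff, phiT_some, phiT_some, hiff]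
      cases c with
      | some w => exact hsome w
      | none =>
        have h1 := phi_rowSum_eq (phiT t G) u
        have h2 := phi_rowSum_eq (phiT t G') u
        rw [hrel.2.1 u, Finset.sum_congr rfl (fun w _ => by rw [hsome w])] at h2
        rw [h1] at h2
        by_cases ha : phiT t G u none = true
        · by_cases hb : phiT t G' u none = true
          · rw [ha, hb]
          · rw [if_pos ha, if_neg hb] at h2
            omega
        · by_cases hb : phiT t G' u none = true
          · rw [if_neg ha, if_pos hb] at h2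
            omega
          · rw [Bool.not_eq_true] at ha hb
            rw [ha, hb]
    · exact hrel.1 u c hblock
  · intro hrp
    refine ⟨fun x y hxy => ?_, hr.2⟩
    have hxp : x ∉ p := fun h => hxy (Or.inl h)
    have hyp : y ∉ p := fun h => hxy (Or.inr h)
    have key : ∀ a b, a ∈ t → a ∉ p → b ∉ p → (G'.Adj a b ↔ G.Adj a b) := by
      intro a b ha hap hbp
      by_cases hb : b ∈ t
      · have hab : a = b := by
          by_contra hne
          exact hbp (hthird a ha hap b hb (fun e => hne e.symm))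
        rw [hab]
        exact ⟨fun h => absurd h G'.irrefl, fun h => absurd h G.irrefl⟩
      · have h1 := hrp.1 a (some b) (fun hc => hap hc.1)
        have h2 := phiT_some t G a b
        have h3 := phiT_some t G' a b
        rw [h1] at h3
        constructor
        · intro h
          exact (h2.mp (h3.mpr ⟨ha, hb, h⟩)).2.2
        · intro h
          exact (h3.mp (h2.mpr ⟨ha, hb, h⟩)).2.2
    by_cases hx : x ∈ t
    · exact key x y hx hxp hyp
    · by_cases hy : y ∈ t
      · rw [G'.adj_comm, G.adj_comm]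
        exact key y x hy hyp hxp
      · exact hr.1 x y (fun hc => hc.elim hx hy)

/-! ### The inverse of the encoding on a class -/

/-- The graph with the cells away from `t` taken from `G0` and the cells touching `t` read off
the matrix `M`. -/
def graphOfT (t : Finset (Fin n)) (G0 : SimpleGraph (Fin n)) (M : Fin n → Option (Fin n) → Bool) :
    SimpleGraph (Fin n) where
  Adj x y := x ≠ y ∧
    ((x ∉ t ∧ y ∉ t ∧ G0.Adj x y) ∨ (x ∈ t ∧ y ∉ t ∧ M x (some y) = true)
      ∨ (x ∉ t ∧ y ∈ t ∧ M y (some x) = true)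
      ∨ (x ∈ t ∧ y ∈ t ∧ ∃ u ∈ t, u ≠ x ∧ u ≠ y ∧ M u none = false))
  symm := ⟨fun x y h => ⟨h.1.symm, by
    rcases h.2 with h1 | h1 | h1 | h1
    · exact Or.inl ⟨h1.2.1, h1.1, h1.2.2.symm⟩
    · exact Or.inr (Or.inr (Or.inl ⟨h1.2.1, h1.1, h1.2.2⟩))
    · exact Or.inr (Or.inl ⟨h1.2.1, h1.1, h1.2.2⟩)
    · obtain ⟨hx, hy, u, hu, hux, huy, hM⟩ := h1
      exact Or.inr (Or.inr (Or.inr ⟨hy, hx, u, hu, huy, hux, hM⟩))⟩⟩
  loopless := ⟨fun x h => h.1 rfl⟩

theorem graphOfT_adj (t : Finset (Fin n)) (G0 : SimpleGraph (Fin n))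
    (M : Fin n → Option (Fin n) → Bool) (x y : Fin n) :
    (graphOfT t G0 M).Adj x y ↔ x ≠ y ∧
    ((x ∉ t ∧ y ∉ t ∧ G0.Adj x y) ∨ (x ∈ t ∧ y ∉ t ∧ M x (some y) = true)
      ∨ (x ∉ t ∧ y ∈ t ∧ M y (some x) = true)
      ∨ (x ∈ t ∧ y ∈ t ∧ ∃ u ∈ t, u ≠ x ∧ u ≠ y ∧ M u none = false)) := Iff.rfl

theorem graphOfT_adj_out (t : Finset (Fin n)) (G0 : SimpleGraph (Fin n))
    (M : Fin n → Option (Fin n) → Bool) {x y : Fin n} (hx : x ∉ t) (hy : y ∉ t) :
    (graphOfT t G0 M).Adj x y ↔ G0.Adj x y := by
  rw [graphOfT_adj]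
  constructor
  · rintro ⟨-, h1 | h1 | h1 | h1⟩
    · exact h1.2.2
    · exact absurd h1.1 hx
    · exact absurd h1.2.1 hy
    · exact absurd h1.1 hx
  · intro h
    exact ⟨G0.ne_of_adj h, Or.inl ⟨hx, hy, h⟩⟩

theorem graphOfT_adj_mixed (t : Finset (Fin n)) (G0 : SimpleGraph (Fin n))
    (M : Fin n → Option (Fin n) → Bool) {x y : Fin n} (hx : x ∈ t) (hy : y ∉ t) :
    (graphOfT t G0 M).Adj x y ↔ M x (some y) = true := by
  rw [graphOfT_adj]
  constructor
  · rintro ⟨-, h1 | h1 | h1 | h1⟩
    · exact absurd hx h1.1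
    · exact h1.2.2
    · exact absurd hx h1.1
    · exact absurd h1.2.1 hy
  · intro h
    exact ⟨fun e => hy (e ▸ hx), Or.inr (Or.inl ⟨hx, hy, h⟩)⟩

theorem IsTriple.graphOfT_adj_in {t : Finset (Fin n)} {i j k : Fin n} (h : IsTriple t i j k)
    (G0 : SimpleGraph (Fin n)) (M : Fin n → Option (Fin n) → Bool) :
    (graphOfT t G0 M).Adj j k ↔ M i none = false := by
  obtain ⟨hi, hj, hk, hij, hik, hjk, hall⟩ := h
  rw [graphOfT_adj]
  constructor
  · rintro ⟨-, h1 | h1 | h1 | h1⟩
    · exact absurd hj h1.1
    · exact absurd hk h1.2.1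
    · exact absurd hj h1.1
    · obtain ⟨-, -, u, hu, huj, huk, hM⟩ := h1
      rcases hall u hu with e | e | e
      · rw [← e]
        exact hM
      · exact absurd e huj
      · exact absurd e huk
  · intro hM
    exact ⟨hjk, Or.inr (Or.inr (Or.inr ⟨hj, hk, i, hi, hij, hik, hM⟩))⟩

/-- The encoding of the decoded graph is the matrix, if the matrix vanishes outside the block. -/
theorem phiT_graphOfT {t : Finset (Fin n)} (ht : t.card = 3) (G0 : SimpleGraph (Fin n))
    {M : Fin n → Option (Fin n) → Bool} (hM : ∀ u c, ¬ (u ∈ t ∧ c ∈ TT t) → M u c = false) :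
    phiT t (graphOfT t G0 M) = M := by
  funext u c
  by_cases hblock : u ∈ t ∧ c ∈ TT t
  · have hu : u ∈ t := hblock.1
    cases c with
    | none =>
      obtain ⟨j, k, h⟩ := exists_isTriple_of_mem ht hu
      rw [Bool.eq_iff_iff, h.phiT_none_iff, h.graphOfT_adj_in G0 M, Bool.not_eq_false]
    | some w =>
      have hw : w ∉ t := (some_mem_TT t w).mp hblock.2
      rw [Bool.eq_iff_iff, phiT_some, graphOfT_adj_mixed t G0 M hu hw]
      exact ⟨fun h => h.2.2, fun h => ⟨hu, hw, h⟩⟩
  · rw [phiT_eq_false_of_not_block t _ hblock, hM u c hblock]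

/-- (d) Every matrix in the three-row class of an encoding is the encoding of a graph of the
class of the triple. -/
theorem exists_relG_of_rel {t : Finset (Fin n)} (ht : t.card = 3) {G : SimpleGraph (Fin n)}
    {M : Fin n → Option (Fin n) → Bool} (hrel : Bip.Rel t (TT t) (phiT t G) M) :
    ∃ G', RelG (cellsV t) G G' ∧ phiT t G' = M := by
  have hM : ∀ u c, ¬ (u ∈ t ∧ c ∈ TT t) → M u c = false := by
    intro u c huc
    rw [hrel.1 u c huc, phiT_eq_false_of_not_block t G huc]
  have hphi : phiT t (graphOfT t G M) = M := phiT_graphOfT ht G hM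
  have hcells : ∀ x y, ¬ cellsV t x y → ((graphOfT t G M).Adj x y ↔ G.Adj x y) := by
    intro x y hxy
    exact graphOfT_adj_out t G M (fun h => hxy (Or.inl h)) (fun h => hxy (Or.inr h))
  refine ⟨graphOfT t G M, ⟨hcells, fun v => ?_⟩, hphi⟩
  by_cases hv : v ∈ t
  · obtain ⟨j, k, h⟩ := exists_isTriple_of_mem ht hv
    have h1 := h.degree_add_colSum_none G
    have h2 := h.degree_add_colSum_none (graphOfT t G M)
    rw [hphi, hrel.2.1 v, hrel.2.2 none] at h2
    omega
  · have h1 := degree_of_not_mem t G hv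
    have h2 := degree_of_not_mem t (graphOfT t G M) hv
    have h3 : outDeg t (graphOfT t G M) v = outDeg t G v := by
      unfold outDeg
      refine Finset.sum_congr rfl (fun x hx => ?_)
      have hiff := graphOfT_adj_out t G M hv (Finset.mem_compl.mp hx)
      by_cases hadj : G.Adj v x
      · rw [if_pos hadj, if_pos (hiff.mpr hadj)]
      · rw [if_neg hadj, if_neg (fun hh => hadj (hiff.mp hh))]
    rw [hphi, hrel.2.2 (some v), h3] at h2
    omega

end Vale.Agent.Lib.P335.Gr
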