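import Vale.Agent.Lib.P335.Gr.Defs

/-!
# P335 / graphs, leaf K4a: the rectangle property of two pair fibres off the two-edge blocks

`p`, `q` disjoint pairs.  If the block `p × q` of `G` does not have exactly two edges, then for
`G'` in the `p`-fibre of `G` and `G''` in the `q`-fibre of `G` there is exactly one graph `W` in
the `q`-fibre of `G'` and in the `p`-fibre of `G''`.  `W` is `G'` on the cells touching `p` but
not `q`, `G''` on the cells touching `q` but not `p`, and its block is the unique 0/1 matrix with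
the row sums of the block of `G'` and the column sums of the block of `G''`.
-/

namespace Vale.Agent.Lib.P335.Gr

open Finset

/-- The threshold of the block rule. -/
def rectThr (e : ℕ) : ℕ := if e ≤ 1 then 2 else 3

theorem rect_arith_row (e r1 r2 c1 c2 : ℕ) (h1 : r1 < 3) (h2 : r2 < 3) (h3 : c1 < 3)
    (h4 : c2 < 3) (hr : r1 + r2 = e) (hc : c1 + c2 = e) (he : e ≠ 2) :
    (if rectThr e ≤ r1 + c1 then 1 else 0) + (if rectThr e ≤ r1 + c2 then 1 else 0) = r1 := by
  subst hr
  interval_cases r1 <;> interval_cases r2 <;> interval_cases c1 <;> interval_cases c2 <;>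
    first | omega | decide

theorem rect_arith_col (e r1 r2 c1 c2 : ℕ) (h1 : r1 < 3) (h2 : r2 < 3) (h3 : c1 < 3)
    (h4 : c2 < 3) (hr : r1 + r2 = e) (hc : c1 + c2 = e) (he : e ≠ 2) :
    (if rectThr e ≤ r1 + c1 then 1 else 0) + (if rectThr e ≤ r2 + c1 then 1 else 0) = c1 := by
  subst hr
  interval_cases r1 <;> interval_cases r2 <;> interval_cases c1 <;> interval_cases c2 <;>
    first | omega | decide

/-- A 0/1 matrix of size 2 whose number of ones is not 2 is given by the block rule. -/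
theorem rect_arith_unique (e x1 x2 x3 x4 : ℕ) (h1 : x1 < 2) (h2 : x2 < 2) (h3 : x3 < 2)
    (h4 : x4 < 2) (hs : (x1 + x2) + (x3 + x4) = e) (he : e ≠ 2) :
    (x1 = 1 ↔ rectThr e ≤ (x1 + x2) + (x1 + x3)) := by
  subst hs
  interval_cases x1 <;> interval_cases x2 <;> interval_cases x3 <;> interval_cases x4 <;>
    first | omega | decide

open scoped Classical

variable {n : ℕ}

/-- Indicator of adjacency. -/
noncomputable def rectInd (H : SimpleGraph (Fin n)) (u v : Fin n) : ℕ :=
  if H.Adj u v then 1 else 0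

theorem rectInd_comm (H : SimpleGraph (Fin n)) (u v : Fin n) : rectInd H u v = rectInd H v u := by
  unfold rectInd
  rw [H.adj_comm u v]

theorem rectInd_le_one (H : SimpleGraph (Fin n)) (u v : Fin n) : rectInd H u v ≤ 1 := by
  unfold rectInd
  split_ifs <;> omega

theorem rectInd_eq_one_iff (H : SimpleGraph (Fin n)) (u v : Fin n) :
    rectInd H u v = 1 ↔ H.Adj u v := by
  unfold rectInd
  by_cases h : H.Adj u v
  · simp [h]
  · simp [h]

/-- An indicator does not depend on the decision procedure. -/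
theorem rect_ite_inst (P : Prop) (i1 i2 : Decidable P) :
    @ite ℕ P i1 1 0 = @ite ℕ P i2 1 0 := by
  rw [Subsingleton.elim i1 i2]

/-- The number of neighbours of `v` in `T`. -/
noncomputable def rectRow (T : Finset (Fin n)) (H : SimpleGraph (Fin n)) (v : Fin n) : ℕ :=
  ∑ w ∈ T, rectInd H v w

theorem rectRow_pair {c d : Fin n} (hcd : c ≠ d) (H : SimpleGraph (Fin n)) (v : Fin n) :
    rectRow {c, d} H v = rectInd H v c + rectInd H v d := by
  unfold rectRow
  rw [Finset.sum_pair hcd]

theorem rectRow_congr (T : Finset (Fin n)) (H K : SimpleGraph (Fin n)) (v : Fin n)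
    (h : ∀ w ∈ T, (H.Adj v w ↔ K.Adj v w)) : rectRow T H v = rectRow T K v := by
  unfold rectRow
  refine Finset.sum_congr rfl (fun w hw => ?_)
  unfold rectInd
  rw [if_congr (h w hw) rfl rfl]

theorem rect_degree_eq_sum (H : SimpleGraph (Fin n)) (v : Fin n) :
    H.degree v = ∑ w, rectInd H v w := by
  unfold rectInd
  rw [← SimpleGraph.card_neighborFinset_eq_degree, SimpleGraph.neighborFinset_eq_filter,
    Finset.card_filter]

/-- Two graphs that agree at `v` outside `T`: the degrees differ by the numbers of neighbours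
in `T`. -/
theorem rect_degree_local (H K : SimpleGraph (Fin n)) (v : Fin n) (T : Finset (Fin n))
    (h : ∀ w, w ∉ T → (H.Adj v w ↔ K.Adj v w)) :
    H.degree v + rectRow T K v = K.degree v + rectRow T H v := by
  rw [rect_degree_eq_sum, rect_degree_eq_sum,
    ← Finset.sum_add_sum_compl T (fun w => rectInd H v w),
    ← Finset.sum_add_sum_compl T (fun w => rectInd K v w)]
  have hc : ∑ w ∈ Tᶜ, rectInd H v w = ∑ w ∈ Tᶜ, rectInd K v w := by
    refine Finset.sum_congr rfl (fun w hw => ?_)
    unfold rectInd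
    rw [if_congr (h w (Finset.mem_compl.mp hw)) rfl rfl]
  unfold rectRow
  rw [hc]
  ring

/-- In a class of `RelG (cellsV S)` a vertex outside `S` keeps its number of neighbours in `S`. -/
theorem rectRow_of_relG {S : Finset (Fin n)} {G G' : SimpleGraph (Fin n)}
    (h : RelG (cellsV S) G G') {v : Fin n} (hv : v ∉ S) : rectRow S G' v = rectRow S G v := by
  have h1 := rect_degree_local G' G v S (fun w hw => h.1 v w (by
    unfold cellsV
    tauto))
  rw [h.2 v] at h1
  omega

/-- The number of edges between `p` and `q`, counted from either side. -/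
theorem rect_count_comm (p q : Finset (Fin n)) (H : SimpleGraph (Fin n)) :
    ∑ u ∈ p, rectRow q H u = ∑ v ∈ q, rectRow p H v := by
  unfold rectRow
  rw [Finset.sum_comm]
  exact Finset.sum_congr rfl (fun v _ => Finset.sum_congr rfl (fun u _ => rectInd_comm H u v))

theorem rect_blockCount (p q : Finset (Fin n)) (H : SimpleGraph (Fin n)) :
    blockCount p q H = ∑ u ∈ p, rectRow q H u := by
  unfold blockCount rectRow rectInd
  rw [Finset.card_filter, Finset.sum_product]

/-! ### The corner graph -/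

/-- The block rule: the cell `(u, v)`, `u ∈ p`, `v ∈ q`, is an edge iff the row sum of `u` in
the block of `G'` plus the column sum of `v` in the block of `G''` reaches the threshold. -/
def rectBlk (p q : Finset (Fin n)) (G' G'' : SimpleGraph (Fin n)) (u v : Fin n) : Prop :=
  rectThr (∑ w ∈ p, rectRow q G' w) ≤ rectRow q G' u + rectRow p G'' v

/-- The adjacency relation of the corner graph. -/
def rectRel (p q : Finset (Fin n)) (G' G'' : SimpleGraph (Fin n)) (u v : Fin n) : Prop :=
  if u ∈ p ∧ v ∈ q then rectBlk p q G' G'' u v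
  else if u ∈ q ∧ v ∈ p then rectBlk p q G' G'' v u
  else if u ∈ p ∨ v ∈ p then G'.Adj u v
  else G''.Adj u v

theorem rectRel_symm {p q : Finset (Fin n)} (hpq : Disjoint p q) (G' G'' : SimpleGraph (Fin n))
    {u v : Fin n} (h : rectRel p q G' G'' u v) : rectRel p q G' G'' v u := by
  unfold rectRel at h ⊢
  by_cases h1 : u ∈ p ∧ v ∈ q
  · have h2 : ¬ (v ∈ p ∧ u ∈ q) := fun h2 => Finset.disjoint_left.mp hpq h2.1 h1.2
    rw [if_pos h1] at h
    rw [if_neg h2, if_pos ⟨h1.2, h1.1⟩]
    exact h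
  · by_cases h2 : u ∈ q ∧ v ∈ p
    · rw [if_neg h1, if_pos h2] at h
      rw [if_pos ⟨h2.2, h2.1⟩]
      exact h
    · by_cases h3 : u ∈ p ∨ v ∈ p
      · rw [if_neg h1, if_neg h2, if_pos h3] at h
        rw [if_neg (fun h4 => h2 ⟨h4.2, h4.1⟩), if_neg (fun h4 => h1 ⟨h4.2, h4.1⟩),
          if_pos h3.symm]
        exact h.symm
      · rw [if_neg h1, if_neg h2, if_neg h3] at h
        rw [if_neg (fun h4 => h2 ⟨h4.2, h4.1⟩), if_neg (fun h4 => h1 ⟨h4.2, h4.1⟩),
          if_neg (fun h4 => h3 h4.symm)]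
        exact h.symm

theorem rectRel_irrefl {p q : Finset (Fin n)} (hpq : Disjoint p q) (G' G'' : SimpleGraph (Fin n))
    (u : Fin n) : ¬ rectRel p q G' G'' u u := by
  intro h
  unfold rectRel at h
  have h1 : ¬ (u ∈ p ∧ u ∈ q) := fun h1 => Finset.disjoint_left.mp hpq h1.1 h1.2
  have h2 : ¬ (u ∈ q ∧ u ∈ p) := fun h2 => Finset.disjoint_left.mp hpq h2.2 h2.1
  rw [if_neg h1, if_neg h2] at h
  by_cases h3 : u ∈ p ∨ u ∈ p
  · rw [if_pos h3] at h
    exact G'.irrefl h
  · rw [if_neg h3] at h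
    exact G''.irrefl h

/-- The corner graph. -/
def rectW (p q : Finset (Fin n)) (hpq : Disjoint p q) (G' G'' : SimpleGraph (Fin n)) :
    SimpleGraph (Fin n) where
  Adj := rectRel p q G' G''
  symm := ⟨fun _ _ h => rectRel_symm hpq G' G'' h⟩
  loopless := ⟨fun u h => rectRel_irrefl hpq G' G'' u h⟩

theorem rectW_adj_block {p q : Finset (Fin n)} (hpq : Disjoint p q) (G' G'' : SimpleGraph (Fin n))
    {u v : Fin n} (hu : u ∈ p) (hv : v ∈ q) :
    (rectW p q hpq G' G'').Adj u v ↔ rectBlk p q G' G'' u v := by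
  show rectRel p q G' G'' u v ↔ _
  unfold rectRel
  rw [if_pos ⟨hu, hv⟩]

theorem rectW_adj_block' {p q : Finset (Fin n)} (hpq : Disjoint p q)
    (G' G'' : SimpleGraph (Fin n)) {u v : Fin n} (hu : u ∈ q) (hv : v ∈ p) :
    (rectW p q hpq G' G'').Adj u v ↔ rectBlk p q G' G'' v u := by
  show rectRel p q G' G'' u v ↔ _
  unfold rectRel
  rw [if_neg (fun h => Finset.disjoint_left.mp hpq h.1 hu), if_pos ⟨hu, hv⟩]

theorem rectW_adj_p {p q : Finset (Fin n)} (hpq : Disjoint p q) (G' G'' : SimpleGraph (Fin n))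
    {u v : Fin n} (hu : u ∉ q) (hv : v ∉ q) (h : u ∈ p ∨ v ∈ p) :
    (rectW p q hpq G' G'').Adj u v ↔ G'.Adj u v := by
  show rectRel p q G' G'' u v ↔ _
  unfold rectRel
  rw [if_neg (fun h1 => hv h1.2), if_neg (fun h1 => hu h1.1), if_pos h]

theorem rectW_adj_q {p q : Finset (Fin n)} (hpq : Disjoint p q) (G' G'' : SimpleGraph (Fin n))
    {u v : Fin n} (hu : u ∉ p) (hv : v ∉ p) :
    (rectW p q hpq G' G'').Adj u v ↔ G''.Adj u v := by
  show rectRel p q G' G'' u v ↔ _
  unfold rectRel
  rw [if_neg (fun h1 => hu h1.1), if_neg (fun h1 => hv h1.2),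
    if_neg (fun h1 => h1.elim hu hv)]

/-! ### The case of two disjoint pairs -/

section Pairs

variable {a b c d : Fin n}

theorem rect_disjoint (hac : a ≠ c) (had : a ≠ d) (hbc : b ≠ c) (hbd : b ≠ d) :
    Disjoint ({a, b} : Finset (Fin n)) {c, d} := by
  rw [Finset.disjoint_left]
  intro x hx hx'
  rw [Finset.mem_insert, Finset.mem_singleton] at hx hx'
  rcases hx with rfl | rfl <;> rcases hx' with h | h
  · exact hac h
  · exact had h
  · exact hbc h
  · exact hbd h

theorem rectRow_pair_lt (hcd : c ≠ d) (H : SimpleGraph (Fin n)) (v : Fin n) :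
    rectRow {c, d} H v < 3 := by
  rw [rectRow_pair hcd]
  have h1 := rectInd_le_one H v c
  have h2 := rectInd_le_one H v d
  omega

/-- The block counts of `G'` and of `G''` are the block count of `G`. -/
theorem rect_data (hab : a ≠ b) (hcd : c ≠ d)
    (hpq : Disjoint ({a, b} : Finset (Fin n)) {c, d})
    (G G' G'' : SimpleGraph (Fin n)) (he : blockCount {a, b} {c, d} G ≠ 2)
    (h' : rV {a, b} G G') (h'' : rV {c, d} G G'') :
    (∑ w ∈ ({a, b} : Finset (Fin n)), rectRow {c, d} G' w ≠ 2) ∧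
    (rectRow {c, d} G' a + rectRow {c, d} G' b
      = ∑ w ∈ ({a, b} : Finset (Fin n)), rectRow {c, d} G' w) ∧
    (rectRow {a, b} G'' c + rectRow {a, b} G'' d
      = ∑ w ∈ ({a, b} : Finset (Fin n)), rectRow {c, d} G' w) := by
  have e1 : ∑ w ∈ ({a, b} : Finset (Fin n)), rectRow {c, d} G' w
      = ∑ w ∈ ({a, b} : Finset (Fin n)), rectRow {c, d} G w := by
    rw [rect_count_comm, rect_count_comm ({a, b} : Finset (Fin n)) {c, d} G]
    refine Finset.sum_congr rfl (fun v hv => ?_)
    exact rectRow_of_relG h' (Finset.disjoint_right.mp hpq hv)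
  have e2 : ∑ v ∈ ({c, d} : Finset (Fin n)), rectRow {a, b} G'' v
      = ∑ w ∈ ({a, b} : Finset (Fin n)), rectRow {c, d} G w := by
    rw [← rect_count_comm]
    refine Finset.sum_congr rfl (fun u hu => ?_)
    exact rectRow_of_relG h'' (Finset.disjoint_left.mp hpq hu)
  refine ⟨?_, (Finset.sum_pair hab).symm, ?_⟩
  · rw [e1, ← rect_blockCount]
    exact he
  · rw [e1, ← e2, Finset.sum_pair hcd]

/-- Row sums of the block of the corner graph. -/
theorem rectW_row_p (hab : a ≠ b) (hcd : c ≠ d)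
    (hpq : Disjoint ({a, b} : Finset (Fin n)) {c, d}) (G' G'' : SimpleGraph (Fin n))
    (hE3 : ∑ w ∈ ({a, b} : Finset (Fin n)), rectRow {c, d} G' w ≠ 2)
    (hE1 : rectRow {c, d} G' a + rectRow {c, d} G' b
      = ∑ w ∈ ({a, b} : Finset (Fin n)), rectRow {c, d} G' w)
    (hE2 : rectRow {a, b} G'' c + rectRow {a, b} G'' d
      = ∑ w ∈ ({a, b} : Finset (Fin n)), rectRow {c, d} G' w)
    {u : Fin n} (hu : u ∈ ({a, b} : Finset (Fin n))) :
    rectRow {c, d} (rectW {a, b} {c, d} hpq G' G'') u = rectRow {c, d} G' u := by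
  have hc : c ∈ ({c, d} : Finset (Fin n)) := Finset.mem_insert_self c _
  have hd : d ∈ ({c, d} : Finset (Fin n)) :=
    Finset.mem_insert_of_mem (Finset.mem_singleton_self d)
  have hform : rectRow {c, d} (rectW {a, b} {c, d} hpq G' G'') u
      = (if rectThr (∑ w ∈ ({a, b} : Finset (Fin n)), rectRow {c, d} G' w)
            ≤ rectRow {c, d} G' u + rectRow {a, b} G'' c then 1 else 0)
        + (if rectThr (∑ w ∈ ({a, b} : Finset (Fin n)), rectRow {c, d} G' w)
            ≤ rectRow {c, d} G' u + rectRow {a, b} G'' d then 1 else 0) := by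
    rw [rectRow_pair hcd]
    unfold rectInd
    rw [if_congr (rectW_adj_block hpq G' G'' hu hc) rfl rfl,
      if_congr (rectW_adj_block hpq G' G'' hu hd) rfl rfl]
    exact congrArg₂ (· + ·) (rect_ite_inst _ _ _) (rect_ite_inst _ _ _)
  rw [hform]
  rw [Finset.mem_insert, Finset.mem_singleton] at hu
  rcases hu with hu | hu
  · rw [hu]
    exact rect_arith_row (∑ w ∈ ({a, b} : Finset (Fin n)), rectRow {c, d} G' w)
      (rectRow {c, d} G' a) (rectRow {c, d} G' b) (rectRow {a, b} G'' c) (rectRow {a, b} G'' d)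
      (rectRow_pair_lt hcd G' a) (rectRow_pair_lt hcd G' b)
      (rectRow_pair_lt hab G'' c) (rectRow_pair_lt hab G'' d) hE1 hE2 hE3
  · rw [hu]
    exact rect_arith_row (∑ w ∈ ({a, b} : Finset (Fin n)), rectRow {c, d} G' w)
      (rectRow {c, d} G' b) (rectRow {c, d} G' a) (rectRow {a, b} G'' c) (rectRow {a, b} G'' d)
      (rectRow_pair_lt hcd G' b) (rectRow_pair_lt hcd G' a)
      (rectRow_pair_lt hab G'' c) (rectRow_pair_lt hab G'' d) (by omega) hE2 hE3

/-- Column sums of the block of the corner graph. -/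
theorem rectW_row_q (hab : a ≠ b) (hcd : c ≠ d)
    (hpq : Disjoint ({a, b} : Finset (Fin n)) {c, d}) (G' G'' : SimpleGraph (Fin n))
    (hE3 : ∑ w ∈ ({a, b} : Finset (Fin n)), rectRow {c, d} G' w ≠ 2)
    (hE1 : rectRow {c, d} G' a + rectRow {c, d} G' b
      = ∑ w ∈ ({a, b} : Finset (Fin n)), rectRow {c, d} G' w)
    (hE2 : rectRow {a, b} G'' c + rectRow {a, b} G'' d
      = ∑ w ∈ ({a, b} : Finset (Fin n)), rectRow {c, d} G' w)
    {v : Fin n} (hv : v ∈ ({c, d} : Finset (Fin n))) :
    rectRow {a, b} (rectW {a, b} {c, d} hpq G' G'') v = rectRow {a, b} G'' v := by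
  have ha : a ∈ ({a, b} : Finset (Fin n)) := Finset.mem_insert_self a _
  have hb : b ∈ ({a, b} : Finset (Fin n)) :=
    Finset.mem_insert_of_mem (Finset.mem_singleton_self b)
  have hform : rectRow {a, b} (rectW {a, b} {c, d} hpq G' G'') v
      = (if rectThr (∑ w ∈ ({a, b} : Finset (Fin n)), rectRow {c, d} G' w)
            ≤ rectRow {c, d} G' a + rectRow {a, b} G'' v then 1 else 0)
        + (if rectThr (∑ w ∈ ({a, b} : Finset (Fin n)), rectRow {c, d} G' w)
            ≤ rectRow {c, d} G' b + rectRow {a, b} G'' v then 1 else 0) := by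
    rw [rectRow_pair hab]
    unfold rectInd
    rw [if_congr (rectW_adj_block' hpq G' G'' hv ha) rfl rfl,
      if_congr (rectW_adj_block' hpq G' G'' hv hb) rfl rfl]
    exact congrArg₂ (· + ·) (rect_ite_inst _ _ _) (rect_ite_inst _ _ _)
  rw [hform]
  rw [Finset.mem_insert, Finset.mem_singleton] at hv
  rcases hv with hv | hv
  · rw [hv]
    exact rect_arith_col (∑ w ∈ ({a, b} : Finset (Fin n)), rectRow {c, d} G' w)
      (rectRow {c, d} G' a) (rectRow {c, d} G' b) (rectRow {a, b} G'' c) (rectRow {a, b} G'' d)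
      (rectRow_pair_lt hcd G' a) (rectRow_pair_lt hcd G' b)
      (rectRow_pair_lt hab G'' c) (rectRow_pair_lt hab G'' d) hE1 hE2 hE3
  · rw [hv]
    exact rect_arith_col (∑ w ∈ ({a, b} : Finset (Fin n)), rectRow {c, d} G' w)
      (rectRow {c, d} G' a) (rectRow {c, d} G' b) (rectRow {a, b} G'' d) (rectRow {a, b} G'' c)
      (rectRow_pair_lt hcd G' a) (rectRow_pair_lt hcd G' b)
      (rectRow_pair_lt hab G'' d) (rectRow_pair_lt hab G'' c) hE1 (by omega) hE3

/-- The corner graph has the degrees of `G`. -/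
theorem rectW_degree (hab : a ≠ b) (hcd : c ≠ d)
    (hpq : Disjoint ({a, b} : Finset (Fin n)) {c, d})
    (G G' G'' : SimpleGraph (Fin n)) (he : blockCount {a, b} {c, d} G ≠ 2)
    (h' : rV {a, b} G G') (h'' : rV {c, d} G G'') (v : Fin n) :
    (rectW {a, b} {c, d} hpq G' G'').degree v = G.degree v := by
  obtain ⟨hE3, hE1, hE2⟩ := rect_data hab hcd hpq G G' G'' he h' h''
  by_cases hvp : v ∈ ({a, b} : Finset (Fin n))
  · have hvq : v ∉ ({c, d} : Finset (Fin n)) := Finset.disjoint_left.mp hpq hvp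
    have h1 := rect_degree_local (rectW {a, b} {c, d} hpq G' G'') G' v {c, d}
      (fun w hw => rectW_adj_p hpq G' G'' hvq hw (Or.inl hvp))
    rw [rectW_row_p hab hcd hpq G' G'' hE3 hE1 hE2 hvp] at h1
    have h2 := h'.2 v
    omega
  · by_cases hvq : v ∈ ({c, d} : Finset (Fin n))
    · have h1 := rect_degree_local (rectW {a, b} {c, d} hpq G' G'') G'' v {a, b}
        (fun w hw => rectW_adj_q hpq G' G'' hvp hw)
      rw [rectW_row_q hab hcd hpq G' G'' hE3 hE1 hE2 hvq] at h1
      have h2 := h''.2 v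
      omega
    · have h1 := rect_degree_local (rectW {a, b} {c, d} hpq G' G'') G v ({a, b} ∪ {c, d})
        (fun w hw => by
          rw [Finset.mem_union, not_or] at hw
          rw [rectW_adj_q hpq G' G'' hvp hw.1]
          exact h''.1 v w (fun h => h.elim hvq hw.2))
      have hsplit : ∀ H : SimpleGraph (Fin n),
          rectRow ({a, b} ∪ {c, d}) H v = rectRow {a, b} H v + rectRow {c, d} H v := by
        intro H
        unfold rectRow
        exact Finset.sum_union hpq
      rw [hsplit, hsplit] at h1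
      have e1 : rectRow {a, b} (rectW {a, b} {c, d} hpq G' G'') v = rectRow {a, b} G' v :=
        rectRow_congr _ _ _ v (fun w hw =>
          rectW_adj_p hpq G' G'' hvq (Finset.disjoint_left.mp hpq hw) (Or.inr hw))
      have e2 : rectRow {a, b} G' v = rectRow {a, b} G v := rectRow_of_relG h' hvp
      have e3 : rectRow {c, d} (rectW {a, b} {c, d} hpq G' G'') v = rectRow {c, d} G'' v :=
        rectRow_congr _ _ _ v (fun w hw =>
          rectW_adj_q hpq G' G'' hvp (Finset.disjoint_right.mp hpq hw))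
      have e4 : rectRow {c, d} G'' v = rectRow {c, d} G v := rectRow_of_relG h'' hvq
      omega

/-- The corner graph is in the `q`-fibre of `G'`. -/
theorem rectW_rel_q (hab : a ≠ b) (hcd : c ≠ d)
    (hpq : Disjoint ({a, b} : Finset (Fin n)) {c, d})
    (G G' G'' : SimpleGraph (Fin n)) (he : blockCount {a, b} {c, d} G ≠ 2)
    (h' : rV {a, b} G G') (h'' : rV {c, d} G G'') :
    rV {c, d} G' (rectW {a, b} {c, d} hpq G' G'') := by
  refine ⟨fun u v huv => ?_, fun v => ?_⟩
  · have hu : u ∉ ({c, d} : Finset (Fin n)) := fun h => huv (Or.inl h)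
    have hv : v ∉ ({c, d} : Finset (Fin n)) := fun h => huv (Or.inr h)
    by_cases h3 : u ∈ ({a, b} : Finset (Fin n)) ∨ v ∈ ({a, b} : Finset (Fin n))
    · exact rectW_adj_p hpq G' G'' hu hv h3
    · rw [not_or] at h3
      rw [rectW_adj_q hpq G' G'' h3.1 h3.2]
      exact (h''.1 u v huv).trans (h'.1 u v (fun h => h.elim h3.1 h3.2)).symm
  · rw [rectW_degree hab hcd hpq G G' G'' he h' h'' v, h'.2 v]

/-- The corner graph is in the `p`-fibre of `G''`. -/
theorem rectW_rel_p (hab : a ≠ b) (hcd : c ≠ d)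
    (hpq : Disjoint ({a, b} : Finset (Fin n)) {c, d})
    (G G' G'' : SimpleGraph (Fin n)) (he : blockCount {a, b} {c, d} G ≠ 2)
    (h' : rV {a, b} G G') (h'' : rV {c, d} G G'') :
    rV {a, b} G'' (rectW {a, b} {c, d} hpq G' G'') := by
  refine ⟨fun u v huv => ?_, fun v => ?_⟩
  · exact rectW_adj_q hpq G' G'' (fun h => huv (Or.inl h)) (fun h => huv (Or.inr h))
  · rw [rectW_degree hab hcd hpq G G' G'' he h' h'' v, h''.2 v]

/-- The block of any graph in both fibres is given by the block rule. -/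
theorem rect_block_unique (hab : a ≠ b) (hcd : c ≠ d)
    (hpq : Disjoint ({a, b} : Finset (Fin n)) {c, d}) (G' G'' W₁ : SimpleGraph (Fin n))
    (hE3 : ∑ w ∈ ({a, b} : Finset (Fin n)), rectRow {c, d} G' w ≠ 2)
    (hE1 : rectRow {c, d} G' a + rectRow {c, d} G' b
      = ∑ w ∈ ({a, b} : Finset (Fin n)), rectRow {c, d} G' w)
    (h1 : rV {c, d} G' W₁) (h2 : rV {a, b} G'' W₁)
    {u v : Fin n} (hu : u ∈ ({a, b} : Finset (Fin n))) (hv : v ∈ ({c, d} : Finset (Fin n))) :
    W₁.Adj u v ↔ rectBlk {a, b} {c, d} G' G'' u v := by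
  have ha : a ∈ ({a, b} : Finset (Fin n)) := Finset.mem_insert_self a _
  have hb : b ∈ ({a, b} : Finset (Fin n)) :=
    Finset.mem_insert_of_mem (Finset.mem_singleton_self b)
  have hc : c ∈ ({c, d} : Finset (Fin n)) := Finset.mem_insert_self c _
  have hd : d ∈ ({c, d} : Finset (Fin n)) :=
    Finset.mem_insert_of_mem (Finset.mem_singleton_self d)
  have hra : rectRow {c, d} W₁ a = rectRow {c, d} G' a :=
    rectRow_of_relG h1 (Finset.disjoint_left.mp hpq ha)
  have hrb : rectRow {c, d} W₁ b = rectRow {c, d} G' b :=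
    rectRow_of_relG h1 (Finset.disjoint_left.mp hpq hb)
  have hcc : rectRow {a, b} W₁ c = rectRow {a, b} G'' c :=
    rectRow_of_relG h2 (Finset.disjoint_right.mp hpq hc)
  have hcd' : rectRow {a, b} W₁ d = rectRow {a, b} G'' d :=
    rectRow_of_relG h2 (Finset.disjoint_right.mp hpq hd)
  rw [rectRow_pair hcd] at hra hrb
  rw [rectRow_pair hab, rectInd_comm W₁ c a, rectInd_comm W₁ c b] at hcc
  rw [rectRow_pair hab, rectInd_comm W₁ d a, rectInd_comm W₁ d b] at hcd'
  have b1 := rectInd_le_one W₁ a c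
  have b2 := rectInd_le_one W₁ a d
  have b3 := rectInd_le_one W₁ b c
  have b4 := rectInd_le_one W₁ b d
  unfold rectBlk
  rw [← rectInd_eq_one_iff]
  rw [Finset.mem_insert, Finset.mem_singleton] at hu hv
  rcases hu with hu | hu <;> rcases hv with hv | hv <;> rw [hu, hv]
  · have h := rect_arith_unique (∑ w ∈ ({a, b} : Finset (Fin n)), rectRow {c, d} G' w)
      (rectInd W₁ a c) (rectInd W₁ a d) (rectInd W₁ b c) (rectInd W₁ b d)
      (by omega) (by omega) (by omega) (by omega) (by omega) hE3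
    omega
  · have h := rect_arith_unique (∑ w ∈ ({a, b} : Finset (Fin n)), rectRow {c, d} G' w)
      (rectInd W₁ a d) (rectInd W₁ a c) (rectInd W₁ b d) (rectInd W₁ b c)
      (by omega) (by omega) (by omega) (by omega) (by omega) hE3
    omega
  · have h := rect_arith_unique (∑ w ∈ ({a, b} : Finset (Fin n)), rectRow {c, d} G' w)
      (rectInd W₁ b c) (rectInd W₁ b d) (rectInd W₁ a c) (rectInd W₁ a d)
      (by omega) (by omega) (by omega) (by omega) (by omega) hE3
    omega
  · have h := rect_arith_unique (∑ w ∈ ({a, b} : Finset (Fin n)), rectRow {c, d} G' w)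
      (rectInd W₁ b d) (rectInd W₁ b c) (rectInd W₁ a d) (rectInd W₁ a c)
      (by omega) (by omega) (by omega) (by omega) (by omega) hE3
    omega

/-- (K4a) for explicit pairs. -/
theorem rect_off_two_pairs (hab : a ≠ b) (hcd : c ≠ d) (hac : a ≠ c) (had : a ≠ d)
    (hbc : b ≠ c) (hbd : b ≠ d) (G G' G'' : SimpleGraph (Fin n))
    (he : blockCount {a, b} {c, d} G ≠ 2) (h' : rV {a, b} G G') (h'' : rV {c, d} G G'') :
    ∃! W, rV {c, d} G' W ∧ rV {a, b} G'' W := by
  have hpq := rect_disjoint hac had hbc hbd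
  obtain ⟨hE3, hE1, _⟩ := rect_data hab hcd hpq G G' G'' he h' h''
  have hW1 := rectW_rel_q hab hcd hpq G G' G'' he h' h''
  have hW2 := rectW_rel_p hab hcd hpq G G' G'' he h' h''
  refine ⟨rectW {a, b} {c, d} hpq G' G'', ⟨hW1, hW2⟩, ?_⟩
  rintro W₁ ⟨h1, h2⟩
  apply SimpleGraph.ext
  funext u v
  apply propext
  by_cases hq : cellsV {c, d} u v
  · by_cases hp : cellsV {a, b} u v
    · rcases hp with hup | hvp
      · rcases hq with huq | hvq
        · exact absurd huq (Finset.disjoint_left.mp hpq hup)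
        · rw [rect_block_unique hab hcd hpq G' G'' W₁ hE3 hE1 h1 h2 hup hvq,
            rectW_adj_block hpq G' G'' hup hvq]
      · rcases hq with huq | hvq
        · rw [W₁.adj_comm u v, rect_block_unique hab hcd hpq G' G'' W₁ hE3 hE1 h1 h2 hvp huq,
            rectW_adj_block' hpq G' G'' huq hvp]
        · exact absurd hvq (Finset.disjoint_left.mp hpq hvp)
    · exact (h2.1 u v hp).trans (hW2.1 u v hp).symm
  · exact (h1.1 u v hq).trans (hW1.1 u v hq).symm

end Pairs

/-- (K4a) On the graphs whose block `p × q` does not have exactly two edges, `rV p` and `rV q`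
satisfy the rectangle property. -/
theorem rect_off_two_aux (p q : Finset (Fin n)) (hp : p.card = 2) (hq : q.card = 2)
    (hpq : Disjoint p q) (G G' G'' : SimpleGraph (Fin n)) (he : blockCount p q G ≠ 2)
    (h' : rV p G G') (h'' : rV q G G'') : ∃! W, rV q G' W ∧ rV p G'' W := by
  obtain ⟨a, b, hab, rfl⟩ := Finset.card_eq_two.mp hp
  obtain ⟨c, d, hcd, rfl⟩ := Finset.card_eq_two.mp hq
  have ha : a ∈ ({a, b} : Finset (Fin n)) := Finset.mem_insert_self a _
  have hb : b ∈ ({a, b} : Finset (Fin n)) :=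
    Finset.mem_insert_of_mem (Finset.mem_singleton_self b)
  have hna := Finset.disjoint_left.mp hpq ha
  have hnb := Finset.disjoint_left.mp hpq hb
  rw [Finset.mem_insert, Finset.mem_singleton, not_or] at hna hnb
  exact rect_off_two_pairs hab hcd hna.1 hna.2 hnb.1 hnb.2 G G' G'' he h' h''

end Vale.Agent.Lib.P335.Gr
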