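import Vale.Agent.Lib.P335.Bip.Av
import Vale.Agent.Lib.P335.Bip.AvMore
import Vale.Agent.Lib.P335.Bip.Rect
import Vale.Agent.Lib.P335.Gr.StepOne

/-!
# P335 / graphs, leaf K2: STEP 1 as an abstract statement on a finite type

`E_p = av rp`, `E_q = av rq`, `A = av a`, `C = av c`, `S = av s`, `M_p = av mp`, `M_q = av mq`,
`D` a predicate.  Proof (doc `P335_KTV`, section G2):

* `f - E_p f = (f - S f) + (h - E_p h)` with `h = S f`, and `(f - S f) ⟂` every `s`-invariant
  function, so `⟨P_p f, P_q f⟩ = ‖f - S f‖² + ⟨P_p h, P_q h⟩`;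
* with `g = A C h`:  `⟨P_p h, P_q h⟩ ≥ ⟨P_p g, P_q g⟩` (two applications of `arm_reduce`);
* `K = 1_D (M_p - E_p)` satisfies `K S = K`, `K A = K`, `K C = C K`, so `K g = C K f` and
  `∑ (K g)² ≤ ∑ (K f)²`; the same for `q` with `A` and `C` exchanged;
* `g` is invariant under `a`, `c`, `s`; by `hi_p`, `hi_q` we get `M_p g = g = M_q g` on `D`, so
  `2 ⟨P_p g, P_q g⟩ + N_p(g) + N_q(g) = ∑_D (P_p g + P_q g)² + 2 ∑_{¬D} P_p g · P_q g ≥ 0` by
  `hii`.
-/

namespace Vale.Agent.Lib.P335.Gr

open Finset
open scoped Classical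
open Vale.Agent.Lib.P335.Bip

/-- (K2) STEP 1, abstract form. -/
theorem step_one_abstract {X : Type*} [Fintype X]
    (rp rq a c s mp mq : X → X → Prop) (D : X → Prop)
    (hrp : Equivalence rp) (hrq : Equivalence rq) (ha : Equivalence a) (hc : Equivalence c)
    (hs : Equivalence s) (hmp : Equivalence mp) (hmq : Equivalence mq)
    (ha_p : ∀ x y, a x y → rp x y) (hs_p : ∀ x y, s x y → rp x y)
    (hc_q : ∀ x y, c x y → rq x y) (hs_q : ∀ x y, s x y → rq x y)
    (hs_mp : ∀ x y, s x y → mp x y) (ha_mp : ∀ x y, a x y → mp x y)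
    (hs_mq : ∀ x y, s x y → mq x y) (hc_mq : ∀ x y, c x y → mq x y)
    (hmp_p : ∀ x y, mp x y → rp x y) (hmq_q : ∀ x y, mq x y → rq x y)
    (hac : ∀ f : X → ℝ, av a (av c f) = av c (av a f))
    (has : ∀ f : X → ℝ, av a (av s f) = av s (av a f))
    (hcs : ∀ f : X → ℝ, av c (av s f) = av s (av c f))
    (hpc : ∀ f : X → ℝ, av rp (av c f) = av c (av rp f))
    (hqa : ∀ f : X → ℝ, av rq (av a f) = av a (av rq f))
    (hmpc : ∀ f : X → ℝ, av mp (av c f) = av c (av mp f))
    (hmqa : ∀ f : X → ℝ, av mq (av a f) = av a (av mq f))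
    (hDa : ∀ x y, a x y → (D x ↔ D y)) (hDc : ∀ x y, c x y → (D x ↔ D y))
    (hDs : ∀ x y, s x y → (D x ↔ D y))
    (hi_p : ∀ x y, D x → mp x y → ∃ z, s x z ∧ a z y)
    (hi_q : ∀ x y, D x → mq x y → ∃ z, s x z ∧ c z y)
    (hii : ∀ g : X → ℝ, (∀ x y, a x y → g x = g y) → (∀ x y, c x y → g x = g y) →
        (∀ x y, s x y → g x = g y) →
        0 ≤ ∑ x, if D x then 0 else (g x - av rp g x) * (g x - av rq g x))
    (f : X → ℝ) :
    2 * ∑ x, (f x - av s f x) ^ 2
        - (∑ x, if D x then (av mp f x - av rp f x) ^ 2 else 0)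
        - (∑ x, if D x then (av mq f x - av rq f x) ^ 2 else 0)
      ≤ 2 * ∑ x, (f x - av rp f x) * (f x - av rq f x) := by
  have _h1 := hmp_p
  have _h2 := hmq_q
  have _h3 := hDs
  have inv_of : ∀ (t : X → X → Prop), Equivalence t → ∀ g : X → ℝ, av t g = g →
      ∀ x y, t x y → g x = g y := by
    intro t ht g hg x y hxy
    rw [← hg]
    exact av_congr_of_rel ht g hxy
  -- the three reductions
  have hqs : ∀ f' : X → ℝ, av rq (av s f') = av s (av rq f') := by
    intro f'
    rw [av_coarse hs hrq hs_q f', av_coarse' hs hrq hs_q f']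
  have T1 := arm_reduce (e2 := rq) hrp hs hs_p hqs f
  have hu0 : ∀ x, av rq (fun y => f y - av s f y) x = 0 := by
    intro x
    rw [av_sub rq f (av s f), av_coarse hs hrq hs_q f]
    exact sub_self _
  have T1' : ∑ x, (f x - av rp f x) * (f x - av rq f x)
      = ∑ x, (f x - av s f x) ^ 2
        + ∑ x, (av s f x - av rp (av s f) x) * (av s f x - av rq (av s f) x) := by
    rw [T1]
    congr 1
    refine Finset.sum_congr rfl (fun x _ => ?_)
    rw [hu0 x]
    ring
  have T2 := arm_reduce (e2 := rq) hrp ha ha_p hqa (av s f)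
  have T2n : 0 ≤ ∑ x, (av s f x - av a (av s f) x)
      * ((av s f x - av a (av s f) x) - av rq (fun y => av s f y - av a (av s f) y) x) := by
    rw [sum_mul_sub_av hrq (fun y => av s f y - av a (av s f) y)]
    exact Finset.sum_nonneg (fun x _ => sq_nonneg _)
  have T3 := arm_reduce (e2 := rp) hrq hc hc_q hpc (av a (av s f))
  have T3n : 0 ≤ ∑ x, (av a (av s f) x - av c (av a (av s f)) x)
      * ((av a (av s f) x - av c (av a (av s f)) x)
        - av rp (fun y => av a (av s f) y - av c (av a (av s f)) y) x) := by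
    rw [sum_mul_sub_av hrp (fun y => av a (av s f) y - av c (av a (av s f)) y)]
    exact Finset.sum_nonneg (fun x _ => sq_nonneg _)
  -- the reduced function and its invariance
  obtain ⟨g, hgdef⟩ : ∃ g : X → ℝ, g = av c (av a (av s f)) := ⟨_, rfl⟩
  have gc : av c g = g := by rw [hgdef, av_av hc]
  have ga : av a g = g := by rw [hgdef, hac, av_av ha]
  have gs : av s g = g := by rw [hgdef, ← hcs, ← has, av_av hs]
  have T3' : ∑ x, (g x - av rp g x) * (g x - av rq g x)
      ≤ ∑ x, (av s f x - av rp (av s f) x) * (av s f x - av rq (av s f) x) := by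
    have e3 : ∑ x, (av a (av s f) x - av rq (av a (av s f)) x)
        * (av a (av s f) x - av rp (av a (av s f)) x)
        = ∑ x, (av a (av s f) x - av rp (av a (av s f)) x)
        * (av a (av s f) x - av rq (av a (av s f)) x) :=
      Finset.sum_congr rfl (fun x _ => mul_comm _ _)
    have e4 : ∑ x, (av c (av a (av s f)) x - av rq (av c (av a (av s f))) x)
        * (av c (av a (av s f)) x - av rp (av c (av a (av s f))) x)
        = ∑ x, (g x - av rp g x) * (g x - av rq g x) := by
      rw [hgdef]
      exact Finset.sum_congr rfl (fun x _ => mul_comm _ _)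
    rw [e3, e4] at T3
    linarith
  -- the defect terms
  have Np : (∑ x, if D x then (av mp g x - av rp g x) ^ 2 else 0)
      ≤ ∑ x, if D x then (av mp f x - av rp f x) ^ 2 else 0 := by
    apply defect_le_of_av hc hDc (fun y => av mp f y - av rp f y)
      (fun y => av mp g y - av rp g y)
    intro x
    have e1 : av mp g = av c (av mp f) := by
      rw [hgdef, hmpc, av_coarse ha hmp ha_mp (av s f), av_coarse hs hmp hs_mp f]
    have e2 : av rp g = av c (av rp f) := by
      rw [hgdef, hpc, av_coarse ha hrp ha_p (av s f), av_coarse hs hrp hs_p f]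
    rw [e1, e2, av_sub c (av mp f) (av rp f)]
  have Nq : (∑ x, if D x then (av mq g x - av rq g x) ^ 2 else 0)
      ≤ ∑ x, if D x then (av mq f x - av rq f x) ^ 2 else 0 := by
    apply defect_le_of_av ha hDa (fun y => av mq f y - av rq f y)
      (fun y => av mq g y - av rq g y)
    intro x
    have e1 : av mq g = av a (av mq f) := by
      rw [hgdef, av_coarse hc hmq hc_mq (av a (av s f)), hmqa, av_coarse hs hmq hs_mq f]
    have e2 : av rq g = av a (av rq f) := by
      rw [hgdef, av_coarse hc hrq hc_q (av a (av s f)), hqa, av_coarse hs hrq hs_q f]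
    rw [e1, e2, av_sub a (av mq f) (av rq f)]
  -- the final inequality for `g`
  have ia := inv_of a ha g ga
  have ic := inv_of c hc g gc
  have is := inv_of s hs g gs
  have hp3 := hii g ia ic is
  have Ngp : (∑ x, if D x then (av mp g x - av rp g x) ^ 2 else 0)
      = ∑ x, if D x then (g x - av rp g x) ^ 2 else 0 := by
    refine Finset.sum_congr rfl (fun x _ => ?_)
    by_cases hx : D x
    · rw [if_pos hx, if_pos hx]
      have e : av mp g x = g x := by
        apply av_eq_self_of_class hmp
        intro y hy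
        obtain ⟨z, hxz, hzy⟩ := hi_p x y hx hy
        rw [is x z hxz, ia z y hzy]
      rw [e]
    · rw [if_neg hx, if_neg hx]
  have Ngq : (∑ x, if D x then (av mq g x - av rq g x) ^ 2 else 0)
      = ∑ x, if D x then (g x - av rq g x) ^ 2 else 0 := by
    refine Finset.sum_congr rfl (fun x _ => ?_)
    by_cases hx : D x
    · rw [if_pos hx, if_pos hx]
      have e : av mq g x = g x := by
        apply av_eq_self_of_class hmq
        intro y hy
        obtain ⟨z, hxz, hzy⟩ := hi_q x y hx hy
        rw [is x z hxz, ic z y hzy]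
      rw [e]
    · rw [if_neg hx, if_neg hx]
  have hfin : 0 ≤ 2 * ∑ x, (g x - av rp g x) * (g x - av rq g x)
      + (∑ x, if D x then (av mp g x - av rp g x) ^ 2 else 0)
      + (∑ x, if D x then (av mq g x - av rq g x) ^ 2 else 0) := by
    have e : 2 * ∑ x, (g x - av rp g x) * (g x - av rq g x)
        + (∑ x, if D x then (av mp g x - av rp g x) ^ 2 else 0)
        + (∑ x, if D x then (av mq g x - av rq g x) ^ 2 else 0)
        = 2 * (∑ x, if D x then 0 else (g x - av rp g x) * (g x - av rq g x))
          + ∑ x, if D x then ((g x - av rp g x) + (g x - av rq g x)) ^ 2 else 0 := by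
      rw [Ngp, Ngq, Finset.mul_sum, Finset.mul_sum, ← Finset.sum_add_distrib,
        ← Finset.sum_add_distrib, ← Finset.sum_add_distrib]
      refine Finset.sum_congr rfl (fun x _ => ?_)
      by_cases hx : D x
      · rw [if_pos hx, if_pos hx, if_pos hx, if_pos hx]
        ring
      · rw [if_neg hx, if_neg hx, if_neg hx, if_neg hx]
        ring
    rw [e]
    have h2 : 0 ≤ ∑ x, if D x then ((g x - av rp g x) + (g x - av rq g x)) ^ 2 else 0 := by
      apply Finset.sum_nonneg
      intro x _
      by_cases hx : D x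
      · rw [if_pos hx]
        exact sq_nonneg _
      · rw [if_neg hx]
    linarith
  linarith

end Vale.Agent.Lib.P335.Gr
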